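import Vale.Agent.Lib.P335.Gen.Defs

/-!
# P335 general case: what is constant on a fibre of `RS S`
-/

namespace P335

open Finset

set_option linter.unusedSectionVars false

variable {V : Type*} [Fintype V] [DecidableEq V] {d : V → ℕ}

/-- row `y` split into the part inside `S` and the part outside `S` -/
theorem SG.row_split (X : SG d) (S : Finset V) (y : V) :
    ∑ t ∈ S, (X.1 y t).toNat + ∑ t ∈ Sᶜ, (X.1 y t).toNat = d y := by
  rw [Finset.sum_add_sum_compl]
  exact X.row y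

/-- for `y ∉ S` the number of neighbours of `y` inside `S` is constant on the fibres of `RS S`:
compare the row sums of row `y` (split `univ` into `S` and its complement) and use symmetry. -/
theorem RS_col {S : Finset V} {X Y : SG d} (h : RS S X Y) {y : V} (hy : y ∉ S) :
    ∑ t ∈ S, (X.1 t y).toNat = ∑ t ∈ S, (Y.1 t y).toNat := by
  have hX := X.row_split S y
  have hY := Y.row_split S y
  have hc : ∑ t ∈ Sᶜ, (X.1 y t).toNat = ∑ t ∈ Sᶜ, (Y.1 y t).toNat := by
    refine Finset.sum_congr rfl fun t ht => ?_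
    rw [h y t hy (Finset.mem_compl.mp ht)]
  have hXs : ∑ t ∈ S, (X.1 t y).toNat = ∑ t ∈ S, (X.1 y t).toNat :=
    Finset.sum_congr rfl fun t _ => by rw [X.symm t y]
  have hYs : ∑ t ∈ S, (Y.1 t y).toNat = ∑ t ∈ S, (Y.1 y t).toNat :=
    Finset.sum_congr rfl fun t _ => by rw [Y.symm t y]
  omega

/-- the number of (ordered) adjacent pairs inside `S` is constant on the fibres of `RS S`:
`Σ_{t ∈ S} d t = Σ_{t ∈ S} Σ_{s ∈ S} X t s + Σ_{y ∉ S} Σ_{t ∈ S} X t y`, then `RS_col`. -/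
theorem RS_inner {S : Finset V} {X Y : SG d} (h : RS S X Y) :
    ∑ t ∈ S, ∑ s ∈ S, (X.1 t s).toNat = ∑ t ∈ S, ∑ s ∈ S, (Y.1 t s).toNat := by
  have key : ∀ Z : SG d, ∑ t ∈ S, ∑ s ∈ S, (Z.1 t s).toNat
      + ∑ y ∈ Sᶜ, ∑ t ∈ S, (Z.1 t y).toNat = ∑ t ∈ S, d t := by
    intro Z
    rw [Finset.sum_comm (s := Sᶜ) (t := S), ← Finset.sum_add_distrib]
    exact Finset.sum_congr rfl fun t _ => Z.row_split S t
  have hX := key X
  have hY := key Y
  have hc : ∑ y ∈ Sᶜ, ∑ t ∈ S, (X.1 t y).toNat = ∑ y ∈ Sᶜ, ∑ t ∈ S, (Y.1 t y).toNat :=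
    Finset.sum_congr rfl fun y hy => RS_col h (Finset.mem_compl.mp hy)
  omega

/-- inside a `{u,v}`-fibre the column sums `X u y + X v y` (`y ∉ {u,v}`) are constant -/
theorem RS_pair_col {u v : V} (huv : u ≠ v) {X Y : SG d} (h : RS {u, v} X Y) {y : V}
    (hu : y ≠ u) (hv : y ≠ v) :
    (X.1 u y).toNat + (X.1 v y).toNat = (Y.1 u y).toNat + (Y.1 v y).toNat := by
  have hy : y ∉ ({u, v} : Finset V) := by
    simp [hu, hv]
  have := RS_col h hy
  rwa [Finset.sum_pair huv, Finset.sum_pair huv] at this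

/-- inside a `{u,v}`-fibre the slot `uv` is constant (from `RS_inner`) -/
theorem RS_pair_uv {u v : V} (huv : u ≠ v) {X Y : SG d} (h : RS {u, v} X Y) :
    X.1 u v = Y.1 u v := by
  have := RS_inner h
  simp only [Finset.sum_pair huv, X.diag, Y.diag, X.symm v u, Y.symm v u] at this
  revert this
  cases X.1 u v <;> cases Y.1 u v <;> simp

end P335
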