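import Vale.Agent.Lib.P335.Gen.Defs

/-!
# P335 general case: elementary facts about `Alt`, `RX`, `flipRaw`
-/

namespace P335

open Finset

set_option linter.unusedSectionVars false

variable {V : Type*} [Fintype V] [DecidableEq V] {d : V → ℕ}

theorem Alt_swap (u v w z : V) (X : SG d) : Alt w z u v X.1 ↔ Alt u v w z X.1 := by
  unfold Alt
  rw [X.symm w u, X.symm z v, X.symm w v, X.symm z u]
  constructor
  · rintro ⟨h1, h2, h3⟩
    exact ⟨h1, h2.symm, by rw [h3, h2]⟩
  · rintro ⟨h1, h2, h3⟩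
    exact ⟨h1, h2.symm, by rw [h3, h2]⟩

theorem XSlot_swap (u v w z i j : V) : XSlot w z u v i j ↔ XSlot u v w z i j := by
  unfold XSlot
  exact or_comm

theorem XSlot_comm (u v w z i j : V) : XSlot u v w z j i ↔ XSlot u v w z i j := by
  unfold XSlot
  constructor
  · rintro (⟨h1, h2⟩ | ⟨h1, h2⟩)
    · exact Or.inr ⟨h2, h1⟩
    · exact Or.inl ⟨h2, h1⟩
  · rintro (⟨h1, h2⟩ | ⟨h1, h2⟩)
    · exact Or.inr ⟨h2, h1⟩
    · exact Or.inl ⟨h2, h1⟩

theorem RX_swap (u v w z : V) (X Y : SG d) : RX w z u v X Y ↔ RX u v w z X Y := by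
  unfold RX
  constructor
  · intro h i j hij
    exact h i j (fun h' => hij ((XSlot_swap u v w z i j).1 h'))
  · intro h i j hij
    exact h i j (fun h' => hij ((XSlot_swap u v w z i j).2 h'))

theorem RX_le_RS {u v w z : V} {X Y : SG d} (h : RX u v w z X Y) : RS {u, v} X Y := by
  intro i j hi hj
  apply h i j
  simp only [Finset.mem_insert, Finset.mem_singleton] at hi hj
  unfold XSlot
  rintro (⟨h1, _⟩ | ⟨_, h2⟩)
  · exact hi h1
  · exact hj h2

theorem flipRaw_of_slot {u v w z i j : V} (X : V → V → Bool) (h : XSlot u v w z i j) :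
    flipRaw u v w z X i j = !(X i j) := by
  unfold flipRaw
  rw [if_pos h]

theorem flipRaw_of_not_slot {u v w z i j : V} (X : V → V → Bool) (h : ¬ XSlot u v w z i j) :
    flipRaw u v w z X i j = X i j := by
  unfold flipRaw
  rw [if_neg h]

theorem Alt_flipRaw {u v w z : V} (h : D4 u v w z) {X : V → V → Bool} (hA : Alt u v w z X) :
    Alt u v w z (flipRaw u v w z X) := by
  obtain ⟨h1, h2, h3⟩ := hA
  have e1 : flipRaw u v w z X u w = !(X u w) :=
    flipRaw_of_slot X (Or.inl ⟨Or.inl rfl, Or.inl rfl⟩)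
  have e2 : flipRaw u v w z X v z = !(X v z) :=
    flipRaw_of_slot X (Or.inl ⟨Or.inr rfl, Or.inr rfl⟩)
  have e3 : flipRaw u v w z X u z = !(X u z) :=
    flipRaw_of_slot X (Or.inl ⟨Or.inl rfl, Or.inr rfl⟩)
  have e4 : flipRaw u v w z X v w = !(X v w) :=
    flipRaw_of_slot X (Or.inl ⟨Or.inr rfl, Or.inl rfl⟩)
  unfold Alt
  rw [e1, e2, e3, e4]
  exact ⟨by rw [h1], by rw [h2], by rw [h3]⟩

theorem flipRaw_flipRaw (u v w z : V) (X : V → V → Bool) :
    flipRaw u v w z (flipRaw u v w z X) = X := by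
  funext i j
  by_cases h : XSlot u v w z i j
  · rw [flipRaw_of_slot _ h, flipRaw_of_slot _ h, Bool.not_not]
  · rw [flipRaw_of_not_slot _ h, flipRaw_of_not_slot _ h]

/-- flipping two entries with opposite values does not change the number of ones -/
theorem sum_flip_two {a b : V} (hab : a ≠ b) (f g : V → Bool) (h : f a = !(f b))
    (ga : g a = !(f a)) (gb : g b = !(f b)) (gr : ∀ j, j ≠ a → j ≠ b → g j = f j) :
    ∑ j, (g j).toNat = ∑ j, (f j).toNat := by
  have hb : b ∈ (Finset.univ : Finset V).erase a :=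
    Finset.mem_erase.2 ⟨hab.symm, Finset.mem_univ b⟩
  rw [← Finset.add_sum_erase Finset.univ (fun j => (g j).toNat) (Finset.mem_univ a),
    ← Finset.add_sum_erase Finset.univ (fun j => (f j).toNat) (Finset.mem_univ a),
    ← Finset.add_sum_erase _ (fun j => (g j).toNat) hb,
    ← Finset.add_sum_erase _ (fun j => (f j).toNat) hb]
  have hrest : ∑ j ∈ ((Finset.univ : Finset V).erase a).erase b, (g j).toNat
      = ∑ j ∈ ((Finset.univ : Finset V).erase a).erase b, (f j).toNat := by
    refine Finset.sum_congr rfl (fun j hj => ?_)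
    have h1 := Finset.mem_erase.1 hj
    have h2 := Finset.mem_erase.1 h1.2
    rw [gr j h2.1 h1.1]
  rw [hrest]
  simp only [ga, gb, h]
  cases f b <;> simp

/-- flipping an alternating 4-cycle keeps symmetry, the zero diagonal and all row sums.
Row sums: rows outside `{u,v,w,z}` are unchanged; in row `u` exactly the entries `w, z` are
flipped and `X u w = !X u z`; similarly for `v, w, z`. -/
theorem isSG_flipRaw {u v w z : V} (h : D4 u v w z) {X : V → V → Bool} (hX : IsSG d X)
    (hA : Alt u v w z X) : IsSG d (flipRaw u v w z X) := by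
  obtain ⟨huv, huw, huz, hvw, hvz, hwz⟩ := h
  obtain ⟨hs, hd, hr⟩ := hX
  obtain ⟨h1, h2, h3⟩ := hA
  refine ⟨fun i j => ?_, fun i => ?_, fun i => ?_⟩
  · by_cases hij : XSlot u v w z i j
    · rw [flipRaw_of_slot _ hij, flipRaw_of_slot _ ((XSlot_comm u v w z i j).2 hij), hs i j]
    · rw [flipRaw_of_not_slot _ hij,
        flipRaw_of_not_slot _ (fun h' => hij ((XSlot_comm u v w z i j).1 h')), hs i j]
  · rw [flipRaw_of_not_slot, hd i]
    unfold XSlot
    rintro (⟨ha | ha, hb | hb⟩ | ⟨ha | ha, hb | hb⟩)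
    · exact huw (ha.symm.trans hb)
    · exact huz (ha.symm.trans hb)
    · exact hvw (ha.symm.trans hb)
    · exact hvz (ha.symm.trans hb)
    · exact huw (hb.symm.trans ha)
    · exact hvw (hb.symm.trans ha)
    · exact huz (hb.symm.trans ha)
    · exact hvz (hb.symm.trans ha)
  · rw [← hr i]
    by_cases hiu : i = u
    · subst hiu
      refine sum_flip_two hwz (X i) _ h3
        (flipRaw_of_slot X (Or.inl ⟨Or.inl rfl, Or.inl rfl⟩))
        (flipRaw_of_slot X (Or.inl ⟨Or.inl rfl, Or.inr rfl⟩)) (fun j hj1 hj2 => ?_)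
      apply flipRaw_of_not_slot
      unfold XSlot
      rintro (⟨_, hb | hb⟩ | ⟨ha | ha, _⟩)
      · exact hj1 hb
      · exact hj2 hb
      · exact huw ha
      · exact huz ha
    by_cases hiv : i = v
    · subst hiv
      refine sum_flip_two hwz (X i) _ (by rw [← h2, ← h1, h3, Bool.not_not])
        (flipRaw_of_slot X (Or.inl ⟨Or.inr rfl, Or.inl rfl⟩))
        (flipRaw_of_slot X (Or.inl ⟨Or.inr rfl, Or.inr rfl⟩)) (fun j hj1 hj2 => ?_)
      apply flipRaw_of_not_slot
      unfold XSlot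
      rintro (⟨_, hb | hb⟩ | ⟨ha | ha, _⟩)
      · exact hj1 hb
      · exact hj2 hb
      · exact hvw ha
      · exact hvz ha
    by_cases hiw : i = w
    · subst hiw
      refine sum_flip_two huv (X i) _ (by rw [hs i u, hs i v, ← h2, h3])
        (flipRaw_of_slot X (Or.inr ⟨Or.inl rfl, Or.inl rfl⟩))
        (flipRaw_of_slot X (Or.inr ⟨Or.inl rfl, Or.inr rfl⟩)) (fun j hj1 hj2 => ?_)
      apply flipRaw_of_not_slot
      unfold XSlot
      rintro (⟨ha | ha, _⟩ | ⟨_, hb | hb⟩)
      · exact hiu ha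
      · exact hiv ha
      · exact hj1 hb
      · exact hj2 hb
    by_cases hiz : i = z
    · subst hiz
      refine sum_flip_two huv (X i) _ (by rw [hs i u, hs i v, ← h1, h3, Bool.not_not])
        (flipRaw_of_slot X (Or.inr ⟨Or.inr rfl, Or.inl rfl⟩))
        (flipRaw_of_slot X (Or.inr ⟨Or.inr rfl, Or.inr rfl⟩)) (fun j hj1 hj2 => ?_)
      apply flipRaw_of_not_slot
      unfold XSlot
      rintro (⟨ha | ha, _⟩ | ⟨_, hb | hb⟩)
      · exact hiu ha
      · exact hiv ha
      · exact hj1 hb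
      · exact hj2 hb
    · refine Finset.sum_congr rfl (fun j _ => ?_)
      rw [flipRaw_of_not_slot]
      unfold XSlot
      rintro (⟨ha | ha, _⟩ | ⟨ha | ha, _⟩)
      · exact hiu ha
      · exact hiv ha
      · exact hiw ha
      · exact hiz ha

end P335
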