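import Vale.Agent.Lib.P335.Gen.Base1
import Vale.Agent.Lib.P335.Gen.Base2

/-!
# P335 general case: the classes of `RX`
-/

namespace P335

open Finset

set_option linter.unusedSectionVars false

variable {V : Type*} [Fintype V] [DecidableEq V] {d : V → ℕ}

/-- finite check on 8 Booleans -/
theorem base3_bool (a b c e a' b' c' e' : Bool)
    (h1 : a.toNat + c.toNat = a'.toNat + c'.toNat) (h2 : b.toNat + e.toNat = b'.toNat + e'.toNat)
    (h3 : a.toNat + b.toNat = a'.toNat + b'.toNat) (h4 : c.toNat + e.toNat = c'.toNat + e'.toNat) :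
    (a = a' ∧ b = b' ∧ c = c' ∧ e = e') ∨
      ((a = e ∧ b = c ∧ a = !b) ∧ a' = !a ∧ b' = !b ∧ c' = !c ∧ e' = !e) := by
  revert h1 h2 h3 h4
  cases a <;> cases b <;> cases c <;> cases e <;> cases a' <;> cases b' <;> cases c' <;>
    cases e' <;> simp

/-- the four block equations of two graphs agreeing off the four slots -/
theorem base3_sums {u v w z : V} (h : D4 u v w z) {X Y : SG d} (hXY : RX u v w z X Y) :
    ((X.1 u w).toNat + (X.1 v w).toNat = (Y.1 u w).toNat + (Y.1 v w).toNat) ∧
    ((X.1 u z).toNat + (X.1 v z).toNat = (Y.1 u z).toNat + (Y.1 v z).toNat) ∧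
    ((X.1 u w).toNat + (X.1 u z).toNat = (Y.1 u w).toNat + (Y.1 u z).toNat) ∧
    ((X.1 v w).toNat + (X.1 v z).toNat = (Y.1 v w).toNat + (Y.1 v z).toNat) := by
  obtain ⟨huv, huw, huz, hvw, hvz, hwz⟩ := h
  have h1 := RS_pair_col huv (RX_le_RS hXY) (y := w) huw.symm hvw.symm
  have h2 := RS_pair_col huv (RX_le_RS hXY) (y := z) huz.symm hvz.symm
  have hXY' : RX w z u v X Y := (RX_swap u v w z X Y).2 hXY
  have h3 := RS_pair_col hwz (RX_le_RS hXY') (y := u) huw huz
  have h4 := RS_pair_col hwz (RX_le_RS hXY') (y := v) hvw hvz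
  rw [X.symm w u, X.symm z u, Y.symm w u, Y.symm z u] at h3
  rw [X.symm w v, X.symm z v, Y.symm w v, Y.symm z v] at h4
  exact ⟨h1, h2, h3, h4⟩

/-- two graphs agreeing off the four slots are equal or differ by the switch:
the 2 x 2 block `(X u w, X u z; X v w, X v z)` has the same row and column sums in `X` and `Y`
(compare the row sums of rows `u, v, w, z`); then a finite check on 8 Booleans. -/
theorem RX_cases {u v w z : V} (h : D4 u v w z) {X Y : SG d} (hXY : RX u v w z X Y) :
    X = Y ∨ (Alt u v w z X.1 ∧ Y.1 = flipRaw u v w z X.1) := by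
  obtain ⟨h1, h2, h3, h4⟩ := base3_sums h hXY
  rcases base3_bool _ _ _ _ _ _ _ _ h1 h2 h3 h4 with ⟨e1, e2, e3, e4⟩ | ⟨hA, e1, e2, e3, e4⟩
  · left
    apply SG.ext'
    intro i j
    by_cases hs : XSlot u v w z i j
    · rcases hs with ⟨hi | hi, hj | hj⟩ | ⟨hi | hi, hj | hj⟩ <;> subst hi <;> subst hj
      · exact e1
      · exact e2
      · exact e3
      · exact e4
      · rw [X.symm, Y.symm]; exact e1
      · rw [X.symm, Y.symm]; exact e3
      · rw [X.symm, Y.symm]; exact e2
      · rw [X.symm, Y.symm]; exact e4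
    · exact hXY i j hs
  · right
    refine ⟨hA, ?_⟩
    funext i j
    unfold flipRaw
    by_cases hs : XSlot u v w z i j
    · rw [if_pos hs]
      rcases hs with ⟨hi | hi, hj | hj⟩ | ⟨hi | hi, hj | hj⟩ <;> subst hi <;> subst hj
      · exact e1
      · exact e2
      · exact e3
      · exact e4
      · rw [X.symm, Y.symm]; exact e1
      · rw [X.symm, Y.symm]; exact e3
      · rw [X.symm, Y.symm]; exact e2
      · rw [X.symm, Y.symm]; exact e4
    · rw [if_neg hs]
      exact (hXY i j hs).symm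

theorem RX_le_RSs {u v w z : V} (h : D4 u v w z) {X Y : SG d} (hXY : RX u v w z X Y) :
    RSs u v w z X Y := by
  refine ⟨RX_le_RS hXY, ?_⟩
  rcases RX_cases h hXY with rfl | ⟨hA, hY⟩
  · exact Iff.rfl
  · constructor
    · intro _
      rw [hY]
      exact Alt_flipRaw h hA
    · intro _
      exact hA

/-- if the column sums of the block are not `(1,1)` no graph of the `{u,v}`-fibre is alternating
(use `RS_pair_col` for `y = w` and `y = z`) -/
theorem not_Alt_of_col {u v w z : V} (h : D4 u v w z) {X Y : SG d} (hXY : RS {u, v} X Y)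
    (hc : ¬ (X.1 u w = !X.1 v w ∧ X.1 u z = !X.1 v z)) : ¬ Alt u v w z Y.1 := by
  obtain ⟨huv, huw, huz, hvw, hvz, hwz⟩ := h
  have h1 := RS_pair_col huv hXY (y := w) huw.symm hvw.symm
  have h2 := RS_pair_col huv hXY (y := z) huz.symm hvz.symm
  unfold Alt
  revert hc h1 h2
  cases X.1 u w <;> cases X.1 v w <;> cases X.1 u z <;> cases X.1 v z <;> cases Y.1 u w <;>
    cases Y.1 v w <;> cases Y.1 u z <;> cases Y.1 v z <;> simp

end P335
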