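import Vale.Agent.Lib.P335.Caputo

/-!
# P335 general case: the bookkeeping behind `A^2 ≥ A` when the disjoint cross terms are only
nonnegative in sum
-/

namespace P335

open Finset

variable {Ω : Type*} [Fintype Ω]

/-- Copy the proof of `caputo_sq` in `Caputo.lean`: add the summand
`(if i ≠ j ∧ i ≠ k ∧ i ≠ l ∧ j ≠ k ∧ j ≠ l ∧ k ≠ l then dot (q i j) (q k l) else 0)` to the left side
of the pointwise bound `hpt` (which then needs no hypothesis on disjoint pairs) and use `hdisj` after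
summation. -/
theorem caputo_sq' {ι : Type*} [Fintype ι] [DecidableEq ι] (q : ι → ι → Ω → ℝ)
    (hsymm : ∀ i j, q i j = q j i)
    (hdisj : 0 ≤ ∑ i, ∑ j, ∑ k, ∑ l,
      (if i ≠ j ∧ i ≠ k ∧ i ≠ l ∧ j ≠ k ∧ j ≠ l ∧ k ≠ l then dot (q i j) (q k l) else 0))
    (htri : ∀ i j k, i ≠ j → i ≠ k → j ≠ k →
      0 ≤ dot (q i j) (q i k) + dot (q i j) (q j k) + dot (q i k) (q j k)) :
    2 * ∑ i, ∑ j, (if i ≠ j then dot (q i j) (q i j) else 0)
      ≤ dot (∑ i, ∑ j, (if i ≠ j then q i j else 0)) (∑ i, ∑ j, (if i ≠ j then q i j else 0)) := by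
  -- expansion of the square
  have hexp : dot (∑ i, ∑ j, (if i ≠ j then q i j else 0))
      (∑ i, ∑ j, (if i ≠ j then q i j else 0)) =
      ∑ i, ∑ j, ∑ k, ∑ l, (if i ≠ j ∧ k ≠ l then dot (q i j) (q k l) else 0) := by
    rw [dot_sum_left]
    refine Finset.sum_congr rfl fun i _ => ?_
    rw [dot_sum_left]
    refine Finset.sum_congr rfl fun j _ => ?_
    rw [dot_sum_right]
    refine Finset.sum_congr rfl fun k _ => ?_
    rw [dot_sum_right]
    refine Finset.sum_congr rfl fun l _ => ?_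
    rw [dot_ite_left, dot_ite_right]
    by_cases h1 : i ≠ j <;> by_cases h2 : k ≠ l <;> simp [h1, h2]
  -- the sum over distinct triples
  set T : ℝ := ∑ i, ∑ j, ∑ l, (if i ≠ j ∧ i ≠ l ∧ j ≠ l then dot (q i j) (q i l) else 0) with hT
  have hT' : ∑ i, ∑ j, ∑ l, (if i ≠ j ∧ i ≠ l ∧ j ≠ l then dot (q i j) (q j l) else 0) = T := by
    rw [hT, Finset.sum_comm]
    refine Finset.sum_congr rfl fun i _ => ?_
    refine Finset.sum_congr rfl fun j _ => ?_
    refine Finset.sum_congr rfl fun l _ => ?_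
    rw [hsymm j i]
    refine if_congr ?_ rfl rfl
    constructor
    · rintro ⟨a, b, c⟩
      exact ⟨a.symm, c, b⟩
    · rintro ⟨a, b, c⟩
      exact ⟨a.symm, c, b⟩
  have hT'' : ∑ i, ∑ j, ∑ l, (if i ≠ j ∧ i ≠ l ∧ j ≠ l then dot (q i l) (q j l) else 0) = T := by
    rw [hT]
    have e1 : ∑ i, ∑ j, ∑ l, (if i ≠ j ∧ i ≠ l ∧ j ≠ l then dot (q i l) (q j l) else 0) =
        ∑ i, ∑ l, ∑ j, (if i ≠ j ∧ i ≠ l ∧ j ≠ l then dot (q i l) (q j l) else 0) :=
      Finset.sum_congr rfl fun i _ => Finset.sum_comm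
    rw [e1, Finset.sum_comm]
    refine Finset.sum_congr rfl fun l _ => ?_
    refine Finset.sum_congr rfl fun i _ => ?_
    refine Finset.sum_congr rfl fun j _ => ?_
    rw [hsymm i l, hsymm j l]
    refine if_congr ?_ rfl rfl
    constructor
    · rintro ⟨a, b, c⟩
      exact ⟨b.symm, c.symm, a⟩
    · rintro ⟨a, b, c⟩
      exact ⟨c, a.symm, b.symm⟩
  have hTnn : 0 ≤ T := by
    have h3 : 0 ≤ T + (∑ i, ∑ j, ∑ l, (if i ≠ j ∧ i ≠ l ∧ j ≠ l then dot (q i j) (q j l) else 0))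
        + (∑ i, ∑ j, ∑ l, (if i ≠ j ∧ i ≠ l ∧ j ≠ l then dot (q i l) (q j l) else 0)) := by
      rw [hT]
      simp only [← Finset.sum_add_distrib]
      refine Finset.sum_nonneg fun i _ => Finset.sum_nonneg fun j _ => Finset.sum_nonneg fun l _ => ?_
      by_cases h : i ≠ j ∧ i ≠ l ∧ j ≠ l
      · simp only [if_pos h]
        exact htri i j l h.1 h.2.1 h.2.2
      · simp only [if_neg h]
        simp
    rw [hT', hT''] at h3
    linarith
  -- pointwise lower bound
  have hpt : ∀ i j k l : ι,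
      (if i ≠ j ∧ k = i ∧ l = j then dot (q i j) (q i j) else 0)
      + (if i ≠ j ∧ k = j ∧ l = i then dot (q i j) (q i j) else 0)
      + (if (i ≠ j ∧ i ≠ l ∧ j ≠ l) ∧ k = i then dot (q i j) (q i l) else 0)
      + (if (i ≠ j ∧ i ≠ l ∧ j ≠ l) ∧ k = j then dot (q i j) (q j l) else 0)
      + (if (i ≠ j ∧ i ≠ k ∧ j ≠ k) ∧ l = i then dot (q i j) (q i k) else 0)
      + (if (i ≠ j ∧ i ≠ k ∧ j ≠ k) ∧ l = j then dot (q i j) (q j k) else 0)
      + (if i ≠ j ∧ i ≠ k ∧ i ≠ l ∧ j ≠ k ∧ j ≠ l ∧ k ≠ l then dot (q i j) (q k l) else 0)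
      ≤ (if i ≠ j ∧ k ≠ l then dot (q i j) (q k l) else 0) := by
    intro i j k l
    by_cases hij : i = j
    · simp [hij]
    by_cases hki : k = i
    · subst hki
      by_cases hlk : l = k
      · subst hlk
        simp [hij]
      · by_cases hlj : l = j
        · subst hlj
          simp [hij, hlk, Ne.symm hlk]
        · simp [hij, hlk, hlj, Ne.symm hlk, Ne.symm hlj]
    by_cases hkj : k = j
    · subst hkj
      by_cases hlk : l = k
      · subst hlk
        simp [hij, hki]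
      · by_cases hli : l = i
        · subst hli
          simp [hij, hki, hsymm k l]
        · simp [hij, hki, hlk, hli, Ne.symm hlk, Ne.symm hli]
    by_cases hli : l = i
    · subst hli
      simp [hij, hki, hkj, Ne.symm hki, Ne.symm hkj, hsymm k l]
    by_cases hlj : l = j
    · subst hlj
      simp [hij, hki, hkj, hli, Ne.symm hki, Ne.symm hkj, Ne.symm hli, hsymm k l]
    by_cases hkl : k = l
    · simp [hij, hki, hkj, hli, hlj, hkl]
    · simp only [hki, hkj, hli, hlj, and_false, false_and, if_false, add_zero, zero_add]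
      rw [if_pos (show i ≠ j ∧ i ≠ k ∧ i ≠ l ∧ j ≠ k ∧ j ≠ l ∧ k ≠ l from
          ⟨hij, Ne.symm hki, Ne.symm hli, Ne.symm hkj, Ne.symm hlj, hkl⟩),
        if_pos (show i ≠ j ∧ k ≠ l from ⟨hij, hkl⟩)]
  rw [hexp]
  set S : ℝ := ∑ i, ∑ j, (if i ≠ j then dot (q i j) (q i j) else 0) with hS
  have hsum : S + S + T + T + T + T + (∑ i, ∑ j, ∑ k, ∑ l,
      (if i ≠ j ∧ i ≠ k ∧ i ≠ l ∧ j ≠ k ∧ j ≠ l ∧ k ≠ l then dot (q i j) (q k l) else 0)) ≤
      ∑ i, ∑ j, ∑ k, ∑ l, (if i ≠ j ∧ k ≠ l then dot (q i j) (q k l) else 0) := by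
    have hle := Finset.sum_le_sum fun i (_ : i ∈ (Finset.univ : Finset ι)) =>
      Finset.sum_le_sum fun j (_ : j ∈ (Finset.univ : Finset ι)) =>
      Finset.sum_le_sum fun k (_ : k ∈ (Finset.univ : Finset ι)) =>
      Finset.sum_le_sum fun l (_ : l ∈ (Finset.univ : Finset ι)) => hpt i j k l
    refine le_trans (le_of_eq ?_) hle
    simp only [Finset.sum_add_distrib]
    have t1 : ∑ i, ∑ j, ∑ k, ∑ l, (if i ≠ j ∧ k = i ∧ l = j then dot (q i j) (q i j) else 0) = S := by
      rw [hS]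
      refine Finset.sum_congr rfl fun i _ => Finset.sum_congr rfl fun j _ => ?_
      have : ∀ k, ∑ l, (if i ≠ j ∧ k = i ∧ l = j then dot (q i j) (q i j) else 0) =
          if i ≠ j ∧ k = i then dot (q i j) (q i j) else 0 := by
        intro k
        simp only [← and_assoc]
        exact sum_ite_and_eq _ _ _
      simp only [this]
      exact sum_ite_and_eq _ _ _
    have t2 : ∑ i, ∑ j, ∑ k, ∑ l, (if i ≠ j ∧ k = j ∧ l = i then dot (q i j) (q i j) else 0) = S := by
      rw [hS]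
      refine Finset.sum_congr rfl fun i _ => Finset.sum_congr rfl fun j _ => ?_
      have : ∀ k, ∑ l, (if i ≠ j ∧ k = j ∧ l = i then dot (q i j) (q i j) else 0) =
          if i ≠ j ∧ k = j then dot (q i j) (q i j) else 0 := by
        intro k
        simp only [← and_assoc]
        exact sum_ite_and_eq _ _ _
      simp only [this]
      exact sum_ite_and_eq _ _ _
    have t3 : ∑ i, ∑ j, ∑ k, ∑ l,
        (if (i ≠ j ∧ i ≠ l ∧ j ≠ l) ∧ k = i then dot (q i j) (q i l) else 0) = T := by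
      rw [hT]
      refine Finset.sum_congr rfl fun i _ => Finset.sum_congr rfl fun j _ => ?_
      rw [Finset.sum_comm]
      refine Finset.sum_congr rfl fun l _ => ?_
      exact sum_ite_and_eq _ _ _
    have t4 : ∑ i, ∑ j, ∑ k, ∑ l,
        (if (i ≠ j ∧ i ≠ l ∧ j ≠ l) ∧ k = j then dot (q i j) (q j l) else 0) = T := by
      rw [← hT']
      refine Finset.sum_congr rfl fun i _ => Finset.sum_congr rfl fun j _ => ?_
      rw [Finset.sum_comm]
      refine Finset.sum_congr rfl fun l _ => ?_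
      exact sum_ite_and_eq _ _ _
    have t5 : ∑ i, ∑ j, ∑ k, ∑ l,
        (if (i ≠ j ∧ i ≠ k ∧ j ≠ k) ∧ l = i then dot (q i j) (q i k) else 0) = T := by
      rw [hT]
      refine Finset.sum_congr rfl fun i _ => Finset.sum_congr rfl fun j _ => ?_
      refine Finset.sum_congr rfl fun k _ => ?_
      exact sum_ite_and_eq _ _ _
    have t6 : ∑ i, ∑ j, ∑ k, ∑ l,
        (if (i ≠ j ∧ i ≠ k ∧ j ≠ k) ∧ l = j then dot (q i j) (q j k) else 0) = T := by
      rw [← hT']
      refine Finset.sum_congr rfl fun i _ => Finset.sum_congr rfl fun j _ => ?_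
      refine Finset.sum_congr rfl fun k _ => ?_
      exact sum_ite_and_eq _ _ _
    rw [t1, t2, t3, t4, t5, t6]
  linarith

end P335
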