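import Vale.Agent.Lib.P335.Gen.Base

/-!
# P335 general case: every switch pair is seen by at most 8 ordered 4-tuples
-/

namespace P335

open Finset

set_option linter.unusedSectionVars false

variable {V : Type*} [Fintype V] [DecidableEq V] {d : V → ℕ}

/-- `Y` arises from `X` by a switch -/
def IsSwG (X Y : SG d) : Prop := X ≠ Y ∧ ∃ u v w z, D4 u v w z ∧ RX u v w z X Y

open Classical in
/-- If `X ≠ Y` and `(u0,v0,w0,z0)` is one admissible tuple then `X, Y` differ at all four slots
`u0w0, u0z0, v0w0, v0z0` (`RX_cases`), so for every admissible `(u,v,w,z)` these four slots are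
`XSlot u v w z`; hence `(u,v,w,z)` is one of the 8 tuples
`(u0,v0,w0,z0), (v0,u0,w0,z0), (u0,v0,z0,w0), (v0,u0,z0,w0), (w0,z0,u0,v0), (z0,w0,u0,v0),
(w0,z0,v0,u0), (z0,w0,v0,u0)`.  Compare `card_tuples_le` in `Blocks.lean`. -/
theorem card_tuples_RX_le (X Y : SG d) (hXY : X ≠ Y) :
    (univ.filter (fun t : V × V × V × V => D4 t.1 t.2.1 t.2.2.1 t.2.2.2 ∧
      RX t.1 t.2.1 t.2.2.1 t.2.2.2 X Y)).card ≤ 8 := by
  classical
  rcases Finset.eq_empty_or_nonempty (univ.filter (fun t : V × V × V × V =>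
      D4 t.1 t.2.1 t.2.2.1 t.2.2.2 ∧ RX t.1 t.2.1 t.2.2.1 t.2.2.2 X Y)) with h0 | ⟨⟨u0, v0, w0, z0⟩, h0⟩
  · rw [h0]
    simp
  simp only [mem_filter, mem_univ, true_and] at h0
  obtain ⟨hD0, hR0⟩ := h0
  have hflip : Y.1 = flipRaw u0 v0 w0 z0 X.1 := by
    rcases RX_cases hD0 hR0 with h | ⟨-, h⟩
    · exact absurd h hXY
    · exact h
  have hdiff : ∀ i j, XSlot u0 v0 w0 z0 i j → X.1 i j ≠ Y.1 i j := by
    intro i j hs
    rw [hflip]
    unfold flipRaw
    rw [if_pos hs]
    cases X.1 i j <;> simp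
  refine le_trans (Finset.card_le_card (t := {(u0, v0, w0, z0), (v0, u0, w0, z0),
    (u0, v0, z0, w0), (v0, u0, z0, w0), (w0, z0, u0, v0), (z0, w0, u0, v0), (w0, z0, v0, u0),
    (z0, w0, v0, u0)}) ?_) ?_
  · rintro ⟨u, v, w, z⟩ ht
    simp only [mem_filter, mem_univ, true_and] at ht
    obtain ⟨hD, hR⟩ := ht
    have key : ∀ i j, XSlot u0 v0 w0 z0 i j → XSlot u v w z i j := by
      intro i j hs
      by_contra hcon
      exact hdiff i j hs (hR i j hcon)
    have S1 := key u0 w0 (Or.inl ⟨Or.inl rfl, Or.inl rfl⟩)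
    have S2 := key u0 z0 (Or.inl ⟨Or.inl rfl, Or.inr rfl⟩)
    have S3 := key v0 w0 (Or.inl ⟨Or.inr rfl, Or.inl rfl⟩)
    obtain ⟨a1, a2, a3, a4, a5, a6⟩ := hD
    obtain ⟨b1, b2, b3, b4, b5, b6⟩ := hD0
    simp only [mem_insert, mem_singleton, Prod.mk.injEq]
    rcases S1 with ⟨hu0, hw0⟩ | ⟨hu0, hw0⟩
    · have hz0 : z0 = w ∨ z0 = z := by
        rcases S2 with ⟨-, h⟩ | ⟨h, -⟩
        · exact h
        · exfalso
          rcases hu0 with e | e <;> rcases h with e' | e' <;> rw [e] at e'
          · exact a2 e'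
          · exact a3 e'
          · exact a4 e'
          · exact a5 e'
      have hv0 : v0 = u ∨ v0 = v := by
        rcases S3 with ⟨h, -⟩ | ⟨-, h⟩
        · exact h
        · exfalso
          rcases hw0 with e | e <;> rcases h with e' | e' <;> rw [e] at e'
          · exact a2 e'.symm
          · exact a4 e'.symm
          · exact a3 e'.symm
          · exact a5 e'.symm
      rcases hu0 with rfl | rfl <;> rcases hv0 with rfl | rfl <;> rcases hw0 with rfl | rfl <;>
        rcases hz0 with rfl | rfl <;> simp_all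
    · have hz0 : z0 = u ∨ z0 = v := by
        rcases S2 with ⟨h, -⟩ | ⟨-, h⟩
        · exfalso
          rcases hu0 with e | e <;> rcases h with e' | e' <;> rw [e] at e'
          · exact a2 e'.symm
          · exact a4 e'.symm
          · exact a3 e'.symm
          · exact a5 e'.symm
        · exact h
      have hv0 : v0 = w ∨ v0 = z := by
        rcases S3 with ⟨-, h⟩ | ⟨h, -⟩
        · exfalso
          rcases hw0 with e | e <;> rcases h with e' | e' <;> rw [e] at e'
          · exact a2 e'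
          · exact a3 e'
          · exact a4 e'
          · exact a5 e'
        · exact h
      rcases hu0 with rfl | rfl <;> rcases hv0 with rfl | rfl <;> rcases hw0 with rfl | rfl <;>
        rcases hz0 with rfl | rfl <;> simp_all
  · refine le_trans (Finset.card_insert_le _ _) ?_
    refine le_trans (Nat.add_le_add_right (Finset.card_insert_le _ _) 1) ?_
    have := Finset.card_le_six (a := (u0, v0, z0, w0)) (b := (v0, u0, z0, w0))
      (c := (w0, z0, u0, v0)) (d := (z0, w0, u0, v0)) (e := (w0, z0, v0, u0))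
      (f := (z0, w0, v0, u0))
    omega

end P335
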