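import Vale.Agent.Lib.P335.Gen.Count

/-!
# P335 general case: summing over ordered 4-tuples
-/

namespace P335

open Finset

set_option linter.unusedSectionVars false

variable {V : Type*} [Fintype V] [DecidableEq V] {d : V → ℕ}

open Classical in
/-- Same proof as `sum_blocks_le` in `Blocks.lean`, with `card_tuples_RX_le`. -/
theorem sum_tuples_le (F : SG d → SG d → ℝ) (hF : ∀ X Y, 0 ≤ F X Y) :
    ∑ u : V, ∑ v : V, ∑ w : V, ∑ z : V, (if D4 u v w z then
        ∑ X : SG d, ∑ Y : SG d, (if X ≠ Y ∧ RX u v w z X Y then F X Y else 0) else 0)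
      ≤ 8 * ∑ X : SG d, ∑ Y : SG d, (if IsSwG X Y then F X Y else 0) := by
  have e1 : ∑ u : V, ∑ v : V, ∑ w : V, ∑ z : V, (if D4 u v w z then
        ∑ X : SG d, ∑ Y : SG d, (if X ≠ Y ∧ RX u v w z X Y then F X Y else 0) else 0)
      = ∑ t : V × V × V × V, ∑ X : SG d, ∑ Y : SG d,
        (if X ≠ Y ∧ (D4 t.1 t.2.1 t.2.2.1 t.2.2.2 ∧ RX t.1 t.2.1 t.2.2.1 t.2.2.2 X Y)
          then F X Y else 0) := by
    simp only [Fintype.sum_prod_type]
    refine sum_congr rfl fun u _ => sum_congr rfl fun v _ => sum_congr rfl fun w _ =>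
      sum_congr rfl fun z _ => ?_
    by_cases h : D4 u v w z
    · rw [if_pos h]
      refine sum_congr rfl fun X _ => sum_congr rfl fun Y _ => ?_
      refine if_congr ?_ rfl rfl
      exact ⟨fun h' => ⟨h'.1, h, h'.2⟩, fun h' => ⟨h'.1, h'.2.2⟩⟩
    · rw [if_neg h]
      symm
      refine sum_eq_zero fun X _ => sum_eq_zero fun Y _ => ?_
      exact if_neg (fun h' => h h'.2.1)
  rw [e1, Finset.sum_comm, Finset.mul_sum]
  refine Finset.sum_le_sum fun X _ => ?_
  rw [Finset.sum_comm, Finset.mul_sum]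
  refine Finset.sum_le_sum fun Y _ => ?_
  by_cases hXY : X = Y
  · have h1 : ¬ IsSwG X Y := fun h => h.1 hXY
    rw [if_neg h1]
    refine le_of_eq ?_
    rw [mul_zero]
    exact sum_eq_zero fun t _ => if_neg (fun h => h.1 hXY)
  · have e2 : ∀ t : V × V × V × V,
        (if X ≠ Y ∧ (D4 t.1 t.2.1 t.2.2.1 t.2.2.2 ∧ RX t.1 t.2.1 t.2.2.1 t.2.2.2 X Y)
          then F X Y else 0)
        = (if (D4 t.1 t.2.1 t.2.2.1 t.2.2.2 ∧ RX t.1 t.2.1 t.2.2.1 t.2.2.2 X Y)
          then F X Y else 0) := by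
      intro t
      refine if_congr ?_ rfl rfl
      exact ⟨fun h => h.2, fun h => ⟨hXY, h⟩⟩
    rw [Finset.sum_congr rfl (fun t _ => e2 t), ← Finset.sum_filter, Finset.sum_const,
      nsmul_eq_mul]
    have hc := card_tuples_RX_le X Y hXY
    by_cases hS : IsSwG X Y
    · rw [if_pos hS]
      have : ((univ.filter (fun t : V × V × V × V => D4 t.1 t.2.1 t.2.2.1 t.2.2.2 ∧
        RX t.1 t.2.1 t.2.2.1 t.2.2.2 X Y)).card : ℝ) ≤ 8 := by
        exact_mod_cast hc
      exact mul_le_mul_of_nonneg_right this (hF X Y)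
    · rw [if_neg hS]
      have h0 : univ.filter (fun t : V × V × V × V => D4 t.1 t.2.1 t.2.2.1 t.2.2.2 ∧
        RX t.1 t.2.1 t.2.2.1 t.2.2.2 X Y) = ∅ := by
        rw [Finset.filter_eq_empty_iff]
        rintro t - ⟨h1, h2⟩
        exact hS ⟨hXY, _, _, _, _, h1, h2⟩
      rw [h0]
      simp

end P335
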