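import Vale.Agent.Lib.P335.Avg
import Vale.Agent.Lib.P335.Mat

/-!
# P335, general degree vectors: the symmetric-matrix model and its block relations

A simple graph on `V` with degree vector `d` is a symmetric 0/1 matrix with zero diagonal and row
sums `d`.  A *slot* is an unordered pair of vertices.
-/

namespace P335

open Finset

set_option linter.unusedSectionVars false

variable {V : Type*} [Fintype V] [DecidableEq V]

/-- `X` is the adjacency matrix of a simple graph with degree vector `d` -/
def IsSG (d : V → ℕ) (X : V → V → Bool) : Prop :=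
  (∀ i j, X i j = X j i) ∧ (∀ i, X i i = false) ∧ ∀ i, ∑ j, (X i j).toNat = d i

/-- the simple graphs on `V` with degree vector `d`, as adjacency matrices -/
abbrev SG (d : V → ℕ) : Type _ := {X : V → V → Bool // IsSG d X}

noncomputable instance (d : V → ℕ) : Fintype (SG d) := by
  classical
  unfold SG
  infer_instance

variable {d : V → ℕ}

theorem SG.ext' {X Y : SG d} (h : ∀ i j, X.1 i j = Y.1 i j) : X = Y :=
  Subtype.ext (funext fun i => funext fun j => h i j)

theorem SG.symm (X : SG d) (i j : V) : X.1 i j = X.1 j i := X.2.1 i j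

theorem SG.diag (X : SG d) (i : V) : X.1 i i = false := X.2.2.1 i

theorem SG.row (X : SG d) (i : V) : ∑ j, (X.1 i j).toNat = d i := X.2.2.2 i

/-- `X` and `Y` agree on all slots that do not touch the vertex set `S` -/
def RS (S : Finset V) (X Y : SG d) : Prop := ∀ i j, i ∉ S → j ∉ S → X.1 i j = Y.1 i j

theorem RS_equiv (S : Finset V) : Equivalence (RS (d := d) S) where
  refl := fun _ _ _ _ _ => rfl
  symm := fun h i j hi hj => (h i j hi hj).symm
  trans := fun h1 h2 i j hi hj => (h1 i j hi hj).trans (h2 i j hi hj)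

theorem RS.mono {S S' : Finset V} (h : S ⊆ S') {X Y : SG d} (hXY : RS S X Y) : RS S' X Y :=
  fun i j hi hj => hXY i j (fun h' => hi (h h')) (fun h' => hj (h h'))

/-- `(i, j)` is one of the four slots `uw, uz, vw, vz` (in either orientation) -/
def XSlot (u v w z i j : V) : Prop :=
  ((i = u ∨ i = v) ∧ (j = w ∨ j = z)) ∨ ((i = w ∨ i = z) ∧ (j = u ∨ j = v))

instance (u v w z i j : V) : Decidable (XSlot u v w z i j) := by
  unfold XSlot
  infer_instance

/-- `X` and `Y` agree off the four slots `uw, uz, vw, vz` -/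
def RX (u v w z : V) (X Y : SG d) : Prop := ∀ i j, ¬ XSlot u v w z i j → X.1 i j = Y.1 i j

theorem RX_equiv (u v w z : V) : Equivalence (RX (d := d) u v w z) where
  refl := fun _ _ _ _ => rfl
  symm := fun h i j hij => (h i j hij).symm
  trans := fun h1 h2 i j hij => (h1 i j hij).trans (h2 i j hij)

/-- the 4-cycle `u w v z` is alternating in `X` (a switch is possible on it) -/
def Alt (u v w z : V) (X : V → V → Bool) : Prop :=
  X u w = X v z ∧ X u z = X v w ∧ X u w = !X u z

instance (u v w z : V) (X : V → V → Bool) : Decidable (Alt u v w z X) := by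
  unfold Alt
  infer_instance

/-- `X` and `Y` agree off the slots touching `{u, v}` and the 4-cycle `u w v z` is alternating in
both or in neither -/
def RSs (u v w z : V) (X Y : SG d) : Prop :=
  RS {u, v} X Y ∧ (Alt u v w z X.1 ↔ Alt u v w z Y.1)

theorem RSs_equiv (u v w z : V) : Equivalence (RSs (d := d) u v w z) where
  refl := fun X => ⟨(RS_equiv _).refl X, Iff.rfl⟩
  symm := fun h => ⟨(RS_equiv _).symm h.1, h.2.symm⟩
  trans := fun h1 h2 => ⟨(RS_equiv _).trans h1.1 h2.1, h1.2.trans h2.2⟩

/-- four distinct vertices -/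
def D4 (u v w z : V) : Prop := u ≠ v ∧ u ≠ w ∧ u ≠ z ∧ v ≠ w ∧ v ≠ z ∧ w ≠ z

instance (u v w z : V) : Decidable (D4 u v w z) := by
  unfold D4
  infer_instance

theorem D4.swap {u v w z : V} (h : D4 u v w z) : D4 w z u v :=
  ⟨h.2.2.2.2.2, h.2.1.symm, h.2.2.2.1.symm, h.2.2.1.symm, h.2.2.2.2.1.symm, h.1⟩

/-- the defect term: `Σ_X 1[u w v z alternating in X] ((E[f | X - uv, alt] - E[f | X - uv]) X)^2` -/
noncomputable def kap (u v w z : V) (f : SG d → ℝ) : ℝ :=
  ∑ X : SG d, if Alt u v w z X.1 then (avg (RSs u v w z) f X - avg (RS {u, v}) f X) ^ 2 else 0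

/-- flip the four slots `uw, uz, vw, vz` -/
def flipRaw (u v w z : V) (X : V → V → Bool) : V → V → Bool :=
  fun i j => if XSlot u v w z i j then !(X i j) else X i j

end P335
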