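import Vale.Agent.Lib.P335.Gen.Base

/-!
# P335 general case: a `{u,v}`-fibre, forward direction
-/

namespace P335

open Finset

set_option linter.unusedSectionVars false

variable {V : Type*} [Fintype V] [DecidableEq V] {d : V → ℕ}

/-- the free columns of the `{u,v}`-fibre of `X0` -/
def freeCols (u v : V) (X0 : V → V → Bool) : Finset V :=
  univ.filter (fun y => y ≠ u ∧ y ≠ v ∧ X0 u y ≠ X0 v y)

theorem bool_frozen : ∀ a b a' b' : Bool, a.toNat + b.toNat = a'.toNat + b'.toNat → a = b →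
    a' = a ∧ b' = b := by decide

theorem bool_free : ∀ a b a' b' : Bool, a.toNat + b.toNat = a'.toNat + b'.toNat → a ≠ b →
    b' = !a' := by decide

/-- off the free columns rows `u` and `v` are frozen (for `y ∉ {u,v}` the column sum is 0 or 2,
use `RS_pair_col`; for `y ∈ {u,v}` use `RS_pair_uv`, symmetry and the zero diagonal) -/
theorem fibreB_frozen {u v : V} (huv : u ≠ v) {X0 Y : SG d} (h : RS {u, v} X0 Y) {y : V}
    (hy : y ∉ freeCols u v X0.1) : Y.1 u y = X0.1 u y ∧ Y.1 v y = X0.1 v y := by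
  by_cases hu : y = u
  · subst hu
    refine ⟨by rw [Y.diag, X0.diag], ?_⟩
    rw [Y.symm, X0.symm v]
    exact (RS_pair_uv huv h).symm
  by_cases hv : y = v
  · subst hv
    exact ⟨(RS_pair_uv huv h).symm, by rw [Y.diag, X0.diag]⟩
  have he : X0.1 u y = X0.1 v y := by
    by_contra hne
    exact hy (by simp [freeCols, hu, hv, hne])
  exact bool_frozen _ _ _ _ (RS_pair_col huv h hu hv) he

/-- on the free columns the column sum is 1 -/
theorem fibreB_free {u v : V} (huv : u ≠ v) {X0 Y : SG d} (h : RS {u, v} X0 Y) {y : V}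
    (hy : y ∈ freeCols u v X0.1) : Y.1 v y = !Y.1 u y := by
  simp only [freeCols, mem_filter, mem_univ, true_and] at hy
  exact bool_free _ _ _ _ (RS_pair_col huv h hy.1 hy.2.1) hy.2.2

/-- the number of ones of row `u` (and of row `v`) on the free columns is constant
(row sum of row `u` minus the frozen part) -/
theorem fibreB_count {u v : V} (huv : u ≠ v) {X0 Y : SG d} (h : RS {u, v} X0 Y) :
    ∑ y ∈ freeCols u v X0.1, (Y.1 u y).toNat = ∑ y ∈ freeCols u v X0.1, (X0.1 u y).toNat ∧
    ∑ y ∈ freeCols u v X0.1, (Y.1 v y).toNat = ∑ y ∈ freeCols u v X0.1, (X0.1 v y).toNat := by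
  have key : ∀ t : V, (∀ y, y ∉ freeCols u v X0.1 → Y.1 t y = X0.1 t y) →
      ∑ y ∈ freeCols u v X0.1, (Y.1 t y).toNat = ∑ y ∈ freeCols u v X0.1, (X0.1 t y).toNat := by
    intro t ht
    have h1 := Y.row t
    have h2 := X0.row t
    rw [← Finset.sum_add_sum_compl (freeCols u v X0.1)] at h1 h2
    have h3 : ∑ y ∈ (freeCols u v X0.1)ᶜ, (Y.1 t y).toNat
        = ∑ y ∈ (freeCols u v X0.1)ᶜ, (X0.1 t y).toNat :=
      Finset.sum_congr rfl (fun y hy => by rw [ht y (Finset.mem_compl.1 hy)])
    omega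
  exact ⟨key u (fun y hy => (fibreB_frozen huv h hy).1), key v (fun y hy => (fibreB_frozen huv h hy).2)⟩

end P335
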