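import Vale.Agent.Lib.P335.Gen.FibreB1
import Vale.Agent.Lib.P335.Fibre
import Vale.Agent.Lib.P335.JohnsonMain

/-!
# P335 general case: a `{u,v}`-fibre is an abstract two-row fibre (`JAbs.Sys`)

`W = Fib (RS {u,v}) X0`, `M = freeCols u v X0`, `s Y y = Y u y`, `τ w z` = flip of the 4-cycle `u w v z` if it is
alternating, the identity otherwise.
-/

namespace P335
namespace FB

open Finset

set_option linter.unusedSectionVars false

variable {V : Type*} [Fintype V] [DecidableEq V] {d : V → ℕ}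

theorem mem_freeCols {u v y : V} {X0 : V → V → Bool} :
    y ∈ freeCols u v X0 ↔ y ≠ u ∧ y ≠ v ∧ X0 u y ≠ X0 v y := by
  unfold freeCols
  simp

theorem D4_of_free {u v w z : V} (huv : u ≠ v) {X0 : V → V → Bool} (hw : w ∈ freeCols u v X0)
    (hz : z ∈ freeCols u v X0) (hwz : w ≠ z) : D4 u v w z := by
  rw [mem_freeCols] at hw hz
  exact ⟨huv, hw.1.symm, hz.1.symm, hw.2.1.symm, hz.2.1.symm, hwz⟩

/-- on free columns: alternating iff row `u` differs at `w` and `z` -/
theorem alt_iff_of_free {u v w z : V} (huv : u ≠ v) {X0 Y : SG d} (h : RS {u, v} X0 Y)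
    (hw : w ∈ freeCols u v X0.1) (hz : z ∈ freeCols u v X0.1) :
    Alt u v w z Y.1 ↔ Y.1 u w ≠ Y.1 u z := by
  have h1 := fibreB_free huv h hw
  have h2 := fibreB_free huv h hz
  unfold Alt
  rw [h1, h2]
  cases Y.1 u w <;> cases Y.1 u z <;> simp

theorem flipRaw_of_not {u v w z i j : V} (X : V → V → Bool) (h : ¬ XSlot u v w z i j) :
    flipRaw u v w z X i j = X i j := by
  unfold flipRaw
  rw [if_neg h]

theorem flipRaw_of_slot {u v w z i j : V} (X : V → V → Bool) (h : XSlot u v w z i j) :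
    flipRaw u v w z X i j = !X i j := by
  unfold flipRaw
  rw [if_pos h]

theorem not_XSlot_of_off {u v w z i j : V} (hi : i ∉ ({u, v} : Finset V))
    (hj : j ∉ ({u, v} : Finset V)) : ¬ XSlot u v w z i j := by
  simp only [mem_insert, mem_singleton, not_or] at hi hj
  unfold XSlot
  rintro (⟨h1, -⟩ | ⟨-, h2⟩)
  · rcases h1 with h1 | h1
    · exact hi.1 h1
    · exact hi.2 h1
  · rcases h2 with h2 | h2
    · exact hj.1 h2
    · exact hj.2 h2

open Classical in
/-- the switch on the 4-cycle `u w v z` (identity if it is not alternating) -/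
noncomputable def flipG (u v w z : V) (Y : SG d) : SG d :=
  if h : D4 u v w z ∧ Alt u v w z Y.1 then ⟨flipRaw u v w z Y.1, isSG_flipRaw h.1 Y.2 h.2⟩ else Y

theorem flipG_val {u v w z : V} {Y : SG d} (h : D4 u v w z) (hA : Alt u v w z Y.1) :
    (flipG u v w z Y).1 = flipRaw u v w z Y.1 := by
  unfold flipG
  rw [dif_pos ⟨h, hA⟩]

theorem flipG_of_not {u v w z : V} {Y : SG d} (h : ¬ (D4 u v w z ∧ Alt u v w z Y.1)) :
    flipG u v w z Y = Y := by
  unfold flipG
  rw [dif_neg h]

theorem RX_flipG (u v w z : V) (Y : SG d) : RX u v w z Y (flipG u v w z Y) := by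
  by_cases h : D4 u v w z ∧ Alt u v w z Y.1
  · intro i j hij
    rw [flipG_val h.1 h.2, flipRaw_of_not _ hij]
  · rw [flipG_of_not h]
    exact (RX_equiv _ _ _ _).refl Y

theorem RS_flipG (u v w z : V) (Y : SG d) : RS {u, v} Y (flipG u v w z Y) :=
  RX_le_RS (RX_flipG u v w z Y)

/-- the switch acting on a fibre -/
noncomputable def flipF (u v : V) (X0 : SG d) (w z : V) (Y : Fib (RS (d := d) {u, v}) X0) :
    Fib (RS (d := d) {u, v}) X0 :=
  ⟨flipG u v w z Y.1, (RS_equiv _).trans Y.2 (RS_flipG u v w z Y.1)⟩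

theorem flipF_row {u v : V} (huv : u ≠ v) (X0 : SG d) {w z : V} (hw : w ∈ freeCols u v X0.1)
    (hz : z ∈ freeCols u v X0.1) (Y : Fib (RS (d := d) {u, v}) X0) (x : V) :
    (flipF u v X0 w z Y).1.1 u x = Y.1.1 u (Equiv.swap w z x) := by
  show (flipG u v w z Y.1).1 u x = Y.1.1 u (Equiv.swap w z x)
  have hw' := mem_freeCols.1 hw
  have hz' := mem_freeCols.1 hz
  by_cases hwz : w = z
  · subst hwz
    rw [flipG_of_not (fun h => h.1.2.2.2.2.2 rfl), Equiv.swap_self]
    rfl
  have hD := D4_of_free huv hw hz hwz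
  have hiff := alt_iff_of_free huv Y.2 hw hz
  by_cases hA : Alt u v w z Y.1.1
  · rw [flipG_val hD hA]
    have hne := hiff.1 hA
    by_cases hxw : x = w
    · subst hxw
      rw [flipRaw_of_slot _ (Or.inl ⟨Or.inl rfl, Or.inl rfl⟩), Equiv.swap_apply_left]
      revert hne
      cases Y.1.1 u x <;> cases Y.1.1 u z <;> simp
    by_cases hxz : x = z
    · subst hxz
      rw [flipRaw_of_slot _ (Or.inl ⟨Or.inl rfl, Or.inr rfl⟩), Equiv.swap_apply_right]
      revert hne
      cases Y.1.1 u w <;> cases Y.1.1 u x <;> simp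
    · rw [Equiv.swap_apply_of_ne_of_ne hxw hxz, flipRaw_of_not]
      rintro (⟨-, h2⟩ | ⟨h1, -⟩)
      · rcases h2 with h2 | h2
        · exact hxw h2
        · exact hxz h2
      · rcases h1 with h1 | h1
        · exact hw'.1 h1.symm
        · exact hz'.1 h1.symm
  · rw [flipG_of_not (fun h => hA h.2)]
    have heq : Y.1.1 u w = Y.1.1 u z := by
      by_contra hne
      exact hA (hiff.2 hne)
    rw [Equiv.swap_apply_def]
    split_ifs with h1 h2
    · rw [h1, heq]
    · rw [h2, heq]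
    · rfl

theorem fibre_inj {u v : V} (huv : u ≠ v) (X0 : SG d) (Y Y' : Fib (RS (d := d) {u, v}) X0)
    (h : ∀ x ∈ freeCols u v X0.1, Y.1.1 u x = Y'.1.1 u x) : Y = Y' := by
  apply Subtype.ext
  apply SG.ext'
  have hu : ∀ y, Y.1.1 u y = Y'.1.1 u y := by
    intro y
    by_cases hy : y ∈ freeCols u v X0.1
    · exact h y hy
    · rw [(fibreB_frozen huv Y.2 hy).1, (fibreB_frozen huv Y'.2 hy).1]
  have hv : ∀ y, Y.1.1 v y = Y'.1.1 v y := by
    intro y
    by_cases hy : y ∈ freeCols u v X0.1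
    · rw [fibreB_free huv Y.2 hy, fibreB_free huv Y'.2 hy, h y hy]
    · rw [(fibreB_frozen huv Y.2 hy).2, (fibreB_frozen huv Y'.2 hy).2]
  intro i j
  by_cases hi : i = u
  · rw [hi]; exact hu j
  by_cases hi' : i = v
  · rw [hi']; exact hv j
  by_cases hj : j = u
  · rw [hj, SG.symm, SG.symm Y'.1]; exact hu i
  by_cases hj' : j = v
  · rw [hj', SG.symm, SG.symm Y'.1]; exact hv i
  have h1 : i ∉ ({u, v} : Finset V) := by simp [hi, hi']
  have h2 : j ∉ ({u, v} : Finset V) := by simp [hj, hj']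
  rw [← Y.2 i j h1 h2, ← Y'.2 i j h1 h2]

theorem fibre_card {u v : V} (huv : u ≠ v) (X0 : SG d) (Y : Fib (RS (d := d) {u, v}) X0) :
    ((freeCols u v X0.1).filter (fun x => Y.1.1 u x = true)).card =
      ∑ y ∈ freeCols u v X0.1, (X0.1 u y).toNat := by
  rw [← (fibreB_count huv Y.2).1, Finset.card_filter]
  refine Finset.sum_congr rfl (fun y _ => ?_)
  cases Y.1.1 u y <;> simp

/-- **the `{u,v}`-fibre of `X0` as an abstract two-row fibre** -/
noncomputable def fibSys {u v : V} (huv : u ≠ v) (X0 : SG d) :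
    JAbs.Sys (Fib (RS (d := d) {u, v}) X0) V where
  M := freeCols u v X0.1
  s := fun Y y => Y.1.1 u y
  τ := flipF u v X0
  k := ∑ y ∈ freeCols u v X0.1, (X0.1 u y).toNat
  s_τ := fun _ hw _ hz Y x _ => flipF_row huv X0 hw hz Y x
  inj := fibre_inj huv X0
  card := fibre_card huv X0

end FB
end P335
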