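import Vale.Agent.Lib.P335.Gen.FibreB1
import Vale.Agent.Lib.P335.JohnsonAbs
import Vale.Agent.Lib.P335.Fibre
import Vale.Agent.Lib.P335.Gen.FibreB2

/-!
# P335 general case: a `{u,v}`-fibre is an abstract two-row fibre
-/

namespace P335

open Finset

set_option linter.unusedSectionVars false

variable {V : Type*} [Fintype V] [DecidableEq V] {d : V → ℕ}

/-- `M = freeCols u v X0`, `s Y y = Y u y`, `k = Σ_{y ∈ M} X0 u y`,
`τ w z Y = flipRaw u v w z Y` if `w, z ∈ M`, `w ≠ z` and `Y u w ≠ Y u z` (then `Alt u v w z Y` by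
`fibreB_free`; use `isSG_flipRaw`; the flip stays in the fibre since the flipped slots touch `{u,v}`),
and `τ w z Y = Y` otherwise.  `s_τ`: direct.  `inj`: `fibreB_frozen`, `fibreB_free`, symmetry, `RS`.
`card`: `fibreB_count`. -/
theorem exists_sys_B {u v : V} (huv : u ≠ v) (X0 : SG d) :
    ∃ J : JAbs.Sys (Fib (RS {u, v}) X0) V,
      J.M = freeCols u v X0.1 ∧ ∀ (Y : Fib (RS {u, v}) X0) (y : V), J.s Y y = Y.1.1 u y :=
  ⟨FB.fibSys huv X0, rfl, fun _ _ => rfl⟩

end P335
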