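import Vale.Agent.Lib.P335.Gen.FibreB1
import Vale.Agent.Lib.P335.Fibre

/-!
# P335 general case: the block relations inside a `{u,v}`-fibre
-/

namespace P335

open Finset

set_option linter.unusedSectionVars false

variable {V : Type*} [Fintype V] [DecidableEq V] {d : V → ℕ}

theorem mem_freeCols {u v : V} {X0 : V → V → Bool} {y : V} :
    y ∈ freeCols u v X0 ↔ y ≠ u ∧ y ≠ v ∧ X0 u y ≠ X0 v y := by
  unfold freeCols
  simp

/-- a column (different from `u`, `v`) in which rows `u`, `v` of a member of the fibre differ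
is free -/
theorem fibreB_mem_free {u v : V} (huv : u ≠ v) {X0 Y : SG d} (hY : RS {u, v} X0 Y) {y : V}
    (hu : y ≠ u) (hv : y ≠ v) (hne : Y.1 u y ≠ Y.1 v y) : y ∈ freeCols u v X0.1 := by
  by_contra hy
  obtain ⟨h1, h2⟩ := fibreB_frozen huv hY hy
  apply hne
  rw [h1, h2]
  by_contra hX
  exact hy (mem_freeCols.2 ⟨hu, hv, hX⟩)

theorem alt_bool_fwd : ∀ a b c e : Bool, a = e → b = c → a = !b → (a ≠ c ∧ b ≠ e ∧ a ≠ b) := by
  decide

theorem alt_bool_bwd : ∀ a b c e : Bool, c = !a → e = !b → a ≠ b → (a = e ∧ b = c ∧ a = !b) := by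
  decide

/-- alternation inside the fibre: both columns free and row `u` differs at `w, z`
(`fibreB_frozen`, `fibreB_free`) -/
theorem fibreB_Alt {u v w z : V} (h : D4 u v w z) {X0 Y : SG d} (hY : RS {u, v} X0 Y) :
    Alt u v w z Y.1 ↔
      (w ∈ freeCols u v X0.1 ∧ z ∈ freeCols u v X0.1 ∧ Y.1 u w ≠ Y.1 u z) := by
  obtain ⟨huv, huw, huz, hvw, hvz, hwz⟩ := h
  constructor
  · rintro ⟨h1, h2, h3⟩
    obtain ⟨a1, a2, a3⟩ := alt_bool_fwd _ _ _ _ h1 h2 h3
    exact ⟨fibreB_mem_free huv hY huw.symm hvw.symm a1,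
      fibreB_mem_free huv hY huz.symm hvz.symm a2, a3⟩
  · rintro ⟨hw, hz, hne⟩
    exact alt_bool_bwd _ _ _ _ (fibreB_free huv hY hw) (fibreB_free huv hY hz) hne

theorem XSlot.symm' {u v w z i j : V} (h : XSlot u v w z i j) : XSlot u v w z j i := by
  unfold XSlot at h ⊢
  tauto

/-- agreement off the block inside the fibre -/
theorem fibreB_RX {u v w z : V} (h : D4 u v w z) {X0 Y Y' : SG d} (hY : RS {u, v} X0 Y)
    (hY' : RS {u, v} X0 Y') :
    RX u v w z Y Y' ↔ ∀ x ∈ freeCols u v X0.1, x ≠ w → x ≠ z → Y.1 u x = Y'.1 u x := by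
  obtain ⟨huv, huw, huz, hvw, hvz, hwz⟩ := h
  constructor
  · intro hR x _ hxw hxz
    apply hR
    unfold XSlot
    rintro (⟨_, h2⟩ | ⟨h1, _⟩)
    · rcases h2 with h2 | h2
      · exact hxw h2
      · exact hxz h2
    · rcases h1 with h1 | h1
      · exact huw h1
      · exact huz h1
  · intro hH
    -- rows `u` and `v`
    have hrow : ∀ a, (a = u ∨ a = v) → ∀ j, ¬ XSlot u v w z a j → Y.1 a j = Y'.1 a j := by
      intro a ha j hs
      by_cases hj : j ∈ freeCols u v X0.1
      · have hjw : j ≠ w := fun e => hs (Or.inl ⟨ha, Or.inl e⟩)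
        have hjz : j ≠ z := fun e => hs (Or.inl ⟨ha, Or.inr e⟩)
        have hu := hH j hj hjw hjz
        rcases ha with rfl | rfl
        · exact hu
        · rw [fibreB_free huv hY hj, fibreB_free huv hY' hj, hu]
      · obtain ⟨h1, h2⟩ := fibreB_frozen huv hY hj
        obtain ⟨h1', h2'⟩ := fibreB_frozen huv hY' hj
        rcases ha with rfl | rfl
        · rw [h1, h1']
        · rw [h2, h2']
    intro i j hs
    by_cases hi : i = u ∨ i = v
    · exact hrow i hi j hs
    by_cases hj : j = u ∨ j = v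
    · rw [Y.symm i j, Y'.symm i j]
      exact hrow j hj i (fun h' => hs h'.symm')
    · have hi' : i ∉ ({u, v} : Finset V) := by simpa using hi
      have hj' : j ∉ ({u, v} : Finset V) := by simpa using hj
      rw [← hY i j hi' hj', ← hY' i j hi' hj']

end P335
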