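import Vale.Agent.Lib.P335.Gen.FibreT1

/-!
# P335 general case: a `{u,v,w}`-fibre, the pair relations
-/

namespace P335

open Finset

set_option linter.unusedSectionVars false

variable {V : Type*} [Fintype V] [DecidableEq V] {d : V → ℕ}

theorem toMatT_some_in (u v w : V) (Y : V → V → Bool) {i y : V} (hi : i = u ∨ i = v ∨ i = w)
    (hu : y ≠ u) (hv : y ≠ v) (hw : y ≠ w) : toMatT u v w Y i (some y) = Y i y := by
  have : ((i = u ∨ i = v ∨ i = w) ∧ y ≠ u ∧ y ≠ v ∧ y ≠ w) := ⟨hi, hu, hv, hw⟩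
  show (decide ((i = u ∨ i = v ∨ i = w) ∧ y ≠ u ∧ y ≠ v ∧ y ≠ w) && Y i y) = Y i y
  rw [decide_eq_true this, Bool.true_and]

theorem toMatT_some_out (u v w : V) (Y : V → V → Bool) {i y : V}
    (hn : ¬ ((i = u ∨ i = v ∨ i = w) ∧ y ≠ u ∧ y ≠ v ∧ y ≠ w)) :
    toMatT u v w Y i (some y) = false := by
  show (decide ((i = u ∨ i = v ∨ i = w) ∧ y ≠ u ∧ y ≠ v ∧ y ≠ w) && Y i y) = false
  rw [decide_eq_false hn, Bool.false_and]

theorem toMatT_none_u (u v w : V) (Y : V → V → Bool) : toMatT u v w Y u none = !Y v w := by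
  simp only [toMatT, if_true]

theorem toMatT_none_v {u v : V} (w : V) (huv : u ≠ v) (Y : V → V → Bool) :
    toMatT u v w Y v none = !Y u w := by
  simp only [toMatT, if_neg huv.symm, if_true]

theorem toMatT_none_w {u v w : V} (huw : u ≠ w) (hvw : v ≠ w) (Y : V → V → Bool) :
    toMatT u v w Y w none = !Y u v := by
  simp only [toMatT, if_neg huw.symm, if_neg hvw.symm, if_true]

theorem toMatT_none_out (u v w : V) (Y : V → V → Bool) {i : V} (hu : i ≠ u) (hv : i ≠ v)
    (hw : i ≠ w) : toMatT u v w Y i none = false := by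
  simp only [toMatT, if_neg hu, if_neg hv, if_neg hw]

theorem bnot_inj' {a b : Bool} (h : (!a) = !b) : a = b := by
  revert h
  cases a <;> cases b <;> simp

/-- inside a `{u,v,w}`-fibre the matrix determines the graph -/
theorem toMatT_inj {u v w : V} (huv : u ≠ v) (huw : u ≠ w) (hvw : v ≠ w) {X0 Y Y' : SG d}
    (h : RS {u, v, w} X0 Y) (h' : RS {u, v, w} X0 Y') (hm : toMatT u v w Y.1 = toMatT u v w Y'.1) :
    Y = Y' := by
  have hYY : RS {u, v, w} Y Y' := (RS_equiv _).trans ((RS_equiv _).symm h) h'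
  have hvw' : Y.1 v w = Y'.1 v w := by
    have := congrFun (congrFun hm u) none
    rw [toMatT_none_u, toMatT_none_u] at this
    exact bnot_inj' this
  have huw' : Y.1 u w = Y'.1 u w := by
    have := congrFun (congrFun hm v) none
    rw [toMatT_none_v w huv, toMatT_none_v w huv] at this
    exact bnot_inj' this
  have huv' : Y.1 u v = Y'.1 u v := by
    have := congrFun (congrFun hm w) none
    rw [toMatT_none_w huw hvw, toMatT_none_w huw hvw] at this
    exact bnot_inj' this
  have hin : ∀ i y : V, (i = u ∨ i = v ∨ i = w) → y ≠ u → y ≠ v → y ≠ w →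
      Y.1 i y = Y'.1 i y := by
    intro i y hi h1 h2 h3
    have := congrFun (congrFun hm i) (some y)
    rw [toMatT_some_in u v w _ hi h1 h2 h3, toMatT_some_in u v w _ hi h1 h2 h3] at this
    exact this
  have htt : ∀ i j : V, (i = u ∨ i = v ∨ i = w) → (j = u ∨ j = v ∨ j = w) →
      Y.1 i j = Y'.1 i j := by
    intro i j hi hj
    rcases hi with rfl | rfl | rfl <;> rcases hj with rfl | rfl | rfl
    · rw [Y.diag, Y'.diag]
    · exact huv'
    · exact huw'
    · rw [Y.symm, Y'.symm]; exact huv'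
    · rw [Y.diag, Y'.diag]
    · exact hvw'
    · rw [Y.symm, Y'.symm]; exact huw'
    · rw [Y.symm, Y'.symm]; exact hvw'
    · rw [Y.diag, Y'.diag]
  apply SG.ext'
  intro i j
  by_cases hi : i = u ∨ i = v ∨ i = w
  · by_cases hj : j = u ∨ j = v ∨ j = w
    · exact htt i j hi hj
    · have h1 : j ≠ u := fun e => hj (Or.inl e)
      have h2 : j ≠ v := fun e => hj (Or.inr (Or.inl e))
      have h3 : j ≠ w := fun e => hj (Or.inr (Or.inr e))
      exact hin i j hi h1 h2 h3
  · have h1 : i ≠ u := fun e => hi (Or.inl e)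
    have h2 : i ≠ v := fun e => hi (Or.inr (Or.inl e))
    have h3 : i ≠ w := fun e => hi (Or.inr (Or.inr e))
    by_cases hj : j = u ∨ j = v ∨ j = w
    · rw [Y.symm, Y'.symm]
      exact hin j i hj h1 h2 h3
    · apply hYY i j
      · simpa only [Finset.mem_insert, Finset.mem_singleton] using hi
      · simpa only [Finset.mem_insert, Finset.mem_singleton] using hj

/-- common backward helper: agreement off the triple plus agreement of the row `c` gives
agreement off the pair `{a, b}` -/
theorem RS_pair_of_row {a b c : V} {Y Y' : SG d}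
    (hT : ∀ i j : V, i ≠ a → i ≠ b → i ≠ c → j ≠ a → j ≠ b → j ≠ c → Y.1 i j = Y'.1 i j)
    (hc : ∀ y : V, y ≠ a → y ≠ b → y ≠ c → Y.1 c y = Y'.1 c y) : RS {a, b} Y Y' := by
  intro i j hi hj
  simp only [Finset.mem_insert, Finset.mem_singleton, not_or] at hi hj
  by_cases hic : i = c
  · subst hic
    by_cases hjc : j = i
    · subst hjc
      rw [Y.diag, Y'.diag]
    · exact hc j hj.1 hj.2 hjc
  · by_cases hjc : j = c
    · subst hjc
      rw [Y.symm, Y'.symm]
      exact hc i hi.1 hi.2 hic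
    · exact hT i j hi.1 hi.2 hic hj.1 hj.2 hjc

theorem RS_triple_off {u v w : V} {X0 Y Y' : SG d}
    (h : RS {u, v, w} X0 Y) (h' : RS {u, v, w} X0 Y') :
    ∀ i j : V, i ≠ u → i ≠ v → i ≠ w → j ≠ u → j ≠ v → j ≠ w → Y.1 i j = Y'.1 i j := by
  intro i j h1 h2 h3 h4 h5 h6
  have hYY : RS {u, v, w} Y Y' := (RS_equiv _).trans ((RS_equiv _).symm h) h'
  apply hYY i j
  · simp only [Finset.mem_insert, Finset.mem_singleton, not_or]
    exact ⟨h1, h2, h3⟩
  · simp only [Finset.mem_insert, Finset.mem_singleton, not_or]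
    exact ⟨h4, h5, h6⟩

/-- Inside a `{u,v,w}`-fibre: `Y, Y'` agree off the slots touching `{u,v}` iff their matrices have
the same row `w` (all rows outside `{u,v}`).  For `→` the entry `none` of row `w` is `!Y u v`,
which is constant by `RS_pair_uv`. -/
theorem toMatT_rel_uv {u v w : V} (huv : u ≠ v) (huw : u ≠ w) (hvw : v ≠ w) {X0 Y Y' : SG d}
    (h : RS {u, v, w} X0 Y) (h' : RS {u, v, w} X0 Y') :
    RS {u, v} Y Y' ↔ ∀ i p, ¬ (i ∈ ({u, v} : Finset V) ∧ p ∈ (univ : Finset (Option V))) →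
      toMatT u v w Y.1 i p = toMatT u v w Y'.1 i p := by
  constructor
  · intro hR i p hip
    have hi : i ∉ ({u, v} : Finset V) := fun hh => hip ⟨hh, Finset.mem_univ p⟩
    have hi' := hi
    simp only [Finset.mem_insert, Finset.mem_singleton, not_or] at hi'
    cases p with
    | none =>
      by_cases hiw : i = w
      · subst hiw
        rw [toMatT_none_w huw hvw, toMatT_none_w huw hvw, RS_pair_uv huv hR]
      · rw [toMatT_none_out u v w _ hi'.1 hi'.2 hiw, toMatT_none_out u v w _ hi'.1 hi'.2 hiw]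
    | some y =>
      by_cases hc : (i = u ∨ i = v ∨ i = w) ∧ y ≠ u ∧ y ≠ v ∧ y ≠ w
      · rw [toMatT_some_in u v w _ hc.1 hc.2.1 hc.2.2.1 hc.2.2.2,
          toMatT_some_in u v w _ hc.1 hc.2.1 hc.2.2.1 hc.2.2.2]
        apply hR i y hi
        simp only [Finset.mem_insert, Finset.mem_singleton, not_or]
        exact ⟨hc.2.1, hc.2.2.1⟩
      · rw [toMatT_some_out u v w _ hc, toMatT_some_out u v w _ hc]
  · intro hM
    apply RS_pair_of_row (c := w) (RS_triple_off h h')
    intro y h1 h2 h3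
    have hw : ¬ (w ∈ ({u, v} : Finset V) ∧ (some y) ∈ (univ : Finset (Option V))) := by
      simp only [Finset.mem_insert, Finset.mem_singleton, not_and]
      intro hh
      rcases hh with e | e
      · exact absurd e.symm huw
      · exact absurd e.symm hvw
    have := hM w (some y) hw
    rw [toMatT_some_in u v w _ (Or.inr (Or.inr rfl)) h1 h2 h3,
      toMatT_some_in u v w _ (Or.inr (Or.inr rfl)) h1 h2 h3] at this
    exact this

theorem toMatT_rel_uw {u v w : V} (huv : u ≠ v) (huw : u ≠ w) (hvw : v ≠ w) {X0 Y Y' : SG d}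
    (h : RS {u, v, w} X0 Y) (h' : RS {u, v, w} X0 Y') :
    RS {u, w} Y Y' ↔ ∀ i p, ¬ (i ∈ ({u, w} : Finset V) ∧ p ∈ (univ : Finset (Option V))) →
      toMatT u v w Y.1 i p = toMatT u v w Y'.1 i p := by
  constructor
  · intro hR i p hip
    have hi : i ∉ ({u, w} : Finset V) := fun hh => hip ⟨hh, Finset.mem_univ p⟩
    have hi' := hi
    simp only [Finset.mem_insert, Finset.mem_singleton, not_or] at hi'
    cases p with
    | none =>
      by_cases hiv : i = v
      · subst hiv
        rw [toMatT_none_v w huv, toMatT_none_v w huv, RS_pair_uv huw hR]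
      · rw [toMatT_none_out u v w _ hi'.1 hiv hi'.2, toMatT_none_out u v w _ hi'.1 hiv hi'.2]
    | some y =>
      by_cases hc : (i = u ∨ i = v ∨ i = w) ∧ y ≠ u ∧ y ≠ v ∧ y ≠ w
      · rw [toMatT_some_in u v w _ hc.1 hc.2.1 hc.2.2.1 hc.2.2.2,
          toMatT_some_in u v w _ hc.1 hc.2.1 hc.2.2.1 hc.2.2.2]
        apply hR i y hi
        simp only [Finset.mem_insert, Finset.mem_singleton, not_or]
        exact ⟨hc.2.1, hc.2.2.2⟩
      · rw [toMatT_some_out u v w _ hc, toMatT_some_out u v w _ hc]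
  · intro hM
    have hT := RS_triple_off h h'
    apply RS_pair_of_row (c := v)
      (fun i j a1 a2 a3 a4 a5 a6 => hT i j a1 a3 a2 a4 a6 a5)
    intro y h1 h2 h3
    have hw : ¬ (v ∈ ({u, w} : Finset V) ∧ (some y) ∈ (univ : Finset (Option V))) := by
      simp only [Finset.mem_insert, Finset.mem_singleton, not_and]
      intro hh
      rcases hh with e | e
      · exact absurd e.symm huv
      · exact absurd e hvw
    have := hM v (some y) hw
    rw [toMatT_some_in u v w _ (Or.inr (Or.inl rfl)) h1 h3 h2,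
      toMatT_some_in u v w _ (Or.inr (Or.inl rfl)) h1 h3 h2] at this
    exact this

theorem toMatT_rel_vw {u v w : V} (huv : u ≠ v) (huw : u ≠ w) (hvw : v ≠ w) {X0 Y Y' : SG d}
    (h : RS {u, v, w} X0 Y) (h' : RS {u, v, w} X0 Y') :
    RS {v, w} Y Y' ↔ ∀ i p, ¬ (i ∈ ({v, w} : Finset V) ∧ p ∈ (univ : Finset (Option V))) →
      toMatT u v w Y.1 i p = toMatT u v w Y'.1 i p := by
  constructor
  · intro hR i p hip
    have hi : i ∉ ({v, w} : Finset V) := fun hh => hip ⟨hh, Finset.mem_univ p⟩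
    have hi' := hi
    simp only [Finset.mem_insert, Finset.mem_singleton, not_or] at hi'
    cases p with
    | none =>
      by_cases hiu : i = u
      · subst hiu
        rw [toMatT_none_u, toMatT_none_u, RS_pair_uv hvw hR]
      · rw [toMatT_none_out u v w _ hiu hi'.1 hi'.2, toMatT_none_out u v w _ hiu hi'.1 hi'.2]
    | some y =>
      by_cases hc : (i = u ∨ i = v ∨ i = w) ∧ y ≠ u ∧ y ≠ v ∧ y ≠ w
      · rw [toMatT_some_in u v w _ hc.1 hc.2.1 hc.2.2.1 hc.2.2.2,
          toMatT_some_in u v w _ hc.1 hc.2.1 hc.2.2.1 hc.2.2.2]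
        apply hR i y hi
        simp only [Finset.mem_insert, Finset.mem_singleton, not_or]
        exact ⟨hc.2.2.1, hc.2.2.2⟩
      · rw [toMatT_some_out u v w _ hc, toMatT_some_out u v w _ hc]
  · intro hM
    have hT := RS_triple_off h h'
    apply RS_pair_of_row (c := u)
      (fun i j a1 a2 a3 a4 a5 a6 => hT i j a3 a1 a2 a6 a4 a5)
    intro y h1 h2 h3
    have hw : ¬ (u ∈ ({v, w} : Finset V) ∧ (some y) ∈ (univ : Finset (Option V))) := by
      simp only [Finset.mem_insert, Finset.mem_singleton, not_and]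
      intro hh
      rcases hh with e | e
      · exact absurd e huv
      · exact absurd e huw
    have := hM u (some y) hw
    rw [toMatT_some_in u v w _ (Or.inl rfl) h3 h1 h2,
      toMatT_some_in u v w _ (Or.inl rfl) h3 h1 h2] at this
    exact this

end P335
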