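import Vale.Agent.Lib.P335.Gen.FibreT2
import Vale.Agent.Lib.P335.Gen.FibreT3

/-!
# P335 general case: a `{u,v,w}`-fibre is a three-row matrix system
-/

namespace P335

open Finset

set_option linter.unusedSectionVars false

variable {V : Type*} [Fintype V] [DecidableEq V] {d : V → ℕ}

theorem exists_equiv_T {u v w : V} (huv : u ≠ v) (huw : u ≠ w) (hvw : v ≠ w) (X0 : SG d) :
    ∃ (r : V → ℕ) (c : Option V → ℕ) (e : {Y : SG d // RS {u, v, w} X0 Y} ≃ Mat r c),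
      (∀ Y Y', RS {u, v} Y.1 Y'.1 ↔ AgreeOff {u, v} univ (e Y) (e Y')) ∧
      (∀ Y Y', RS {u, w} Y.1 Y'.1 ↔ AgreeOff {u, w} univ (e Y) (e Y')) ∧
      (∀ Y Y', RS {v, w} Y.1 Y'.1 ↔ AgreeOff {v, w} univ (e Y) (e Y')) := by
  refine ⟨fun i => ∑ p, (toMatT u v w X0.1 i p).toNat, fun p => ∑ i, (toMatT u v w X0.1 i p).toNat,
    Equiv.ofBijective (fun Y => ⟨toMatT u v w Y.1.1, toMatT_margins huv huw hvw Y.2⟩) ⟨?_, ?_⟩,
    ?_, ?_, ?_⟩
  · intro Y Y' hYY'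
    exact Subtype.ext (toMatT_inj huv huw hvw Y.2 Y'.2 (congrArg Subtype.val hYY'))
  · intro Z
    obtain ⟨Y, hY, hZ⟩ := toMatT_surj huv huw hvw X0 Z.1 Z.2
    exact ⟨⟨Y, hY⟩, Subtype.ext hZ⟩
  · intro Y Y'
    exact toMatT_rel_uv huv huw hvw Y.2 Y'.2
  · intro Y Y'
    exact toMatT_rel_uw huv huw hvw Y.2 Y'.2
  · intro Y Y'
    exact toMatT_rel_vw huv huw hvw Y.2 Y'.2

end P335
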