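import Vale.Agent.Lib.P335.Gen.Base

/-!
# P335 general case: a `{u,v,w}`-fibre, forward direction
-/

namespace P335

open Finset

set_option linter.unusedSectionVars false

variable {V : Type*} [Fintype V] [DecidableEq V] {d : V → ℕ}

/-- the matrix of a graph relative to the triple `u v w`: rows `u v w` (all other rows are zero),
columns `some y` for `y ∉ {u,v,w}` (the columns `some u, some v, some w` are zero) carrying the
adjacency, and one extra column `none` whose entry in row `t` is the negation of the slot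
opposite to `t` in the triangle. -/
def toMatT (u v w : V) (Y : V → V → Bool) : V → Option V → Bool := fun i p =>
  match p with
  | some y => decide ((i = u ∨ i = v ∨ i = w) ∧ y ≠ u ∧ y ≠ v ∧ y ≠ w) && Y i y
  | none => if i = u then !Y v w else if i = v then !Y u w else if i = w then !Y u v else false

theorem sum_three_T {u v w : V} (huv : u ≠ v) (huw : u ≠ w) (hvw : v ≠ w) (g : V → ℕ)
    (h0 : ∀ i, i ≠ u → i ≠ v → i ≠ w → g i = 0) : ∑ i, g i = g u + g v + g w := by
  rw [← Finset.sum_subset (Finset.subset_univ ({u, v, w} : Finset V))]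
  · rw [Finset.sum_insert (by simp [huv, huw]), Finset.sum_insert (by simp [hvw]),
      Finset.sum_singleton]
    ring
  · intro i _ hi
    simp only [mem_insert, mem_singleton, not_or] at hi
    exact h0 i hi.1 hi.2.1 hi.2.2

/-- the part of row `t` outside the triple -/
theorem row_out_T {u v w : V} (huv : u ≠ v) (huw : u ≠ w) (hvw : v ≠ w) (Z : SG d) (t : V) :
    ∑ y, (decide (y ≠ u ∧ y ≠ v ∧ y ≠ w) && Z.1 t y).toNat
      + ((Z.1 t u).toNat + (Z.1 t v).toNat + (Z.1 t w).toNat) = d t := by
  have h1 : ∑ y, (decide (¬ (y ≠ u ∧ y ≠ v ∧ y ≠ w)) && Z.1 t y).toNat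
      = (Z.1 t u).toNat + (Z.1 t v).toNat + (Z.1 t w).toNat := by
    rw [sum_three_T huv huw hvw]
    · simp [huv, huw, hvw, huv.symm, huw.symm, hvw.symm]
    · intro i h1 h2 h3
      simp [h1, h2, h3]
  rw [← h1, ← Finset.sum_add_distrib, ← Z.row t]
  refine Finset.sum_congr rfl fun y _ => ?_
  by_cases hy : y ≠ u ∧ y ≠ v ∧ y ≠ w
  · simp [hy]
  · simp [hy]

theorem toMatT_row_out (u v w : V) (Z : V → V → Bool) {i : V} (h1 : i ≠ u) (h2 : i ≠ v)
    (h3 : i ≠ w) (p : Option V) : toMatT u v w Z i p = false := by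
  cases p with
  | none => simp [toMatT, h1, h2, h3]
  | some y => simp [toMatT, h1, h2, h3]

/-- number of edges inside the triple -/
def eT (u v w : V) (Z : V → V → Bool) : ℕ := (Z u v).toNat + (Z u w).toNat + (Z v w).toNat

theorem eT_eq {u v w : V} (huv : u ≠ v) (huw : u ≠ w) (hvw : v ≠ w) {X0 Y : SG d}
    (h : RS {u, v, w} X0 Y) : eT u v w X0.1 = eT u v w Y.1 := by
  have := RS_inner h
  have e : ∀ g : V → ℕ, ∑ t ∈ ({u, v, w} : Finset V), g t = g u + g v + g w := by
    intro g
    rw [Finset.sum_insert (by simp [huv, huw]), Finset.sum_insert (by simp [hvw]),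
      Finset.sum_singleton]
    ring
  simp only [e, X0.diag, Y.diag, X0.symm v u, Y.symm v u, X0.symm w u, Y.symm w u, X0.symm w v,
    Y.symm w v] at this
  unfold eT
  simp only [Bool.toNat_false] at this
  omega

theorem not_toNat (b : Bool) : (!b).toNat + b.toNat = 1 := by cases b <;> rfl

theorem toMatT_rowsum {u v w : V} (huv : u ≠ v) (huw : u ≠ w) (hvw : v ≠ w) (Z : SG d) (t : V)
    (ht : t = u ∨ t = v ∨ t = w) :
    ∑ p, (toMatT u v w Z.1 t p).toNat + eT u v w Z.1 = d t + 1 := by
  rw [Fintype.sum_option]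
  have h1 := row_out_T huv huw hvw Z t
  have h2 : ∑ y, (toMatT u v w Z.1 t (some y)).toNat
      = ∑ y, (decide (y ≠ u ∧ y ≠ v ∧ y ≠ w) && Z.1 t y).toNat := by
    refine Finset.sum_congr rfl fun y _ => ?_
    simp [toMatT, ht]
  rw [h2]
  unfold eT
  have n1 := not_toNat (Z.1 v w)
  have n2 := not_toNat (Z.1 u w)
  have n3 := not_toNat (Z.1 u v)
  rcases ht with rfl | rfl | rfl
  · have : toMatT t v w Z.1 t none = !Z.1 v w := by simp [toMatT]
    rw [this]
    rw [Z.diag] at h1
    simp only [Bool.toNat_false] at h1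
    omega
  · have : toMatT u t w Z.1 t none = !Z.1 u w := by simp [toMatT, huv.symm]
    rw [this]
    rw [Z.diag, Z.symm t u] at h1
    simp only [Bool.toNat_false] at h1
    omega
  · have : toMatT u v t Z.1 t none = !Z.1 u v := by simp [toMatT, huw.symm, hvw.symm]
    rw [this]
    rw [Z.diag, Z.symm t u, Z.symm t v] at h1
    simp only [Bool.toNat_false] at h1
    omega

theorem toMatT_colsum_none {u v w : V} (huv : u ≠ v) (huw : u ≠ w) (hvw : v ≠ w) (Z : SG d) :
    ∑ i, (toMatT u v w Z.1 i none).toNat + eT u v w Z.1 = 3 := by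
  rw [sum_three_T huv huw hvw]
  · have n1 := not_toNat (Z.1 v w)
    have n2 := not_toNat (Z.1 u w)
    have n3 := not_toNat (Z.1 u v)
    have a1 : toMatT u v w Z.1 u none = !Z.1 v w := by simp [toMatT]
    have a2 : toMatT u v w Z.1 v none = !Z.1 u w := by simp [toMatT, huv.symm]
    have a3 : toMatT u v w Z.1 w none = !Z.1 u v := by simp [toMatT, huw.symm, hvw.symm]
    rw [a1, a2, a3]
    unfold eT
    omega
  · intro i h1 h2 h3
    rw [toMatT_row_out u v w Z.1 h1 h2 h3]
    rfl

theorem toMatT_colsum_some {u v w : V} (huv : u ≠ v) (huw : u ≠ w) (hvw : v ≠ w) (Z : SG d)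
    (y : V) :
    ∑ i, (toMatT u v w Z.1 i (some y)).toNat
      = if y ≠ u ∧ y ≠ v ∧ y ≠ w then ∑ t ∈ ({u, v, w} : Finset V), (Z.1 t y).toNat else 0 := by
  rw [sum_three_T huv huw hvw]
  · by_cases hy : y ≠ u ∧ y ≠ v ∧ y ≠ w
    · rw [if_pos hy, Finset.sum_insert (by simp [huv, huw]), Finset.sum_insert (by simp [hvw]),
        Finset.sum_singleton]
      simp [toMatT, hy]
      ring
    · rw [if_neg hy]
      simp [toMatT, hy]
  · intro i h1 h2 h3
    rw [toMatT_row_out u v w Z.1 h1 h2 h3]
    rfl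

/-- All graphs of a `{u,v,w}`-fibre have matrices with the same margins.
Column `some y`: `RS_col`.  Column `none`: it is `3 - s` where `s` is the number of edges inside
the triple, constant by `RS_inner`.  Row `t`: `Σ_{y ∉ T} Y t y + e_t = d t - deg_T t + e_t`
and `deg_T t - e_t = s - 1`. -/
theorem toMatT_margins {u v w : V} (huv : u ≠ v) (huw : u ≠ w) (hvw : v ≠ w) {X0 Y : SG d}
    (h : RS {u, v, w} X0 Y) :
    IsMat (fun i => ∑ p, (toMatT u v w X0.1 i p).toNat) (fun p => ∑ i, (toMatT u v w X0.1 i p).toNat)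
      (toMatT u v w Y.1) := by
  have he := eT_eq huv huw hvw h
  constructor
  · intro i
    by_cases hi : i = u ∨ i = v ∨ i = w
    · have h1 := toMatT_rowsum huv huw hvw X0 i hi
      have h2 := toMatT_rowsum huv huw hvw Y i hi
      simp only
      omega
    · push Not at hi
      refine Finset.sum_congr rfl fun p _ => ?_
      rw [toMatT_row_out u v w _ hi.1 hi.2.1 hi.2.2, toMatT_row_out u v w _ hi.1 hi.2.1 hi.2.2]
  · intro p
    cases p with
    | none =>
      have h1 := toMatT_colsum_none huv huw hvw X0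
      have h2 := toMatT_colsum_none huv huw hvw Y
      simp only
      omega
    | some y =>
      simp only
      rw [toMatT_colsum_some huv huw hvw, toMatT_colsum_some huv huw hvw]
      by_cases hy : y ≠ u ∧ y ≠ v ∧ y ≠ w
      · rw [if_pos hy, if_pos hy]
        exact (RS_col h (by simp [hy.1, hy.2.1, hy.2.2])).symm
      · rw [if_neg hy, if_neg hy]

end P335
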