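import Vale.Agent.Lib.P335.Gen.FibreT1

/-!
# P335 general case: a `{u,v,w}`-fibre, backward direction
-/

namespace P335

open Finset

set_option linter.unusedSectionVars false
set_option linter.unusedSimpArgs false

variable {V : Type*} [Fintype V] [DecidableEq V] {d : V → ℕ}

/-- the graph built from a three-row matrix -/
def fromMatT (u v w : V) (X0 : V → V → Bool) (Z : V → Option V → Bool) : V → V → Bool :=
  fun i j =>
    if i = u ∨ i = v ∨ i = w then
      if j = u ∨ j = v ∨ j = w then
        (if (i = u ∧ j = v) ∨ (i = v ∧ j = u) then !Z w none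
         else if (i = u ∧ j = w) ∨ (i = w ∧ j = u) then !Z v none
         else if (i = v ∧ j = w) ∨ (i = w ∧ j = v) then !Z u none
         else false)
      else Z i (some j)
    else
      if j = u ∨ j = v ∨ j = w then Z j (some i) else X0 i j

/-- a row which is `h` except for two special entries -/
theorem sum_two_special (g h : V → Bool) {b c : V} (hbc : b ≠ c) (x y : Bool)
    (hb : h b = false) (hc : h c = false)
    (hg : ∀ j, g j = if j = b then x else if j = c then y else h j) :
    ∑ j, (g j).toNat = ∑ j, (h j).toNat + x.toNat + y.toNat := by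
  have hp : ∀ j, (g j).toNat
      = (h j).toNat + (if j = b then x.toNat else 0) + (if j = c then y.toNat else 0) := by
    intro j
    rw [hg j]
    by_cases h1 : j = b
    · subst h1
      simp [hb, hbc]
    · by_cases h2 : j = c
      · subst h2
        simp [hc, h1]
      · simp [h1, h2]
  simp only [hp, Finset.sum_add_distrib, Finset.sum_ite_eq', Finset.mem_univ, if_true]

/-- a column supported on three rows -/
theorem sum_three_support (g : V → Bool) {u v w : V} (huv : u ≠ v) (huw : u ≠ w) (hvw : v ≠ w)
    (hg : ∀ i, ¬ (i = u ∨ i = v ∨ i = w) → g i = false) :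
    ∑ i, (g i).toNat = (g u).toNat + (g v).toNat + (g w).toNat := by
  have hp : ∀ j, (g j).toNat
      = (if j = u then (g u).toNat else 0) + (if j = v then (g v).toNat else 0)
        + (if j = w then (g w).toNat else 0) := by
    intro j
    by_cases h1 : j = u
    · subst h1
      simp [huv, huw]
    · by_cases h2 : j = v
      · subst h2
        simp [h1, hvw]
      · by_cases h3 : j = w
        · subst h3
          simp [h1, h2]
        · simp [h1, h2, h3, hg j (by tauto)]
  rw [Finset.sum_congr rfl fun j _ => hp j]
  simp only [Finset.sum_add_distrib, Finset.sum_ite_eq', Finset.mem_univ, if_true]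

/-- the arithmetic behind the degree of a vertex of the triple -/
theorem deg_arith (za zb zc ma mb mc : Bool) (SZ SM : ℕ)
    (hrow : za.toNat + SZ = ma.toNat + SM)
    (hcol : za.toNat + zb.toNat + zc.toNat = ma.toNat + mb.toNat + mc.toNat) :
    SZ + (!zc).toNat + (!zb).toNat = SM + (!mc).toNat + (!mb).toNat := by
  revert hrow hcol
  cases za <;> cases zb <;> cases zc <;> cases ma <;> cases mb <;> cases mc <;>
    simp <;> omega

/-- Every matrix with the margins of `toMatT u v w X0` comes from a graph of the fibre.
Construction (`T = {u,v,w}`): `Y i j = X0 i j` if `i, j ∉ T`; `Y t y = Y y t = Z t (some y)` for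
`t ∈ T, y ∉ T`; `Y v w = Y w v = !Z u none`, `Y u w = Y w u = !Z v none`,
`Y u v = Y v u = !Z w none`; zero diagonal.
First note that the rows of `Z` outside `T` and the columns `some u, some v, some w` vanish (their
margins are 0).  Degree of `y ∉ T`: column sum of column `some y`.  Degree of `u`:
`Σ_{y ∉ T} Z u (some y) + (1 - Z w none) + (1 - Z v none) = r u + 2 - c none`, and the same formula
holds for `X0`. -/
theorem toMatT_surj {u v w : V} (huv : u ≠ v) (huw : u ≠ w) (hvw : v ≠ w) (X0 : SG d)
    (Z : V → Option V → Bool)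
    (hZ : IsMat (fun i => ∑ p, (toMatT u v w X0.1 i p).toNat)
      (fun p => ∑ i, (toMatT u v w X0.1 i p).toNat) Z) :
    ∃ Y : SG d, RS {u, v, w} X0 Y ∧ toMatT u v w Y.1 = Z := by
  obtain ⟨hR, hC⟩ := hZ
  simp only at hR hC
  have hvu := huv.symm
  have hwu := huw.symm
  have hwv := hvw.symm
  -- the matrix of `X0`
  have M_row : ∀ i, ¬ (i = u ∨ i = v ∨ i = w) → ∀ p, toMatT u v w X0.1 i p = false := by
    intro i hi p
    have h1 : i ≠ u := fun h => hi (Or.inl h)
    have h2 : i ≠ v := fun h => hi (Or.inr (Or.inl h))
    have h3 : i ≠ w := fun h => hi (Or.inr (Or.inr h))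
    cases p <;> simp [toMatT, h1, h2, h3]
  have M_col : ∀ y, (y = u ∨ y = v ∨ y = w) → ∀ i, toMatT u v w X0.1 i (some y) = false := by
    intro y hy i
    simp only [toMatT]
    rcases hy with rfl | rfl | rfl <;> simp
  have M_in : ∀ i y, (i = u ∨ i = v ∨ i = w) → ¬ (y = u ∨ y = v ∨ y = w) →
      toMatT u v w X0.1 i (some y) = X0.1 i y := by
    intro i y hi hy
    have h1 : y ≠ u := fun h => hy (Or.inl h)
    have h2 : y ≠ v := fun h => hy (Or.inr (Or.inl h))
    have h3 : y ≠ w := fun h => hy (Or.inr (Or.inr h))
    simp [toMatT, hi, h1, h2, h3]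
  have Mu : toMatT u v w X0.1 u none = !X0.1 v w := by simp [toMatT]
  have Mv : toMatT u v w X0.1 v none = !X0.1 u w := by simp [toMatT, hvu]
  have Mw : toMatT u v w X0.1 w none = !X0.1 u v := by simp [toMatT, hwu, hwv]
  -- vanishing rows and columns of `Z`
  have Z_row : ∀ i, ¬ (i = u ∨ i = v ∨ i = w) → ∀ p, Z i p = false := by
    intro i hi p
    have h0 : ∑ p, (Z i p).toNat = 0 := by
      rw [hR i]
      exact Finset.sum_eq_zero fun p _ => by rw [M_row i hi p]; rfl
    have := (Finset.sum_eq_zero_iff.mp h0) p (Finset.mem_univ p)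
    revert this
    cases Z i p <;> simp
  have Z_col : ∀ y, (y = u ∨ y = v ∨ y = w) → ∀ i, Z i (some y) = false := by
    intro y hy i
    have h0 : ∑ i, (Z i (some y)).toNat = 0 := by
      rw [hC (some y)]
      exact Finset.sum_eq_zero fun i _ => by rw [M_col y hy i]; rfl
    have := (Finset.sum_eq_zero_iff.mp h0) i (Finset.mem_univ i)
    revert this
    cases Z i (some y) <;> simp
  -- values of the new graph
  set Y : V → V → Bool := fromMatT u v w X0.1 Z with hYdef
  have Y_oo : ∀ i j, ¬ (i = u ∨ i = v ∨ i = w) → ¬ (j = u ∨ j = v ∨ j = w) →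
      Y i j = X0.1 i j := by
    intro i j hi hj
    simp only [hYdef, fromMatT, if_neg hi, if_neg hj]
  have Y_io : ∀ i j, (i = u ∨ i = v ∨ i = w) → ¬ (j = u ∨ j = v ∨ j = w) →
      Y i j = Z i (some j) := by
    intro i j hi hj
    simp only [hYdef, fromMatT, if_pos hi, if_neg hj]
  have Y_oi : ∀ i j, ¬ (i = u ∨ i = v ∨ i = w) → (j = u ∨ j = v ∨ j = w) →
      Y i j = Z j (some i) := by
    intro i j hi hj
    simp only [hYdef, fromMatT, if_neg hi, if_pos hj]
  have Yuu : Y u u = false := by simp [hYdef, fromMatT, huv, huw, hvw, hvu, hwu, hwv]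
  have Yvv : Y v v = false := by simp [hYdef, fromMatT, huv, huw, hvw, hvu, hwu, hwv]
  have Yww : Y w w = false := by simp [hYdef, fromMatT, huv, huw, hvw, hvu, hwu, hwv]
  have Yuv : Y u v = !Z w none := by simp [hYdef, fromMatT, huv, huw, hvw, hvu, hwu, hwv]
  have Yvu : Y v u = !Z w none := by simp [hYdef, fromMatT, huv, huw, hvw, hvu, hwu, hwv]
  have Yuw : Y u w = !Z v none := by simp [hYdef, fromMatT, huv, huw, hvw, hvu, hwu, hwv]
  have Ywu : Y w u = !Z v none := by simp [hYdef, fromMatT, huv, huw, hvw, hvu, hwu, hwv]
  have Yvw : Y v w = !Z u none := by simp [hYdef, fromMatT, huv, huw, hvw, hvu, hwu, hwv]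
  have Ywv : Y w v = !Z u none := by simp [hYdef, fromMatT, huv, huw, hvw, hvu, hwu, hwv]
  have Y_symm : ∀ i j, Y i j = Y j i := by
    intro i j
    by_cases hi : i = u ∨ i = v ∨ i = w
    · by_cases hj : j = u ∨ j = v ∨ j = w
      · rcases hi with rfl | rfl | rfl <;> rcases hj with rfl | rfl | rfl <;>
          simp only [Yuu, Yvv, Yww, Yuv, Yvu, Yuw, Ywu, Yvw, Ywv]
      · rw [Y_io i j hi hj, Y_oi j i hj hi]
    · by_cases hj : j = u ∨ j = v ∨ j = w
      · rw [Y_oi i j hi hj, Y_io j i hj hi]
      · rw [Y_oo i j hi hj, Y_oo j i hj hi, X0.symm i j]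
  have Y_diag : ∀ i, Y i i = false := by
    intro i
    by_cases hi : i = u ∨ i = v ∨ i = w
    · rcases hi with rfl | rfl | rfl
      · exact Yuu
      · exact Yvv
      · exact Yww
    · rw [Y_oo i i hi hi, X0.diag i]
  -- the column `none`
  have hcol : (Z u none).toNat + (Z v none).toNat + (Z w none).toNat
      = (toMatT u v w X0.1 u none).toNat + (toMatT u v w X0.1 v none).toNat
        + (toMatT u v w X0.1 w none).toNat := by
    rw [← sum_three_support (fun i => Z i none) huv huw hvw (fun i hi => Z_row i hi none),
      ← sum_three_support (fun i => toMatT u v w X0.1 i none) huv huw hvw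
        (fun i hi => M_row i hi none)]
    exact hC none
  have hrow : ∀ i, (Z i none).toNat + ∑ y, (Z i (some y)).toNat
      = (toMatT u v w X0.1 i none).toNat + ∑ y, (toMatT u v w X0.1 i (some y)).toNat := by
    intro i
    have := hR i
    rwa [Fintype.sum_option, Fintype.sum_option] at this
  -- degrees
  have deg_o : ∀ y, ¬ (y = u ∨ y = v ∨ y = w) → ∑ j, (Y y j).toNat = d y := by
    intro y hy
    have hp : ∀ j, (Y y j).toNat + (toMatT u v w X0.1 j (some y)).toNat
        = (X0.1 y j).toNat + (Z j (some y)).toNat := by
      intro j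
      by_cases hj : j = u ∨ j = v ∨ j = w
      · rw [Y_oi y j hy hj, M_in j y hj hy, X0.symm j y, add_comm]
      · rw [Y_oo y j hy hj, M_row j hj, Z_row j hj]
    have hs : ∑ j, (Y y j).toNat + ∑ j, (toMatT u v w X0.1 j (some y)).toNat
        = ∑ j, (X0.1 y j).toNat + ∑ j, (Z j (some y)).toNat := by
      rw [← Finset.sum_add_distrib, ← Finset.sum_add_distrib]
      exact Finset.sum_congr rfl fun j _ => hp j
    have h1 := hC (some y)
    have h2 := X0.row y
    omega
  have deg_u : ∑ j, (Y u j).toNat = d u := by
    have hY : ∑ j, (Y u j).toNat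
        = ∑ j, (Z u (some j)).toNat + (!Z w none).toNat + (!Z v none).toNat := by
      refine sum_two_special (Y u) (fun j => Z u (some j)) hvw _ _
        (Z_col v (by simp) u) (Z_col w (by simp) u) ?_
      intro j
      by_cases h1 : j = v
      · subst h1; simp [Yuv]
      · by_cases h2 : j = w
        · subst h2; simp [Yuw, h1]
        · by_cases h3 : j = u
          · subst h3; simp [h1, h2, Yuu, Z_col j (by simp) j]
          · simp only [if_neg h1, if_neg h2]
            exact Y_io u j (by simp) (by tauto)
    have hX : ∑ j, (X0.1 u j).toNat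
        = ∑ j, (toMatT u v w X0.1 u (some j)).toNat + (!toMatT u v w X0.1 w none).toNat
          + (!toMatT u v w X0.1 v none).toNat := by
      refine sum_two_special (X0.1 u) (fun j => toMatT u v w X0.1 u (some j)) hvw _ _
        (M_col v (by simp) u) (M_col w (by simp) u) ?_
      intro j
      by_cases h1 : j = v
      · subst h1; simp [Mw]
      · by_cases h2 : j = w
        · subst h2; simp [Mv, h1]
        · by_cases h3 : j = u
          · subst h3; simp [h1, h2, X0.diag, M_col j (by simp) j]
          · simp only [if_neg h1, if_neg h2]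
            exact (M_in u j (by simp) (by tauto)).symm
    rw [hY, ← X0.row u, hX]
    exact deg_arith _ _ _ _ _ _ _ _ (hrow u) hcol
  have deg_v : ∑ j, (Y v j).toNat = d v := by
    have hY : ∑ j, (Y v j).toNat
        = ∑ j, (Z v (some j)).toNat + (!Z w none).toNat + (!Z u none).toNat := by
      refine sum_two_special (Y v) (fun j => Z v (some j)) huw _ _
        (Z_col u (by simp) v) (Z_col w (by simp) v) ?_
      intro j
      by_cases h1 : j = u
      · subst h1; simp [Yvu]
      · by_cases h2 : j = w
        · subst h2; simp [Yvw, h1]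
        · by_cases h3 : j = v
          · subst h3; simp [h1, h2, Yvv, Z_col j (by simp) j]
          · simp only [if_neg h1, if_neg h2]
            exact Y_io v j (by simp) (by tauto)
    have hX : ∑ j, (X0.1 v j).toNat
        = ∑ j, (toMatT u v w X0.1 v (some j)).toNat + (!toMatT u v w X0.1 w none).toNat
          + (!toMatT u v w X0.1 u none).toNat := by
      refine sum_two_special (X0.1 v) (fun j => toMatT u v w X0.1 v (some j)) huw _ _
        (M_col u (by simp) v) (M_col w (by simp) v) ?_
      intro j
      by_cases h1 : j = u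
      · subst h1; simp [Mw, X0.symm v j]
      · by_cases h2 : j = w
        · subst h2; simp [Mu, h1]
        · by_cases h3 : j = v
          · subst h3; simp [h1, h2, X0.diag, M_col j (by simp) j]
          · simp only [if_neg h1, if_neg h2]
            exact (M_in v j (by simp) (by tauto)).symm
    rw [hY, ← X0.row v, hX]
    exact deg_arith _ _ _ _ _ _ _ _ (hrow v) (by omega)
  have deg_w : ∑ j, (Y w j).toNat = d w := by
    have hY : ∑ j, (Y w j).toNat
        = ∑ j, (Z w (some j)).toNat + (!Z v none).toNat + (!Z u none).toNat := by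
      refine sum_two_special (Y w) (fun j => Z w (some j)) huv _ _
        (Z_col u (by simp) w) (Z_col v (by simp) w) ?_
      intro j
      by_cases h1 : j = u
      · subst h1; simp [Ywu]
      · by_cases h2 : j = v
        · subst h2; simp [Ywv, h1]
        · by_cases h3 : j = w
          · subst h3; simp [h1, h2, Yww, Z_col j (by simp) j]
          · simp only [if_neg h1, if_neg h2]
            exact Y_io w j (by simp) (by tauto)
    have hX : ∑ j, (X0.1 w j).toNat
        = ∑ j, (toMatT u v w X0.1 w (some j)).toNat + (!toMatT u v w X0.1 v none).toNat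
          + (!toMatT u v w X0.1 u none).toNat := by
      refine sum_two_special (X0.1 w) (fun j => toMatT u v w X0.1 w (some j)) huv _ _
        (M_col u (by simp) w) (M_col v (by simp) w) ?_
      intro j
      by_cases h1 : j = u
      · subst h1; simp [Mv, X0.symm w j]
      · by_cases h2 : j = v
        · subst h2; simp [Mu, h1, X0.symm w j]
        · by_cases h3 : j = w
          · subst h3; simp [h1, h2, X0.diag, M_col j (by simp) j]
          · simp only [if_neg h1, if_neg h2]
            exact (M_in w j (by simp) (by tauto)).symm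
    rw [hY, ← X0.row w, hX]
    exact deg_arith _ _ _ _ _ _ _ _ (hrow w) (by omega)
  have Y_deg : ∀ i, ∑ j, (Y i j).toNat = d i := by
    intro i
    by_cases hi : i = u ∨ i = v ∨ i = w
    · rcases hi with rfl | rfl | rfl
      · exact deg_u
      · exact deg_v
      · exact deg_w
    · exact deg_o i hi
  refine ⟨⟨Y, Y_symm, Y_diag, Y_deg⟩, ?_, ?_⟩
  · intro i j hi hj
    simp only [Finset.mem_insert, Finset.mem_singleton] at hi hj
    exact (Y_oo i j hi hj).symm
  · funext i p
    cases p with
    | none =>
      by_cases h1 : i = u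
      · subst h1; simp [toMatT, Yvw]
      · by_cases h2 : i = v
        · subst h2; simp [toMatT, h1, Yuw]
        · by_cases h3 : i = w
          · subst h3; simp [toMatT, h1, h2, Yuv]
          · simp [toMatT, h1, h2, h3, Z_row i (by tauto) none]
    | some y =>
      by_cases hi : i = u ∨ i = v ∨ i = w
      · by_cases hy : y = u ∨ y = v ∨ y = w
        · rw [Z_col y hy i]
          simp only [toMatT]
          rcases hy with rfl | rfl | rfl <;> simp
        · have h1 : y ≠ u := fun h => hy (Or.inl h)
          have h2 : y ≠ v := fun h => hy (Or.inr (Or.inl h))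
          have h3 : y ≠ w := fun h => hy (Or.inr (Or.inr h))
          simp [toMatT, hi, h1, h2, h3, Y_io i y hi hy]
      · rw [Z_row i hi]
        have h1 : i ≠ u := fun h => hi (Or.inl h)
        have h2 : i ≠ v := fun h => hi (Or.inr (Or.inl h))
        have h3 : i ≠ w := fun h => hi (Or.inr (Or.inr h))
        simp [toMatT, h1, h2, h3]

end P335
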