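import Vale.Agent.Lib.P335.Gen.JAvg2
import Vale.Agent.Lib.P335.JohnsonTwo
import Vale.Agent.Lib.P335.JohnsonGap

/-!
# P335 general case: the two inequalities on an abstract two-row fibre, in terms of `avg`
-/

namespace P335
namespace JAbs

open Finset

set_option linter.unusedSectionVars false

variable {W κ : Type*} [DecidableEq κ] (J : Sys W κ) [Fintype W]

namespace Sys

/-- the right-hand side of both inequalities is the total Dirichlet form `Σ D / 4` -/
theorem sum_dot_rX (φ : W → ℝ) :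
    ∑ w ∈ J.M, ∑ z ∈ J.M, (if w ≠ z then dot φ (φ - avg (J.rX w z) φ) else 0)
      = ∑ w ∈ J.M, ∑ z ∈ J.M, J.D φ w z / 4 := by
  refine Finset.sum_congr rfl fun w hw => Finset.sum_congr rfl fun z hz => ?_
  by_cases h : w = z
  · subst h
    rw [if_neg (by simp), J.D_self φ hw, zero_div]
  · rw [if_pos h, J.dot_rX hw hz h]

theorem top_equiv : Equivalence (fun _ _ : W => True) :=
  ⟨fun _ => trivial, fun _ => trivial, fun _ _ => trivial⟩

/-- **(II)**.  `kap_rA`, `two_K` applied to `φ - mean` (`sum_sub_mean`), `(m-2)/m ≤ 1`, `D_sub_mean`,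
`dot_rX`; the diagonal terms `w = z` of `two_K` vanish (`l_self`, `D_self`). -/
theorem kap_le (φ : W → ℝ) :
    ∑ w ∈ J.M, ∑ z ∈ J.M, (if w ≠ z then ∑ S, (if J.s S w ≠ J.s S z then
        (avg (J.rA w z) φ S - avg (fun _ _ => True) φ S) ^ 2 else 0) else 0)
      ≤ ∑ w ∈ J.M, ∑ z ∈ J.M, (if w ≠ z then dot φ (φ - avg (J.rX w z) φ) else 0) := by
  rw [J.sum_dot_rX φ]
  have h1 : ∑ w ∈ J.M, ∑ z ∈ J.M, (if w ≠ z then ∑ S, (if J.s S w ≠ J.s S z then
        (avg (J.rA w z) φ S - avg (fun _ _ => True) φ S) ^ 2 else 0) else 0)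
      = ∑ w ∈ J.M, ∑ z ∈ J.M,
          (J.l (φ - avg (fun _ _ => True) φ) w z) ^ 2 / J.N w z := by
    refine Finset.sum_congr rfl fun w _ => Finset.sum_congr rfl fun z _ => ?_
    by_cases h : w = z
    · subst h
      rw [if_neg (by simp), J.l_self]
      simp
    · rw [if_pos h, J.kap_rA w z φ]
  rw [h1]
  have h2 := J.two_K (Sys.sum_sub_mean φ)
  simp only [J.D_sub_mean] at h2
  refine h2.trans ?_
  have hD0 : 0 ≤ ∑ w ∈ J.M, ∑ z ∈ J.M, J.D φ w z / 4 :=
    Finset.sum_nonneg fun w _ => Finset.sum_nonneg fun z _ =>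
      div_nonneg (J.D_nonneg _ _ _) (by norm_num)
  have h3 : ((J.M.card : ℝ) - 2) / J.M.card ≤ 1 := by
    apply div_le_one_of_le₀
    · linarith
    · positivity
  calc ((J.M.card : ℝ) - 2) / J.M.card * ∑ w ∈ J.M, ∑ z ∈ J.M, J.D φ w z / 4
      ≤ 1 * ∑ w ∈ J.M, ∑ z ∈ J.M, J.D φ w z / 4 := mul_le_mul_of_nonneg_right h3 hD0
    _ = _ := one_mul _

/-- **two-row Poincare inequality**.  `gap` applied to `ψ = φ - mean`:
`4 m Σ ψ^2 ≤ Σ_{w,z} D`, and `dot φ (φ - mean) = Σ ψ^2` (`dot_Q_Q`).  If `m ≥ 2` this gives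
`Σ ψ^2 ≤ (1/m) Σ D/4 ≤ (1/2) Σ D/4`.  If `m ≤ 1` all configurations are equal (`J.inj` and `J.card`), so
`ψ = 0`. -/
theorem poincare (φ : W → ℝ) :
    dot φ (φ - avg (fun _ _ => True) φ)
      ≤ (1 / 2) * ∑ w ∈ J.M, ∑ z ∈ J.M,
          (if w ≠ z then dot φ (φ - avg (J.rX w z) φ) else 0) := by
  rw [J.sum_dot_rX φ]
  have hD0 : 0 ≤ ∑ w ∈ J.M, ∑ z ∈ J.M, J.D φ w z / 4 :=
    Finset.sum_nonneg fun w _ => Finset.sum_nonneg fun z _ =>
      div_nonneg (J.D_nonneg _ _ _) (by norm_num)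
  rcases Nat.lt_or_ge J.M.card 2 with hlt | hge
  · -- all configurations are equal
    have hall : ∀ S S' : W, S = S' := by
      intro S S'
      apply J.inj
      intro x hx
      have hM : J.M = {x} := by
        apply Finset.eq_singleton_iff_unique_mem.2
        exact ⟨hx, fun y hy => Finset.card_le_one.1 (by omega) y hy x hx⟩
      have c1 := J.card S
      have c2 := J.card S'
      rw [hM, Finset.filter_singleton] at c1 c2
      cases h1 : J.s S x <;> cases h2 : J.s S' x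
      · rfl
      · rw [h1] at c1
        rw [h2] at c2
        simp at c1 c2
        omega
      · rw [h1] at c1
        rw [h2] at c2
        simp at c1 c2
        omega
      · rfl
    have hinv : Inv (fun _ _ : W => True) φ := fun x y _ => by rw [hall x y]
    rw [avg_of_inv top_equiv hinv, sub_self]
    have : dot φ (0 : W → ℝ) = 0 := by
      unfold dot
      simp
    rw [this]
    positivity
  · have hm : (2 : ℝ) ≤ J.M.card := by exact_mod_cast hge
    have h1 := J.gap (φ - avg (fun _ _ => True) φ) (Sys.sum_sub_mean φ)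
    simp only [J.D_sub_mean] at h1
    have h2 : dot φ (φ - avg (fun _ _ => True) φ)
        = ∑ S, (φ - avg (fun _ _ => True) φ) S ^ 2 := by
      rw [← dot_Q_Q top_equiv φ]
      unfold dot
      exact Finset.sum_congr rfl fun S _ => by ring
    rw [h2]
    have h3 : ∑ w ∈ J.M, ∑ z ∈ J.M, J.D φ w z / 4 = (∑ w ∈ J.M, ∑ z ∈ J.M, J.D φ w z) / 4 := by
      rw [Finset.sum_div]
      exact Finset.sum_congr rfl fun w _ => (Finset.sum_div _ _ _).symm
    rw [h3]
    have h4 : 0 ≤ ∑ S, (φ - avg (fun _ _ => True) φ) S ^ 2 :=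
      Finset.sum_nonneg fun S _ => sq_nonneg _
    nlinarith

end Sys
end JAbs
end P335
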