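import Vale.Agent.Lib.P335.Gen.FibreBJ
import Vale.Agent.Lib.P335.Gen.FibreBRel
import Vale.Agent.Lib.P335.Gen.JAvg3

/-!
# P335 general case: inequality (II) and the two-row Poincare inequality on `SG d`
-/

namespace P335

open Finset

set_option linter.unusedSectionVars false

variable {V : Type*} [Fintype V] [DecidableEq V] {d : V → ℕ}

/-- a double sum over a finset as a double sum over the type -/
theorem pairB_sum_M (M : Finset V) (g : V → V → ℝ) :
    ∑ w ∈ M, ∑ z ∈ M, g w z = ∑ w, ∑ z, (if w ∈ M ∧ z ∈ M then g w z else 0) := by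
  have h1 : ∀ w, ∑ z, (if w ∈ M ∧ z ∈ M then g w z else 0)
      = if w ∈ M then ∑ z ∈ M, g w z else 0 := by
    intro w
    by_cases hw : w ∈ M
    · simp only [hw, true_and, if_true]
      rw [Finset.sum_ite_mem, Finset.univ_inter]
    · simp [hw]
  rw [Finset.sum_congr rfl (fun w _ => h1 w), Finset.sum_ite_mem, Finset.univ_inter]

/-- exchange of the sum over configurations with the double sum over vertices -/
theorem pairB_swap {Ω : Type*} [Fintype Ω] (P : V → V → Prop) [∀ w z, Decidable (P w z)]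
    (g : V → V → Ω → ℝ) :
    ∑ X : Ω, ∑ w, ∑ z, (if P w z then g w z X else 0)
      = ∑ w, ∑ z, (if P w z then ∑ X, g w z X else 0) := by
  rw [Finset.sum_comm]
  refine Finset.sum_congr rfl (fun w _ => ?_)
  rw [Finset.sum_comm]
  refine Finset.sum_congr rfl (fun z _ => ?_)
  by_cases h : P w z
  · simp only [if_pos h]
  · simp [if_neg h]

/-- two distinct free columns give four distinct vertices -/
theorem pairB_D4 {u v w z : V} (huv : u ≠ v) {X0 : V → V → Bool} (hw : w ∈ freeCols u v X0)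
    (hz : z ∈ freeCols u v X0) (hwz : w ≠ z) : D4 u v w z := by
  obtain ⟨a1, a2, -⟩ := mem_freeCols.1 hw
  obtain ⟨b1, b2, -⟩ := mem_freeCols.1 hz
  exact ⟨huv, a1.symm, b1.symm, a2.symm, b2.symm, hwz⟩

/-- the inequality on one fibre -/
theorem pairB_fibre {u v : V} (huv : u ≠ v) (f : SG d → ℝ) (X0 : SG d) :
    ∑ w, ∑ z, (if D4 u v w z then ∑ Y : Fib (RS {u, v}) X0,
        (if Alt u v w z Y.1.1 then (avg (RSs u v w z) f Y.1 - avg (RS {u, v}) f Y.1) ^ 2 else 0)
        else 0)
      ≤ ∑ w, ∑ z, (if D4 u v w z then ∑ Y : Fib (RS {u, v}) X0,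
        f Y.1 * (f - avg (RX u v w z) f) Y.1 else 0) := by
  obtain ⟨J, hM, hs⟩ := exists_sys_B huv X0
  have hRe : Equivalence (RS (d := d) {u, v}) := RS_equiv _
  set φ : Fib (RS {u, v}) X0 → ℝ := fun a => f a.1 with hφ
  -- the three induced relations
  have relR : relFib (RS {u, v}) (RS {u, v}) X0 = fun _ _ => True := by
    funext a b
    exact propext ⟨fun _ => trivial, fun _ => hRe.trans (hRe.symm a.2) b.2⟩
  have relX : ∀ w z, D4 u v w z → relFib (RX u v w z) (RS {u, v}) X0 = J.rX w z := by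
    intro w z h
    funext a b
    apply propext
    unfold relFib JAbs.Sys.rX
    rw [fibreB_RX h a.2 b.2, hM]
    simp only [hs]
  have altJ : ∀ w z, D4 u v w z → ∀ a : Fib (RS {u, v}) X0,
      (Alt u v w z a.1.1 ↔ (w ∈ J.M ∧ z ∈ J.M ∧ J.s a w ≠ J.s a z)) := by
    intro w z h a
    rw [fibreB_Alt h a.2, hM, hs, hs]
  have relA : ∀ w z, D4 u v w z → w ∈ J.M → z ∈ J.M →
      relFib (RSs u v w z) (RS {u, v}) X0 = J.rA w z := by
    intro w z h hw hz
    funext a b
    apply propext
    unfold relFib JAbs.Sys.rA RSs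
    rw [altJ w z h a, altJ w z h b]
    constructor
    · rintro ⟨-, h2⟩
      constructor
      · intro h3
        exact (h2.1 ⟨hw, hz, h3⟩).2.2
      · intro h3
        exact (h2.2 ⟨hw, hz, h3⟩).2.2
    · intro h2
      refine ⟨hRe.trans (hRe.symm a.2) b.2, ?_⟩
      constructor
      · rintro ⟨-, -, h3⟩
        exact ⟨hw, hz, h2.1 h3⟩
      · rintro ⟨-, -, h3⟩
        exact ⟨hw, hz, h2.2 h3⟩
  -- averages
  have avR : ∀ a : Fib (RS {u, v}) X0, avg (RS {u, v}) f a.1 = avg (fun _ _ => True) φ a := by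
    intro a
    rw [← avg_fib hRe (fun _ _ h => h) X0 f a, relR]
  have avX : ∀ w z, D4 u v w z → ∀ a : Fib (RS {u, v}) X0,
      avg (RX u v w z) f a.1 = avg (J.rX w z) φ a := by
    intro w z h a
    rw [← avg_fib hRe (fun _ _ h' => RX_le_RS h') X0 f a, relX w z h]
  have avA : ∀ w z, D4 u v w z → w ∈ J.M → z ∈ J.M → ∀ a : Fib (RS {u, v}) X0,
      avg (RSs u v w z) f a.1 = avg (J.rA w z) φ a := by
    intro w z h hw hz a
    rw [← avg_fib hRe (fun _ _ h' => h'.1) X0 f a, relA w z h hw hz]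
  -- abbreviations for the two sides of `kap_le`
  set A : V → V → ℝ := fun w z => ∑ S, (if J.s S w ≠ J.s S z then
        (avg (J.rA w z) φ S - avg (fun _ _ => True) φ S) ^ 2 else 0) with hA
  set B : V → V → ℝ := fun w z => dot φ (φ - avg (J.rX w z) φ) with hB
  have hB0 : ∀ w z, 0 ≤ B w z := by
    intro w z
    rw [hB]
    simp only
    rw [← dot_Q_Q (J.rX_equiv w z)]
    exact dot_self_nonneg _
  have key := J.kap_le φ
  rw [pairB_sum_M J.M, pairB_sum_M J.M] at key
  -- left side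
  have hL : ∀ w z, (if D4 u v w z then ∑ Y : Fib (RS {u, v}) X0,
        (if Alt u v w z Y.1.1 then (avg (RSs u v w z) f Y.1 - avg (RS {u, v}) f Y.1) ^ 2 else 0)
        else 0) = (if w ∈ J.M ∧ z ∈ J.M then (if w ≠ z then A w z else 0) else 0) := by
    intro w z
    by_cases h : D4 u v w z
    · rw [if_pos h]
      by_cases hwz : w ∈ J.M ∧ z ∈ J.M
      · rw [if_pos hwz, if_pos h.2.2.2.2.2]
        refine Finset.sum_congr rfl (fun Y _ => ?_)
        have e : (Alt u v w z Y.1.1) ↔ J.s Y w ≠ J.s Y z := by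
          rw [altJ w z h Y]
          exact ⟨fun h' => h'.2.2, fun h' => ⟨hwz.1, hwz.2, h'⟩⟩
        rw [avA w z h hwz.1 hwz.2 Y, avR Y]
        by_cases h3 : J.s Y w ≠ J.s Y z
        · rw [if_pos (e.2 h3), if_pos h3]
        · rw [if_neg (fun h' => h3 (e.1 h')), if_neg h3]
      · rw [if_neg hwz]
        refine Finset.sum_eq_zero (fun Y _ => ?_)
        rw [if_neg]
        intro h'
        have := (altJ w z h Y).1 h'
        exact hwz ⟨this.1, this.2.1⟩
    · rw [if_neg h]
      by_cases hwz : w ∈ J.M ∧ z ∈ J.M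
      · rw [if_pos hwz, if_neg]
        intro hne
        rw [hM] at hwz
        exact h (pairB_D4 huv hwz.1 hwz.2 hne)
      · rw [if_neg hwz]
  -- right side
  have hRt : ∀ w z, (if w ∈ J.M ∧ z ∈ J.M then (if w ≠ z then B w z else 0) else 0)
      ≤ (if D4 u v w z then ∑ Y : Fib (RS {u, v}) X0, f Y.1 * (f - avg (RX u v w z) f) Y.1 else 0) := by
    intro w z
    by_cases h : D4 u v w z
    · rw [if_pos h]
      have e : ∑ Y : Fib (RS {u, v}) X0, f Y.1 * (f - avg (RX u v w z) f) Y.1 = B w z := by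
        rw [hB]
        unfold dot
        refine Finset.sum_congr rfl (fun Y _ => ?_)
        rw [Pi.sub_apply, Pi.sub_apply, avX w z h Y]
      rw [e]
      split_ifs
      · exact le_refl _
      · exact hB0 w z
      · exact hB0 w z
    · rw [if_neg h]
      by_cases hwz : w ∈ J.M ∧ z ∈ J.M
      · rw [if_pos hwz, if_neg]
        intro hne
        rw [hM] at hwz
        exact h (pairB_D4 huv hwz.1 hwz.2 hne)
      · rw [if_neg hwz]
  calc _ = ∑ w, ∑ z, (if w ∈ J.M ∧ z ∈ J.M then (if w ≠ z then A w z else 0) else 0) :=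
        Finset.sum_congr rfl (fun w _ => Finset.sum_congr rfl (fun z _ => hL w z))
    _ ≤ ∑ w, ∑ z, (if w ∈ J.M ∧ z ∈ J.M then (if w ≠ z then B w z else 0) else 0) := key
    _ ≤ _ := Finset.sum_le_sum (fun w _ => Finset.sum_le_sum (fun z _ => hRt w z))

/-- Localise to the fibres of `R = RS {u,v}` (`sum_le_sum_of_cls`, `sum_cls_eq_sum_fib`, `avg_fib` in
`Fibre.lean`; all relations involved are finer than `R`: `RX_le_RS`, `RSs`).  On `Fib (RS {u, v}) X0` take `J` from
`exists_sys_B`.  By `fibreB_Alt`, `fibreB_RX`: for `D4 u v w z`,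
`Alt u v w z Y ↔ w ∈ J.M ∧ z ∈ J.M ∧ J.s Y w ≠ J.s Y z`; `relFib (RX u v w z) = J.rX w z`;
for `w, z ∈ J.M`: `relFib (RSs u v w z) = J.rA w z`; `relFib R = fun _ _ => True`.
The left side localised is the left side of `J.kap_le` (terms with `w ∉ M` or `z ∉ M` vanish, and
`w, z ∈ M, w ≠ z` imply `D4 u v w z`); the right side localised dominates the right side of `J.kap_le`
(the extra terms are `dot φ (φ - avg _ φ) ≥ 0` on the fibre, `dot_Q_Q`). -/
theorem sg_kap_le {u v : V} (huv : u ≠ v) (f : SG d → ℝ) :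
    ∑ w, ∑ z, (if D4 u v w z then kap u v w z f else 0)
      ≤ ∑ w, ∑ z, (if D4 u v w z then dot f (f - avg (RX u v w z) f) else 0) := by
  -- write both sides as sums over `SG d`
  have hL : ∑ w, ∑ z, (if D4 u v w z then kap u v w z f else 0)
      = ∑ X : SG d, ∑ w, ∑ z, (if D4 u v w z then
          (if Alt u v w z X.1 then (avg (RSs u v w z) f X - avg (RS {u, v}) f X) ^ 2 else 0)
          else 0) := by
    rw [pairB_swap]
    rfl
  have hR : ∑ w, ∑ z, (if D4 u v w z then dot f (f - avg (RX u v w z) f) else 0)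
      = ∑ X : SG d, ∑ w, ∑ z, (if D4 u v w z then f X * (f - avg (RX u v w z) f) X else 0) := by
    rw [pairB_swap]
    rfl
  rw [hL, hR]
  refine sum_le_sum_of_cls (RS_equiv {u, v}) _ _ (fun X0 => ?_)
  rw [sum_cls_eq_sum_fib, sum_cls_eq_sum_fib, pairB_swap, pairB_swap]
  exact pairB_fibre huv f X0

end P335
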