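import Vale.Agent.Lib.P335.Gen.FibreT
import Vale.Agent.Lib.P335.Fibre
import Vale.Agent.Lib.P335.Rows

/-!
# P335 general case: the cross terms inside a triple
-/

namespace P335

open Finset

set_option linter.unusedSectionVars false

variable {V : Type*} [Fintype V] [DecidableEq V] {d : V → ℕ}

/-- transport of a finer average on a fibre along an equivalence of the fibre with another finite
type carrying the relation `r'` -/
theorem avg_fib_transport {Ω Ω' : Type*} [Fintype Ω] [Fintype Ω'] {r R : Ω → Ω → Prop}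
    (hR : Equivalence R) (hle : ∀ a b, r a b → R a b) (x : Ω) (e : Fib R x ≃ Ω')
    (r' : Ω' → Ω' → Prop) (hrel : ∀ a b : Fib R x, r a.1 b.1 ↔ r' (e a) (e b))
    (f : Ω → ℝ) (y : Fib R x) :
    avg r f y.1 = avg r' (fun z => f (e.symm z).1) (e y) := by
  rw [← avg_fib hR hle x f y]
  have h1 : relFib r R x = fun a b => r' (e a) (e b) := by
    funext a b
    exact propext (hrel a b)
  have h2 : (fun a : Fib R x => f a.1) = (fun z => f (e.symm z).1) ∘ e := by
    funext a
    simp
  rw [h1, h2, avg_comp_equiv e r' (fun z => f (e.symm z).1)]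
  rfl

/-- Localise to the fibres of `R = RS {u,v,w}` (`sum_nonneg_of_cls`, `sum_cls_eq_sum_fib`, `avg_fib` in
`Fibre.lean`; `RS.mono`).  On `Fib R X0` use the equivalence `e` of `exists_equiv_T`, `avg_comp_equiv`,
`dot_comp_equiv` to transport to `Mat r c`, where the statement is `triple_cross univ _ u v w`. -/
theorem sg_triple {u v w : V} (huv : u ≠ v) (huw : u ≠ w) (hvw : v ≠ w) (f : SG d → ℝ) :
    0 ≤ dot (f - avg (RS {u, v}) f) (f - avg (RS {u, w}) f)
      + dot (f - avg (RS {u, v}) f) (f - avg (RS {v, w}) f)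
      + dot (f - avg (RS {u, w}) f) (f - avg (RS {v, w}) f) := by
  have hR : Equivalence (RS (d := d) {u, v, w}) := RS_equiv _
  have hle1 : ∀ a b : SG d, RS {u, v} a b → RS {u, v, w} a b := fun a b h =>
    RS.mono (by intro x; simp only [mem_insert, mem_singleton]; grind) h
  have hle2 : ∀ a b : SG d, RS {u, w} a b → RS {u, v, w} a b := fun a b h =>
    RS.mono (by intro x; simp only [mem_insert, mem_singleton]; grind) h
  have hle3 : ∀ a b : SG d, RS {v, w} a b → RS {u, v, w} a b := fun a b h =>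
    RS.mono (by intro x; simp only [mem_insert, mem_singleton]; grind) h
  have hsum : dot (f - avg (RS {u, v}) f) (f - avg (RS {u, w}) f)
      + dot (f - avg (RS {u, v}) f) (f - avg (RS {v, w}) f)
      + dot (f - avg (RS {u, w}) f) (f - avg (RS {v, w}) f)
      = ∑ x, ((f x - avg (RS {u, v}) f x) * (f x - avg (RS {u, w}) f x)
        + (f x - avg (RS {u, v}) f x) * (f x - avg (RS {v, w}) f x)
        + (f x - avg (RS {u, w}) f x) * (f x - avg (RS {v, w}) f x)) := by
    unfold dot
    rw [Finset.sum_add_distrib, Finset.sum_add_distrib]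
    rfl
  rw [hsum]
  refine sum_nonneg_of_cls hR _ fun X0 => ?_
  rw [sum_cls_eq_sum_fib]
  obtain ⟨r, c, e0, h1, h2, h3⟩ := exists_equiv_T huv huw hvw X0
  obtain ⟨e, he⟩ : ∃ e : Fib (RS (d := d) {u, v, w}) X0 ≃ Mat r c, e = e0 := ⟨e0, rfl⟩
  subst he
  obtain ⟨g, hg⟩ : ∃ g : Mat r c → ℝ, g = fun z => f (e.symm z).1 := ⟨_, rfl⟩
  have hf : ∀ y : Fib (RS (d := d) {u, v, w}) X0, f y.1 = g (e y) := by
    intro y
    rw [hg]
    simp
  have a1 : ∀ y : Fib (RS (d := d) {u, v, w}) X0,
      avg (RS {u, v}) f y.1 = E {u, v} univ g (e y) := by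
    intro y
    rw [hg]
    exact avg_fib_transport hR hle1 X0 e (AgreeOff {u, v} univ) h1 f y
  have a2 : ∀ y : Fib (RS (d := d) {u, v, w}) X0,
      avg (RS {u, w}) f y.1 = E {u, w} univ g (e y) := by
    intro y
    rw [hg]
    exact avg_fib_transport hR hle2 X0 e (AgreeOff {u, w} univ) h2 f y
  have a3 : ∀ y : Fib (RS (d := d) {u, v, w}) X0,
      avg (RS {v, w}) f y.1 = E {v, w} univ g (e y) := by
    intro y
    rw [hg]
    exact avg_fib_transport hR hle3 X0 e (AgreeOff {v, w} univ) h3 f y
  have hT := triple_cross univ g u v w huv huw hvw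
  have hsum2 : dot (g - E {u, v} univ g) (g - E {u, w} univ g)
      + dot (g - E {u, v} univ g) (g - E {v, w} univ g)
      + dot (g - E {u, w} univ g) (g - E {v, w} univ g)
      = ∑ z, ((g z - E {u, v} univ g z) * (g z - E {u, w} univ g z)
        + (g z - E {u, v} univ g z) * (g z - E {v, w} univ g z)
        + (g z - E {u, w} univ g z) * (g z - E {v, w} univ g z)) := by
    unfold dot
    rw [Finset.sum_add_distrib, Finset.sum_add_distrib]
    rfl
  rw [hsum2, ← Equiv.sum_comp e] at hT
  refine le_of_le_of_eq hT (Finset.sum_congr rfl fun y _ => ?_)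
  rw [hf y, a1 y, a2 y, a3 y]

end P335
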