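import Vale.Agent.Lib.P335.Gen.Sharp4
import Vale.Agent.Lib.P335.Gen.PairB
import Vale.Agent.Lib.P335.Gen.Triple
import Vale.Agent.Lib.P335.Gen.Caputo2
import Vale.Agent.Lib.P335.Hilbert

/-!
# P335 general case: the pair-block dynamics on `SG d` has spectral gap at least 1
-/

namespace P335

open Finset

set_option linter.unusedSectionVars false

variable {V : Type*} [Fintype V] [DecidableEq V] {d : V → ℕ}

theorem sum4_swap (F : V → V → V → V → ℝ) :
    ∑ u, ∑ v, ∑ w, ∑ z, F w z u v = ∑ u, ∑ v, ∑ w, ∑ z, F u v w z := by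
  have e1 : ∑ u, ∑ v, ∑ w, ∑ z, F w z u v = ∑ p : V × V, ∑ q : V × V, F q.1 q.2 p.1 p.2 := by
    simp only [Fintype.sum_prod_type]
  have e2 : ∑ u, ∑ v, ∑ w, ∑ z, F u v w z = ∑ p : V × V, ∑ q : V × V, F p.1 p.2 q.1 q.2 := by
    simp only [Fintype.sum_prod_type]
  rw [e1, e2, Finset.sum_comm]

/-- the cross terms of disjoint pairs are nonnegative in sum -/
theorem sg_disj_sum (f : SG d → ℝ) :
    0 ≤ ∑ u, ∑ v, ∑ w, ∑ z, (if D4 u v w z then
      dot (f - avg (RS {u, v}) f) (f - avg (RS {w, z}) f) else 0) := by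
  set K : V → V → V → V → ℝ := fun u v w z => if D4 u v w z then kap u v w z f else 0 with hK
  set L : V → V → V → V → ℝ :=
    fun u v w z => if D4 u v w z then dot f (f - avg (RX u v w z) f) else 0 with hL
  have h1 : ∑ u, ∑ v, ∑ w, ∑ z, (L u v w z - (1 / 2) * K u v w z - (1 / 2) * K w z u v)
      ≤ ∑ u, ∑ v, ∑ w, ∑ z, (if D4 u v w z then
        dot (f - avg (RS {u, v}) f) (f - avg (RS {w, z}) f) else 0) := by
    refine Finset.sum_le_sum fun u _ => Finset.sum_le_sum fun v _ => Finset.sum_le_sum fun w _ =>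
      Finset.sum_le_sum fun z _ => ?_
    by_cases h : D4 u v w z
    · simp only [hK, hL, if_pos h, if_pos h.swap]
      exact sg_disj h f
    · have h' : ¬ D4 w z u v := fun h' => h h'.swap
      simp only [hK, hL, if_neg h, if_neg h']
      norm_num
  have h2 : ∑ u, ∑ v, ∑ w, ∑ z, (L u v w z - (1 / 2) * K u v w z - (1 / 2) * K w z u v)
      = ∑ u, ∑ v, ∑ w, ∑ z, L u v w z - ∑ u, ∑ v, ∑ w, ∑ z, K u v w z := by
    have e := sum4_swap K
    simp only [Finset.sum_sub_distrib, ← Finset.mul_sum]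
    rw [e]
    ring
  have h3 : ∑ u, ∑ v, ∑ w, ∑ z, K u v w z ≤ ∑ u, ∑ v, ∑ w, ∑ z, L u v w z := by
    refine Finset.sum_le_sum fun u _ => Finset.sum_le_sum fun v _ => ?_
    by_cases huv : u = v
    · have hn : ∀ w z, ¬ D4 u v w z := fun w z h => h.1 huv
      simp only [hK, hL, if_neg (hn _ _)]
      exact le_refl _
    · exact sg_kap_le huv f
  linarith

/-- the generator of the pair-block dynamics (sum over ordered pairs) -/
noncomputable def GA : (SG d → ℝ) →ₗ[ℝ] (SG d → ℝ) :=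
  ∑ i : V, ∑ j : V, (if i ≠ j then LinearMap.id - avgL (RS {i, j}) else 0)

theorem GA_apply (f : SG d → ℝ) :
    GA f = ∑ i : V, ∑ j : V, (if i ≠ j then f - avg (RS {i, j}) f else 0) := by
  unfold GA
  rw [LinearMap.sum_apply]
  refine Finset.sum_congr rfl (fun i _ => ?_)
  rw [LinearMap.sum_apply]
  refine Finset.sum_congr rfl (fun j _ => ?_)
  split_ifs
  · rfl
  · rfl

theorem dot_GA (f g : SG d → ℝ) :
    dot g (GA f) = ∑ i : V, ∑ j : V, (if i ≠ j then dot g (f - avg (RS {i, j}) f) else 0) := by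
  rw [GA_apply, dot_sum_right]
  refine Finset.sum_congr rfl (fun i _ => ?_)
  rw [dot_sum_right]
  refine Finset.sum_congr rfl (fun j _ => ?_)
  split_ifs
  · rfl
  · simp [dot]

theorem GA_symm (f g : SG d → ℝ) : dot (GA f) g = dot f (GA g) := by
  rw [dot_comm, dot_GA, dot_GA]
  refine Finset.sum_congr rfl (fun i _ => Finset.sum_congr rfl (fun j _ => ?_))
  split_ifs
  · rw [dot_sub_right, dot_sub_right, dot_comm g f, dot_comm g, avg_symm (RS_equiv _)]
  · rfl

theorem GA_pos (f : SG d → ℝ) : 0 ≤ dot f (GA f) := by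
  rw [dot_GA]
  refine Finset.sum_nonneg (fun i _ => Finset.sum_nonneg (fun j _ => ?_))
  split_ifs
  · rw [← dot_Q_Q (RS_equiv _)]; exact dot_self_nonneg _
  · exact le_refl _

theorem GA_sq (f : SG d → ℝ) : 2 * dot f (GA f) ≤ dot (GA f) (GA f) := by
  have := caputo_sq' (fun i j : V => f - avg (RS {i, j}) f)
    (fun i j => by simp only [Finset.pair_comm])
    (sg_disj_sum f)
    (fun i j k hij hik hjk => sg_triple hij hik hjk f)
  rw [GA_apply, ← GA_apply, dot_GA]
  rw [GA_apply]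
  refine le_trans (le_of_eq ?_) this
  congr 1
  refine Finset.sum_congr rfl (fun i _ => Finset.sum_congr rfl (fun j _ => ?_))
  split_ifs
  · rw [dot_Q_Q (RS_equiv _)]
  · rfl

theorem inv_of_GA_eq_zero (k : SG d → ℝ) (hk : GA k = 0) (i j : V) (hij : i ≠ j) :
    Inv (RS {i, j}) k := by
  have h0 : dot k (GA k) = 0 := by rw [hk]; simp [dot]
  rw [dot_GA] at h0
  have hnn : ∀ i j : V, 0 ≤ (if i ≠ j then dot k (k - avg (RS {i, j}) k) else 0) := by
    intro i j
    split_ifs
    · rw [← dot_Q_Q (RS_equiv _)]; exact dot_self_nonneg _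
    · exact le_refl _
  have h2 := (Finset.sum_eq_zero_iff_of_nonneg
    (fun i _ => Finset.sum_nonneg (fun j _ => hnn i j))).1 h0 i (mem_univ i)
  have h3 := (Finset.sum_eq_zero_iff_of_nonneg (fun j _ => hnn i j)).1 h2 j (mem_univ j)
  rw [if_pos hij, ← dot_Q_Q (RS_equiv _)] at h3
  have h4 := dot_self_eq_zero h3
  exact inv_of_avg_eq (RS_equiv _) (sub_eq_zero.1 h4).symm

/-- **Poincare inequality for the pair-block dynamics** on `SG d`, given connectivity -/
theorem sg_block_poincare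
    (hconn : ∀ k : SG d → ℝ, (∀ u v w z, D4 u v w z → Inv (RX u v w z) k) → ∀ X Y, k X = k Y)
    (f : SG d → ℝ) (hf : ∑ X, f X = 0) :
    dot f f ≤ (1 / 2) * ∑ i : V, ∑ j : V,
      (if i ≠ j then dot f (f - avg (RS {i, j}) f) else 0) := by
  have hker : ∀ k, GA k = 0 → dot f k = 0 := by
    intro k hk
    have hc : ∀ X Y, k X = k Y := hconn k (fun u v w z h X Y hXY =>
      inv_of_GA_eq_zero k hk u v h.1 X Y (RX_le_RS hXY))
    rcases isEmpty_or_nonempty (SG d) with hE | ⟨⟨X0⟩⟩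
    · simp [dot]
    · unfold dot
      have : ∀ X, f X * k X = f X * k X0 := fun X => by rw [hc X X0]
      rw [Finset.sum_congr rfl (fun X _ => this X), ← Finset.sum_mul, hf, zero_mul]
  have hgap := gap_of_sq GA GA_symm GA_pos 2 (by norm_num) GA_sq f hker
  rw [dot_GA] at hgap
  linarith

end P335
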