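import Vale.Agent.Lib.P335.Gen.FibreBJ
import Vale.Agent.Lib.P335.Gen.FibreBRel
import Vale.Agent.Lib.P335.Gen.JAvg3

/-!
# P335 general case: the two-row Poincare inequality on `SG d`
-/

namespace P335

open Finset

set_option linter.unusedSectionVars false

variable {V : Type*} [Fintype V] [DecidableEq V] {d : V → ℕ}

theorem pairB2_RX_le {u v w z : V} {X Y : SG d} (h : RX u v w z X Y) : RS {u, v} X Y := by
  intro i j hi hj
  apply h i j
  simp only [Finset.mem_insert, Finset.mem_singleton] at hi hj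
  unfold XSlot
  rintro (⟨h1, _⟩ | ⟨_, h2⟩)
  · exact hi h1
  · exact hj h2

theorem pairB2_dot_nonneg {Ω : Type*} [Fintype Ω] {r : Ω → Ω → Prop} (hr : Equivalence r)
    (φ : Ω → ℝ) : 0 ≤ dot φ (φ - avg r φ) := by
  rw [← dot_Q_Q hr φ]
  unfold dot
  exact Finset.sum_nonneg fun x _ => mul_self_nonneg _

/-- the inequality on one fibre -/
theorem pairB2_fib {u v : V} (huv : u ≠ v) (X0 : SG d) (φ : Fib (RS (d := d) {u, v}) X0 → ℝ) :
    dot φ (φ - avg (relFib (RS {u, v}) (RS {u, v}) X0) φ)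
      ≤ (1 / 2) * ∑ w, ∑ z, (if D4 u v w z then
          dot φ (φ - avg (relFib (RX u v w z) (RS {u, v}) X0) φ) else 0) := by
  obtain ⟨J, hM, hs⟩ := exists_sys_B huv X0
  have hR := RS_equiv (d := d) {u, v}
  have htop : relFib (RS (d := d) {u, v}) (RS {u, v}) X0 = fun _ _ => True := by
    funext a b
    exact propext ⟨fun _ => trivial, fun _ => hR.trans (hR.symm a.2) b.2⟩
  have hrX : ∀ w z, D4 u v w z → relFib (RX (d := d) u v w z) (RS {u, v}) X0 = J.rX w z := by
    intro w z h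
    funext a b
    apply propext
    unfold relFib JAbs.Sys.rX
    rw [fibreB_RX h a.2 b.2, hM]
    simp only [hs]
  rw [htop]
  refine (J.poincare φ).trans ?_
  apply mul_le_mul_of_nonneg_left _ (by norm_num)
  have e1 : ∑ w ∈ J.M, ∑ z ∈ J.M, (if w ≠ z then dot φ (φ - avg (J.rX w z) φ) else 0)
      = ∑ w, ∑ z, (if w ∈ J.M ∧ z ∈ J.M ∧ w ≠ z then dot φ (φ - avg (J.rX w z) φ) else 0) := by
    rw [← Finset.sum_filter_add_sum_filter_not Finset.univ (fun w => w ∈ J.M)]
    have hz0 : ∑ w ∈ Finset.univ.filter (fun w => ¬ w ∈ J.M), ∑ z,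
        (if w ∈ J.M ∧ z ∈ J.M ∧ w ≠ z then dot φ (φ - avg (J.rX w z) φ) else 0) = 0 := by
      refine Finset.sum_eq_zero fun w hw => Finset.sum_eq_zero fun z _ => ?_
      rw [if_neg]
      intro h
      exact (Finset.mem_filter.1 hw).2 h.1
    rw [hz0, add_zero]
    have hf : Finset.univ.filter (fun w => w ∈ J.M) = J.M := by
      ext w
      simp
    rw [hf]
    refine Finset.sum_congr rfl fun w hw => ?_
    rw [← Finset.sum_filter_add_sum_filter_not Finset.univ (fun z => z ∈ J.M)]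
    have hz1 : ∑ z ∈ Finset.univ.filter (fun z => ¬ z ∈ J.M),
        (if w ∈ J.M ∧ z ∈ J.M ∧ w ≠ z then dot φ (φ - avg (J.rX w z) φ) else 0) = 0 := by
      refine Finset.sum_eq_zero fun z hz => ?_
      rw [if_neg]
      intro h
      exact (Finset.mem_filter.1 hz).2 h.2.1
    rw [hz1, add_zero, hf]
    refine Finset.sum_congr rfl fun z hz => ?_
    by_cases h : w = z
    · rw [if_neg (by simpa using h), if_neg (fun h' => h'.2.2 h)]
    · rw [if_pos h, if_pos ⟨hw, hz, h⟩]
  rw [e1]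
  refine Finset.sum_le_sum fun w _ => Finset.sum_le_sum fun z _ => ?_
  by_cases h : w ∈ J.M ∧ z ∈ J.M ∧ w ≠ z
  · obtain ⟨hw, hz, hwz⟩ := h
    rw [hM] at hw hz
    obtain ⟨w1, w2, _⟩ := mem_freeCols.1 hw
    obtain ⟨z1, z2, _⟩ := mem_freeCols.1 hz
    have h4 : D4 u v w z := ⟨huv, w1.symm, z1.symm, w2.symm, z2.symm, hwz⟩
    rw [if_pos ⟨hM ▸ hw, hM ▸ hz, hwz⟩, if_pos h4, hrX w z h4]
  · rw [if_neg h]
    split_ifs
    · exact pairB2_dot_nonneg (relFib_equiv (RX_equiv u v w z) _ _) φ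
    · exact le_refl _

/-- Localise to the fibres of `R = RS {u,v}` (`sum_le_sum_of_cls`, `sum_cls_eq_sum_fib`, `avg_fib` in
`Fibre.lean`; `RX_le_RS`).  On `Fib R X0` take `J` from `exists_sys_B`.  By `fibreB_RX`, for
`D4 u v w z`: `relFib (RX u v w z) = J.rX w z`; `relFib R = fun _ _ => True`.  The left side localised is
the left side of `J.poincare`; the right side localised dominates the right side of `J.poincare`
(`w, z ∈ M, w ≠ z` imply `D4 u v w z`; the extra terms are `dot φ (φ - avg _ φ) ≥ 0` on the fibre,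
`dot_Q_Q`). -/
theorem sg_pair_poincare {u v : V} (huv : u ≠ v) (f : SG d → ℝ) :
    dot f (f - avg (RS {u, v}) f)
      ≤ (1 / 2) * ∑ w, ∑ z, (if D4 u v w z then dot f (f - avg (RX u v w z) f) else 0) := by
  have hR := RS_equiv (d := d) {u, v}
  have hrhs : (1 / 2 : ℝ) * ∑ w, ∑ z, (if D4 u v w z then dot f (f - avg (RX u v w z) f) else 0)
      = ∑ x : SG d, (1 / 2 : ℝ) * ∑ w, ∑ z,
          (if D4 u v w z then f x * (f - avg (RX u v w z) f) x else 0) := by
    rw [← Finset.mul_sum]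
    congr 1
    conv_rhs => rw [Finset.sum_comm]
    refine Finset.sum_congr rfl fun w _ => ?_
    conv_rhs => rw [Finset.sum_comm]
    refine Finset.sum_congr rfl fun z _ => ?_
    split_ifs
    · rfl
    · simp
  rw [hrhs]
  unfold dot
  refine sum_le_sum_of_cls hR _ _ fun X0 => ?_
  rw [sum_cls_eq_sum_fib, sum_cls_eq_sum_fib]
  have key := pairB2_fib huv X0 (fun a => f a.1)
  have hl : ∑ y : Fib (RS (d := d) {u, v}) X0, f y.1 * (f - avg (RS {u, v}) f) y.1
      = dot (fun a : Fib (RS (d := d) {u, v}) X0 => f a.1)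
          ((fun a : Fib (RS (d := d) {u, v}) X0 => f a.1)
            - avg (relFib (RS {u, v}) (RS {u, v}) X0) (fun a => f a.1)) := by
    unfold dot
    refine Finset.sum_congr rfl fun y _ => ?_
    rw [Pi.sub_apply, Pi.sub_apply, avg_fib hR (fun _ _ h => h)]
  have hr : ∑ y : Fib (RS (d := d) {u, v}) X0, (1 / 2 : ℝ) * ∑ w, ∑ z,
          (if D4 u v w z then f y.1 * (f - avg (RX u v w z) f) y.1 else 0)
      = (1 / 2) * ∑ w, ∑ z, (if D4 u v w z then
          dot (fun a : Fib (RS (d := d) {u, v}) X0 => f a.1)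
            ((fun a : Fib (RS (d := d) {u, v}) X0 => f a.1)
              - avg (relFib (RX u v w z) (RS {u, v}) X0) (fun a => f a.1)) else 0) := by
    rw [← Finset.mul_sum]
    congr 1
    conv_lhs => rw [Finset.sum_comm]
    refine Finset.sum_congr rfl fun w _ => ?_
    conv_lhs => rw [Finset.sum_comm]
    refine Finset.sum_congr rfl fun z _ => ?_
    split_ifs
    · unfold dot
      refine Finset.sum_congr rfl fun y _ => ?_
      rw [Pi.sub_apply, Pi.sub_apply, avg_fib hR (fun _ _ h => pairB2_RX_le h)]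
    · simp
  rw [hl, hr]
  exact key

end P335
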