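import Vale.Agent.Lib.P335.Defs
import Vale.Agent.Lib.P335.Transfer
import Vale.Agent.Lib.P335.Gen.Defs

/-!
# P335 general case: realizations as symmetric matrices
-/

namespace P335

open Finset Classical

/-- adjacency matrix of a graph -/
noncomputable def adjRaw {n : ℕ} (G : SimpleGraph (Fin n)) : Fin n → Fin n → Bool :=
  fun i j => decide (G.Adj i j)

theorem adjRaw_eq_true {n : ℕ} (G : SimpleGraph (Fin n)) (i j : Fin n) :
    adjRaw G i j = true ↔ G.Adj i j := by
  unfold adjRaw
  exact decide_eq_true_iff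

theorem toNat_adjRaw {n : ℕ} (G : SimpleGraph (Fin n)) (i j : Fin n) :
    (adjRaw G i j).toNat = adjInd G i j := by
  rw [toNat_eq_ite]
  unfold adjInd
  exact if_congr (adjRaw_eq_true G i j) rfl rfl

theorem isSG_adjRaw {n : ℕ} {d : Fin n → ℕ} (G : Realization n d) : IsSG d (adjRaw G.1) := by
  refine ⟨fun i j => ?_, fun i => ?_, fun i => ?_⟩
  · rw [Bool.eq_iff_iff, adjRaw_eq_true, adjRaw_eq_true]
    exact ⟨fun h => h.symm, fun h => h.symm⟩
  · rw [Bool.eq_false_iff]
    intro h
    exact G.1.loopless.irrefl i ((adjRaw_eq_true G.1 i i).1 h)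
  · rw [← G.2 i, degree_eq_sum_adjInd]
    exact Finset.sum_congr rfl fun j _ => toNat_adjRaw G.1 i j

/-- the graph of a symmetric matrix with zero diagonal -/
def graphOfSG {n : ℕ} {d : Fin n → ℕ} (X : SG d) : SimpleGraph (Fin n) where
  Adj i j := X.1 i j = true
  symm := ⟨fun i j h => by rw [← X.symm i j]; exact h⟩
  loopless := ⟨fun i h => by rw [X.diag i] at h; exact Bool.false_ne_true h⟩

theorem degree_graphOfSG {n : ℕ} {d : Fin n → ℕ} (X : SG d) (v : Fin n) :
    (graphOfSG X).degree v = d v := by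
  rw [degree_eq_sum_adjInd, ← X.row v]
  refine Finset.sum_congr rfl fun j _ => ?_
  rw [toNat_eq_ite]
  unfold adjInd
  have h : (graphOfSG X).Adj v j ↔ X.1 v j = true := Iff.rfl
  by_cases hx : X.1 v j = true
  · rw [if_pos (h.2 hx), if_pos hx]
  · rw [if_neg (fun h' => hx (h.1 h')), if_neg hx]

/-- `G ↦ (fun i j => decide (G.Adj i j))` (classical decidability); the inverse sends `X` to the graph
with `Adj i j ↔ X i j = true`.  Degrees: `degree_eq_sum_adjInd` in `Transfer.lean`. -/
theorem exists_equiv_SG {n : ℕ} (d : Fin n → ℕ) :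
    ∃ e : Realization n d ≃ SG d, ∀ G i j, (e G).1 i j = true ↔ G.1.Adj i j := by
  refine ⟨⟨fun G => ⟨adjRaw G.1, isSG_adjRaw G⟩,
    fun X => ⟨graphOfSG X, fun v => degree_graphOfSG X v⟩, ?_, ?_⟩, ?_⟩
  · intro G
    apply Subtype.ext
    ext i j
    exact adjRaw_eq_true G.1 i j
  · intro X
    apply SG.ext'
    intro i j
    rw [Bool.eq_iff_iff]
    exact adjRaw_eq_true (graphOfSG X) i j
  · intro G i j
    exact adjRaw_eq_true G.1 i j

end P335
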