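import Vale.Agent.Lib.P335.Defs
import Vale.Agent.Lib.P335.Gen.Count

/-!
# P335 general case: matrix switches are graph switches
-/

namespace P335

open Finset

theorem XSlot_swap_right {V : Type*} (u v w z i j : V) :
    XSlot u v z w i j ↔ XSlot u v w z i j := by
  unfold XSlot
  tauto

theorem flipRaw_swap_right {V : Type*} [DecidableEq V] (u v w z : V) (X : V → V → Bool) :
    flipRaw u v z w X = flipRaw u v w z X := by
  funext i j
  unfold flipRaw
  exact if_congr (XSlot_swap_right u v w z i j) rfl rfl

theorem XSlot_of_sym2 {V : Type*} {u v w z x y a b : V} (ha : a = u ∨ a = v) (hb : b = w ∨ b = z)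
    (h : s(x, y) = s(a, b)) : XSlot u v w z x y := by
  rcases Sym2.eq_iff.1 h with ⟨h1, h2⟩ | ⟨h1, h2⟩
  · left
    rw [h1, h2]
    exact ⟨ha, hb⟩
  · right
    rw [h1, h2]
    exact ⟨hb, ha⟩

/-- the case `X u w = true` -/
theorem isSwitch_of_flip {n : ℕ} {d : Fin n → ℕ} (e : Realization n d ≃ SG d)
    (he : ∀ G i j, (e G).1 i j = true ↔ G.1.Adj i j) (G G' : Realization n d)
    {u v w z : Fin n} (hD : D4 u v w z) (h1 : (e G).1 u w = true) (h2 : (e G).1 v z = true)
    (h3 : (e G).1 u z = false) (h4 : (e G).1 v w = false)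
    (hY : (e G').1 = flipRaw u v w z (e G).1) : IsSwitch G.1 G'.1 := by
  obtain ⟨huv, huw, huz, hvw, hvz, hwz⟩ := hD
  have a1 : G.1.Adj u w := (he G u w).1 h1
  have a2 : G.1.Adj v z := (he G v z).1 h2
  have a3 : ¬ G.1.Adj u z := by
    intro h
    rw [(he G u z).2 h] at h3
    exact Bool.noConfusion h3
  have a4 : ¬ G.1.Adj v w := by
    intro h
    rw [(he G v w).2 h] at h4
    exact Bool.noConfusion h4
  refine ⟨u, w, z, v, huw, huz, huv, hwz, hvw.symm, hvz.symm, a1, a2.symm, a3,
    fun h => a4 h.symm, ?_⟩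
  have key : ∀ x y, G'.1.Adj x y ↔
      (if XSlot u v w z x y then ¬ G.1.Adj x y else G.1.Adj x y) := by
    intro x y
    rw [← he G' x y, hY]
    unfold flipRaw
    by_cases hs : XSlot u v w z x y
    · rw [if_pos hs, if_pos hs, ← he G x y]
      cases (e G).1 x y <;> simp
    · rw [if_neg hs, if_neg hs, he G x y]
  ext s
  induction s using Sym2.ind with
  | _ x y =>
    simp only [SimpleGraph.mem_edgeSet, Set.mem_union, Set.mem_sdiff, Set.mem_insert_iff,
      Set.mem_singleton_iff, not_or]
    rw [key x y]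
    by_cases hs : XSlot u v w z x y
    · rw [if_pos hs]
      have c1 : s(u, w) ≠ s(u, z) := by
        intro h
        rcases Sym2.eq_iff.1 h with ⟨_, h'⟩ | ⟨h', _⟩
        · exact hwz h'
        · exact huz h'
      have c2 : s(u, w) ≠ s(w, v) := by
        intro h
        rcases Sym2.eq_iff.1 h with ⟨h', _⟩ | ⟨h', _⟩
        · exact huw h'
        · exact huv h'
      have c3 : s(z, v) ≠ s(u, z) := by
        intro h
        rcases Sym2.eq_iff.1 h with ⟨h', _⟩ | ⟨_, h'⟩
        · exact huz h'.symm
        · exact huv h'.symm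
      have c4 : s(z, v) ≠ s(w, v) := by
        intro h
        rcases Sym2.eq_iff.1 h with ⟨h', _⟩ | ⟨h', _⟩
        · exact hwz h'.symm
        · exact hvz h'.symm
      have main : ∀ x' y', ((x' = u ∨ x' = v) ∧ (y' = w ∨ y' = z)) →
          (¬ G.1.Adj x' y' ↔ (G.1.Adj x' y' ∧ ¬ s(x', y') = s(u, w) ∧ ¬ s(x', y') = s(z, v)) ∨
            s(x', y') = s(u, z) ∨ s(x', y') = s(w, v)) := by
        rintro x' y' ⟨hx | hx, hy | hy⟩ <;> subst hx <;> subst hy
        · constructor
          · intro h; exact absurd a1 h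
          · rintro (⟨_, h, _⟩ | h | h)
            · exact absurd rfl h
            · exact absurd h c1
            · exact absurd h c2
        · constructor
          · intro _; exact Or.inr (Or.inl rfl)
          · intro _; exact a3
        · constructor
          · intro _; exact Or.inr (Or.inr Sym2.eq_swap)
          · intro _; exact a4
        · constructor
          · intro h; exact absurd a2 h
          · rintro (⟨_, _, h⟩ | h | h)
            · exact absurd Sym2.eq_swap h
            · exact absurd (Sym2.eq_swap.trans h) c3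
            · exact absurd (Sym2.eq_swap.trans h) c4
      rcases hs with hs | hs
      · exact main x y hs
      · have := main y x ⟨hs.2, hs.1⟩
        rw [G.1.adj_comm x y, Sym2.eq_swap (a := x) (b := y)]
        exact this
    · rw [if_neg hs]
      constructor
      · intro hx
        refine Or.inl ⟨hx, fun h => hs ?_, fun h => hs ?_⟩
        · exact XSlot_of_sym2 (Or.inl rfl) (Or.inl rfl) h
        · exact XSlot_of_sym2 (Or.inr rfl) (Or.inr rfl) (h.trans Sym2.eq_swap)
      · rintro (⟨hx, _, _⟩ | h | h)
        · exact hx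
        · exact absurd (XSlot_of_sym2 (Or.inl rfl) (Or.inr rfl) h) hs
        · exact absurd (XSlot_of_sym2 (Or.inr rfl) (Or.inl rfl) (h.trans Sym2.eq_swap)) hs

/-- By `RX_cases` the block is alternating in `e G` and `e G'` is its flip.  If `X u w = true` take
`(a, b, c, e) = (u, w, z, v)` in `IsSwitch`, otherwise `(u, z, w, v)`.  Compare
`isSwitch_of_swRaw` in `Transfer.lean`. -/
theorem isSwitch_of_isSwG {n : ℕ} {d : Fin n → ℕ} (e : Realization n d ≃ SG d)
    (he : ∀ G i j, (e G).1 i j = true ↔ G.1.Adj i j) (G G' : Realization n d)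
    (h : IsSwG (e G) (e G')) : IsSwitch G.1 G'.1 := by
  obtain ⟨hne, u, v, w, z, hD, hR⟩ := h
  rcases RX_cases hD hR with heq | ⟨hA, hY⟩
  · exact absurd heq hne
  · obtain ⟨b1, b2, b3⟩ := hA
    by_cases hx : (e G).1 u w = true
    · have h3 : (e G).1 u z = false := by
        rw [hx] at b3
        cases hh : (e G).1 u z
        · rfl
        · rw [hh] at b3; simp at b3
      exact isSwitch_of_flip e he G G' hD hx (b1 ▸ hx) h3 (b2 ▸ h3) hY
    · have hx' : (e G).1 u w = false := by
        cases hh : (e G).1 u w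
        · rfl
        · exact absurd hh hx
      have h3 : (e G).1 u z = true := by
        rw [hx'] at b3
        cases hh : (e G).1 u z
        · rw [hh] at b3; simp at b3
        · rfl
      obtain ⟨huv, huw, huz, hvw, hvz, hwz⟩ := hD
      have hD' : D4 u v z w := ⟨huv, huz, huw, hvz, hvw, hwz.symm⟩
      refine isSwitch_of_flip e he G G' hD' h3 (b2 ▸ h3) hx' (b1 ▸ hx') ?_
      rw [flipRaw_swap_right]
      exact hY

end P335
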