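import Vale.Agent.Lib.P335.GConn
import Vale.Agent.Lib.P335.Gen.Defs

/-!
# P335 general case: connectivity in the matrix model
-/

namespace P335

open Finset

/-- a graph switch is an `RX`-move: with `a b c e` from `IsSwitch` take `(u,v,w,z) = (a,e,b,c)`
(the four changed slots are `ab, ce, ac, be`) -/
theorem RX_of_isSwitch {n : ℕ} {d : Fin n → ℕ} (e : Realization n d ≃ SG d)
    (he : ∀ G i j, (e G).1 i j = true ↔ G.1.Adj i j) (G G' : Realization n d)
    (h : IsSwitch G.1 G'.1) : ∃ u v w z, D4 u v w z ∧ RX u v w z (e G) (e G') := by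
  obtain ⟨a, b, c, f, hab, hac, haf, hbc, hbf, hcf, -, -, -, -, hE⟩ := h
  refine ⟨a, f, b, c, ⟨haf, hab, hac, hbf.symm, hcf.symm, hbc⟩, ?_⟩
  intro i j hij
  have key : G.1.Adj i j ↔ G'.1.Adj i j := by
    have h1 : s(i, j) ∈ G'.1.edgeSet ↔
        s(i, j) ∈ (G.1.edgeSet \ {s(a, b), s(c, f)}) ∪ {s(a, c), s(b, f)} := by rw [hE]
    simp only [SimpleGraph.mem_edgeSet, Set.mem_union, Set.mem_sdiff, Set.mem_insert_iff,
      Set.mem_singleton_iff, Sym2.eq_iff] at h1
    unfold XSlot at hij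
    clear hE
    tauto
  have h2 : ((e G).1 i j = true) ↔ ((e G').1 i j = true) := by
    rw [he, he]; exact key
  exact Bool.eq_iff_iff.mpr h2

/-- from `GConn.const_of_inv_switch` applied to `k ∘ e` -/
theorem const_of_inv_RX {n : ℕ} {d : Fin n → ℕ} (e : Realization n d ≃ SG d)
    (he : ∀ G i j, (e G).1 i j = true ↔ G.1.Adj i j) (k : SG d → ℝ)
    (h : ∀ u v w z, D4 u v w z → Inv (RX u v w z) k) (X Y : SG d) : k X = k Y := by
  have h1 := GConn.const_of_inv_switch (fun G : Realization n d => k (e G))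
    (fun G G' hs => by
      obtain ⟨u, v, w, z, hD, hR⟩ := RX_of_isSwitch e he G G' hs
      exact h u v w z hD _ _ hR) (e.symm X) (e.symm Y)
  simpa using h1

end P335
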