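import Vale.Agent.Lib.P335.Gen.GMain1
import Vale.Agent.Lib.P335.Gen.PairB2
import Vale.Agent.Lib.P335.Gen.Count2
import Vale.Agent.Lib.P335.Gen.ToGraph1
import Vale.Agent.Lib.P335.Gen.ToGraph2
import Vale.Agent.Lib.P335.Gen.ToGraph3
import Vale.Agent.Lib.P335.Chain
import Vale.Agent.Lib.P335.Markov

/-!
# P335 general case: Poincare inequality for the switch graph and rapid mixing for all degree vectors
-/

namespace P335

open Finset

set_option linter.unusedSectionVars false

section

variable {V : Type*} [Fintype V] [DecidableEq V] {d : V → ℕ}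

open Classical in
/-- **Poincare inequality for the switch graph** on `SG d`, given connectivity -/
theorem sg_poincare
    (hconn : ∀ k : SG d → ℝ, (∀ u v w z, D4 u v w z → Inv (RX u v w z) k) → ∀ X Y, k X = k Y)
    (f : SG d → ℝ) (hf : ∑ X, f X = 0) :
    dot f f ≤ (1 / 2) * ∑ X : SG d, ∑ Y : SG d, (if IsSwG X Y then (f X - f Y) ^ 2 else 0) := by
  have h1 := sg_block_poincare hconn f hf
  have h2 : ∑ i : V, ∑ j : V, (if i ≠ j then dot f (f - avg (RS {i, j}) f) else 0)
      ≤ ∑ u : V, ∑ v : V, (1 / 2) * ∑ w, ∑ z,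
          (if D4 u v w z then dot f (f - avg (RX u v w z) f) else 0) := by
    refine Finset.sum_le_sum fun u _ => Finset.sum_le_sum fun v _ => ?_
    by_cases huv : u = v
    · have hn : ∀ w z, ¬ D4 u v w z := fun w z h => h.1 huv
      simp only [if_neg (hn _ _)]
      simp [huv]
    · rw [if_pos huv]
      exact sg_pair_poincare huv f
  have h3 : ∑ u : V, ∑ v : V, ∑ w, ∑ z,
        (if D4 u v w z then dot f (f - avg (RX u v w z) f) else 0)
      ≤ ∑ u : V, ∑ v : V, ∑ w : V, ∑ z : V, (1 / 4) * (if D4 u v w z then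
        ∑ X : SG d, ∑ Y : SG d, (if X ≠ Y ∧ RX u v w z X Y then (f X - f Y) ^ 2 else 0) else 0) := by
    refine Finset.sum_le_sum fun u _ => Finset.sum_le_sum fun v _ => Finset.sum_le_sum fun w _ =>
      Finset.sum_le_sum fun z _ => ?_
    by_cases h : D4 u v w z
    · rw [if_pos h, if_pos h, ← dot_Q_Q (RX_equiv _ _ _ _)]
      exact dot_Q_Q_le (RX_equiv _ _ _ _) f
    · rw [if_neg h, if_neg h]
      norm_num
  have h4 := sum_tuples_le (d := d) (fun X Y => (f X - f Y) ^ 2) (fun X Y => sq_nonneg _)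
  simp only [← Finset.mul_sum] at h2 h3
  linarith

end

open Classical in
/-- **Poincare inequality for the switch graph on the realizations of an arbitrary degree vector** -/
theorem graph_poincare_all {n : ℕ} (d : Fin n → ℕ) (f : Realization n d → ℝ)
    (hf : ∑ G, f G = 0) :
    ∑ G, f G ^ 2 ≤ (1 / 2) * ∑ G : Realization n d, ∑ G' : Realization n d,
      (if IsSwitch G.1 G'.1 then (f G - f G') ^ 2 else 0) := by
  obtain ⟨e, he⟩ := exists_equiv_SG d
  have hf' : ∑ X, (f ∘ e.symm) X = 0 := by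
    rw [← hf]
    exact Equiv.sum_comp e.symm f
  have h1 := sg_poincare (fun k hk => const_of_inv_RX e he k hk) (f ∘ e.symm) hf'
  have h2 : dot (f ∘ e.symm) (f ∘ e.symm) = ∑ G, f G ^ 2 := by
    unfold dot
    rw [← Equiv.sum_comp e.symm (fun G => f G ^ 2)]
    refine Finset.sum_congr rfl (fun X _ => ?_)
    simp [sq]
  rw [h2] at h1
  refine le_trans h1 ?_
  refine mul_le_mul_of_nonneg_left ?_ (by norm_num)
  rw [← Equiv.sum_comp e]
  refine Finset.sum_le_sum (fun G _ => ?_)
  rw [← Equiv.sum_comp e]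
  refine Finset.sum_le_sum (fun G' _ => ?_)
  by_cases h : IsSwG (e G) (e G')
  · rw [if_pos h, if_pos (isSwitch_of_isSwG e he G G' h)]
    simp
  · rw [if_neg h]
    split_ifs
    · exact sq_nonneg _
    · exact le_refl _

open Classical in
theorem all_tv {n : ℕ} (hn : 4 ≤ n) (d : Fin n → ℕ) (G : Realization n d) :
    tvDist n d (12 * n.choose 4 * (n * n + 2)) G ≤ 1 / 4 := by
  have : Nonempty (Realization n d) := ⟨G⟩
  have hC : 0 < n.choose 4 := Nat.choose_pos hn
  have hCr : (0 : ℝ) < (n.choose 4 : ℝ) := by exact_mod_cast hC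
  unfold tvDist
  refine tv_bound (switchChain n d) (switchChain_symm d) (switchChain_nonneg d)
    (switchChain_row_sum d) (switchChain_lazy d) (12 * n.choose 4) (by positivity) ?_ (n * n)
    (card_realization_le d) G
  intro f hf
  rw [switchChain_dirichlet]
  have h1 := graph_poincare_all d f hf
  set S := ∑ G : Realization n d, ∑ G' : Realization n d,
      (if IsSwitch G.1 G'.1 then (f G - f G') ^ 2 else 0) with hS
  have h2 : (1 / ((12 * n.choose 4 : ℕ) : ℝ)) * ∑ x, f x ^ 2
      ≤ (1 / ((12 * n.choose 4 : ℕ) : ℝ)) * ((1 / 2) * S) :=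
    mul_le_mul_of_nonneg_left h1 (by positivity)
  refine le_trans h2 (le_of_eq ?_)
  push_cast
  field_simp

theorem poly_bound_all (n : ℕ) : 12 * n.choose 4 * (n * n + 2) ≤ n ^ 6 := by
  rcases Nat.lt_or_ge n 2 with hlt | hge
  · have : n.choose 4 = 0 := Nat.choose_eq_zero_of_lt (by omega)
    rw [this]
    simp
  have h1 : n.descFactorial 4 = Nat.factorial 4 * n.choose 4 :=
    Nat.descFactorial_eq_factorial_mul_choose n 4
  have h2 : n.descFactorial 4 ≤ n ^ 4 := Nat.descFactorial_le_pow n 4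
  have h3 : 24 * n.choose 4 ≤ n ^ 4 := by
    have h24 : Nat.factorial 4 = 24 := rfl
    rw [h24] at h1
    omega
  have h4 : n * n + 2 ≤ 2 * (n * n) := by nlinarith
  have h5 : 24 * n.choose 4 * (n * n + 2) ≤ n ^ 4 * (2 * (n * n)) := Nat.mul_le_mul h3 h4
  have h6 : n ^ 4 * (2 * (n * n)) = 2 * n ^ 6 := by ring
  nlinarith

theorem all_tmix {n : ℕ} (hn : 4 ≤ n) (d : Fin n → ℕ) : tmix n d ≤ n ^ 6 :=
  le_trans (Nat.sInf_le (fun G => all_tv hn d G)) (poly_bound_all n)

end P335
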