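import Vale.Agent.Lib.P335.Gen.GlueDefs
import Vale.Agent.Lib.P335.Gen.Base

/-!
# P335 general case: the gluing map, its block and the hypotheses of `blk_spec`
-/

namespace P335

open Finset

set_option linter.unusedSectionVars false

variable {V : Type*} [Fintype V] [DecidableEq V] {d : V → ℕ}

/-- the block of `glueRaw` is `blk` of the blocks of `Y` and `G'` (unfold; `Equiv.swap`) -/
theorem glueRaw_block {u v w z : V} (h : D4 u v w z) (G' Y : V → V → Bool) :
    glueRaw u v w z G' Y u w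
      = (blk (Y u w) (Y u z) (Y v w) (Y v z) (G' u w) (G' u z) (G' v w) (G' v z)).1 ∧
    glueRaw u v w z G' Y u z
      = (blk (Y u w) (Y u z) (Y v w) (Y v z) (G' u w) (G' u z) (G' v w) (G' v z)).2.1 ∧
    glueRaw u v w z G' Y v w
      = (blk (Y u w) (Y u z) (Y v w) (Y v z) (G' u w) (G' u z) (G' v w) (G' v z)).2.2.1 ∧
    glueRaw u v w z G' Y v z
      = (blk (Y u w) (Y u z) (Y v w) (Y v z) (G' u w) (G' u z) (G' v w) (G' v z)).2.2.2 := by
  obtain ⟨huv, huw, huz, hvw, hvz, hwz⟩ := h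
  have s1 : XSlot u v w z u w := Or.inl ⟨Or.inl rfl, Or.inl rfl⟩
  have s2 : XSlot u v w z u z := Or.inl ⟨Or.inl rfl, Or.inr rfl⟩
  have s3 : XSlot u v w z v w := Or.inl ⟨Or.inr rfl, Or.inl rfl⟩
  have s4 : XSlot u v w z v z := Or.inl ⟨Or.inr rfl, Or.inr rfl⟩
  have ew : Equiv.swap u v w = w := Equiv.swap_apply_of_ne_of_ne huw.symm hvw.symm
  have ez : Equiv.swap u v z = z := Equiv.swap_apply_of_ne_of_ne huz.symm hvz.symm
  unfold glueRaw blk
  rw [if_pos s1, if_pos s2, if_pos s3, if_pos s4]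
  by_cases hS : SameRows u v w z Y G'
  · have hS' := hS
    unfold SameRows at hS'
    simp only [if_pos hS, if_pos hS', and_self]
  · have hS' := hS
    unfold SameRows at hS'
    simp only [if_neg hS, if_neg hS', Equiv.swap_apply_left, Equiv.swap_apply_right, ew, ez,
      and_self]

theorem XSlot_comm_g1 (u v w z i j : V) : XSlot u v w z i j ↔ XSlot u v w z j i := by
  unfold XSlot
  tauto

/-- `glueRaw` of symmetric matrices is symmetric -/
theorem glueRaw_symm (u v w z : V) {G' Y : V → V → Bool} (hG : ∀ i j, G' i j = G' j i)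
    (hY : ∀ i j, Y i j = Y j i) (i j : V) :
    glueRaw u v w z G' Y i j = glueRaw u v w z G' Y j i := by
  unfold glueRaw
  by_cases hs : XSlot u v w z i j
  · have hs' : XSlot u v w z j i := (XSlot_comm_g1 u v w z i j).1 hs
    rw [if_pos hs, if_pos hs']
    by_cases hS : SameRows u v w z Y G'
    · rw [if_pos hS, if_pos hS, hG]
    · rw [if_neg hS, if_neg hS, hG]
  · have hs' : ¬ XSlot u v w z j i := fun h' => hs ((XSlot_comm_g1 u v w z i j).2 h')
    rw [if_neg hs, if_neg hs']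
    by_cases hc : i = u ∨ i = v ∨ j = u ∨ j = v
    · have hc' : j = u ∨ j = v ∨ i = u ∨ i = v := by tauto
      rw [if_pos hc, if_pos hc', hY]
    · have hc' : ¬ (j = u ∨ j = v ∨ i = u ∨ i = v) := by tauto
      rw [if_neg hc, if_neg hc', hG]

/-- the six hypotheses of `blk_spec` (`RS_pair_col` for the pair `u v` at `y = w, z` and for the pair
`w z` at `y = u, v`, plus symmetry; `Alt` unfolds to `altB`) -/
theorem glue_hyps {u v w z : V} (h : D4 u v w z) {G G' Y : SG d} (hGG' : RS {w, z} G G')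
    (hGY : RSn u v w z G Y) :
    (Y.1 u w).toNat + (Y.1 v w).toNat = (G.1 u w).toNat + (G.1 v w).toNat ∧
    (Y.1 u z).toNat + (Y.1 v z).toNat = (G.1 u z).toNat + (G.1 v z).toNat ∧
    (altB (Y.1 u w) (Y.1 u z) (Y.1 v w) (Y.1 v z) ↔ altB (G.1 u w) (G.1 u z) (G.1 v w) (G.1 v z)) ∧
    (altB (G.1 u w) (G.1 u z) (G.1 v w) (G.1 v z) → G.1 u w = Y.1 u w) ∧
    (G.1 u w).toNat + (G.1 u z).toNat = (G'.1 u w).toNat + (G'.1 u z).toNat ∧
    (G.1 v w).toNat + (G.1 v z).toNat = (G'.1 v w).toNat + (G'.1 v z).toNat := by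
  obtain ⟨huv, huw, huz, hvw, hvz, hwz⟩ := h
  obtain ⟨hRS, hAlt, hEq⟩ := hGY
  have hA : ∀ X : SG d, Alt u v w z X.1 ↔ altB (X.1 u w) (X.1 u z) (X.1 v w) (X.1 v z) := by
    intro X
    unfold Alt altB
    exact Iff.rfl
  refine ⟨(RS_pair_col huv hRS huw.symm hvw.symm).symm, (RS_pair_col huv hRS huz.symm hvz.symm).symm,
    ?_, ?_, ?_, ?_⟩
  · rw [← hA, ← hA]; exact hAlt.symm
  · rw [← hA]; exact hEq
  · have := RS_pair_col hwz hGG' huw huz
    rw [G.symm w u, G.symm z u, G'.symm w u, G'.symm z u] at this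
    exact this
  · have := RS_pair_col hwz hGG' hvw hvz
    rw [G.symm w v, G.symm z v, G'.symm w v, G'.symm z v] at this
    exact this

end P335
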