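import Vale.Agent.Lib.P335.Gen.Glue1

/-!
# P335 general case: the glued matrix is a graph with the right degrees
-/

namespace P335

open Finset

set_option linter.unusedSectionVars false

variable {V : Type*} [Fintype V] [DecidableEq V] {d : V → ℕ}

/-- two functions which agree off `{p, q}` and have the same sum on `{p, q}` have the same sum -/
theorem sum_eq_of_pair_glue {f g : V → ℕ} {p q : V} (hpq : p ≠ q)
    (h : ∀ j, j ≠ p → j ≠ q → f j = g j) (hs : f p + f q = g p + g q) :
    ∑ j, f j = ∑ j, g j := by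
  have hq : q ∈ (univ : Finset V).erase p := mem_erase.2 ⟨hpq.symm, mem_univ q⟩
  rw [← add_sum_erase univ f (mem_univ p), ← add_sum_erase univ g (mem_univ p),
    ← add_sum_erase _ f hq, ← add_sum_erase _ g hq]
  have hrest : ∑ j ∈ ((univ : Finset V).erase p).erase q, f j
      = ∑ j ∈ ((univ : Finset V).erase p).erase q, g j := by
    refine sum_congr rfl fun j hj => ?_
    rw [mem_erase, mem_erase] at hj
    exact h j hj.2.1 hj.1
  rw [hrest]
  omega

/-- off the block, on a slot touching `{u, v}`, the glued matrix is `Y` -/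
theorem glueRaw_eq_Y {u v w z : V} (G' Y : V → V → Bool) {i j : V} (hX : ¬ XSlot u v w z i j)
    (hij : i = u ∨ i = v ∨ j = u ∨ j = v) : glueRaw u v w z G' Y i j = Y i j := by
  unfold glueRaw
  rw [if_neg hX, if_pos hij]

/-- off the block, on a slot not touching `{u, v}`, the glued matrix is `G'` -/
theorem glueRaw_eq_G' {u v w z : V} (G' Y : V → V → Bool) {i j : V} (hX : ¬ XSlot u v w z i j)
    (hij : ¬ (i = u ∨ i = v ∨ j = u ∨ j = v)) : glueRaw u v w z G' Y i j = G' i j := by
  unfold glueRaw
  rw [if_neg hX, if_neg hij]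

/-- Symmetry: `glueRaw_symm`.  Zero diagonal: `(i,i)` is not an `XSlot` by `D4`.
Row sums (write `Z = glueRaw u v w z G' Y`, use `glueRaw_block`, `glue_hyps`, `blk_spec`):
* row `i ∉ {u,v,w,z}`: `Z i j = Y i j` for `j ∈ {u,v}`, `= G' i j` otherwise, and
  `Y i u + Y i v = G i u + G i v` (`RS_pair_col`) `= G' i u + G' i v` (`RS {w,z} G G'`); so the row sum
  is that of `G'`;
* row `u` (same for `v`): `Z u j = Y u j` for `j ∉ {w,z}` and `Z u w + Z u z = Y u w + Y u z`; so the
  row sum is that of `Y`;
* row `w` (same for `z`): `Z w j = G' w j` for `j ∉ {u,v}` and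
  `Z w u + Z w v = Z u w + Z v w = G' u w + G' v w`; so the row sum is that of `G'`. -/
theorem isSG_glueRaw {u v w z : V} (h : D4 u v w z) {G G' Y : SG d} (hGG' : RS {w, z} G G')
    (hGY : RSn u v w z G Y) : IsSG d (glueRaw u v w z G'.1 Y.1) := by
  obtain ⟨huv, huw, huz, hvw, hvz, hwz⟩ := h
  have h4 : D4 u v w z := ⟨huv, huw, huz, hvw, hvz, hwz⟩
  have hsymm : ∀ i j, glueRaw u v w z G'.1 Y.1 i j = glueRaw u v w z G'.1 Y.1 j i :=
    glueRaw_symm u v w z G'.symm Y.symm
  obtain ⟨hb1, hb2, hb3, hb4⟩ := glueRaw_block h4 G'.1 Y.1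
  obtain ⟨g1, g2, g3, g4, g5, g6⟩ := glue_hyps h4 hGG' hGY
  obtain ⟨⟨r1, r2⟩, ⟨c1, c2⟩, -, -⟩ := blk_spec _ _ _ _ _ _ _ _ _ _ _ _ g1 g2 g3 g4 g5 g6
  rw [← hb1, ← hb2] at r1
  rw [← hb3, ← hb4] at r2
  rw [← hb1, ← hb3] at c1
  rw [← hb2, ← hb4] at c2
  refine ⟨hsymm, ?_, ?_⟩
  · intro i
    have hX : ¬ XSlot u v w z i i := by
      unfold XSlot
      rintro (⟨h1 | h1, h2 | h2⟩ | ⟨h1 | h1, h2 | h2⟩)
      · exact huw (h1.symm.trans h2)
      · exact huz (h1.symm.trans h2)
      · exact hvw (h1.symm.trans h2)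
      · exact hvz (h1.symm.trans h2)
      · exact huw (h2.symm.trans h1)
      · exact hvw (h2.symm.trans h1)
      · exact huz (h2.symm.trans h1)
      · exact hvz (h2.symm.trans h1)
    by_cases hi : i = u ∨ i = v ∨ i = u ∨ i = v
    · rw [glueRaw_eq_Y _ _ hX hi]
      exact Y.diag i
    · rw [glueRaw_eq_G' _ _ hX hi]
      exact G'.diag i
  · intro i
    by_cases hiu : i = u
    · -- row `u`
      subst hiu
      rw [← Y.row i]
      refine sum_eq_of_pair_glue hwz (fun j hjw hjz => ?_) r1
      have hX : ¬ XSlot i v w z i j := by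
        unfold XSlot
        rintro (⟨-, h2 | h2⟩ | ⟨h1 | h1, -⟩)
        · exact hjw h2
        · exact hjz h2
        · exact huw h1
        · exact huz h1
      rw [glueRaw_eq_Y _ _ hX (Or.inl rfl)]
    by_cases hiv : i = v
    · -- row `v`
      subst hiv
      rw [← Y.row i]
      refine sum_eq_of_pair_glue hwz (fun j hjw hjz => ?_) r2
      have hX : ¬ XSlot u i w z i j := by
        unfold XSlot
        rintro (⟨-, h2 | h2⟩ | ⟨h1 | h1, -⟩)
        · exact hjw h2
        · exact hjz h2
        · exact hvw h1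
        · exact hvz h1
      rw [glueRaw_eq_Y _ _ hX (Or.inr (Or.inl rfl))]
    by_cases hiw : i = w
    · -- row `w`
      subst hiw
      rw [← G'.row i]
      refine sum_eq_of_pair_glue huv (fun j hju hjv => ?_) ?_
      · have hX : ¬ XSlot u v i z i j := by
          unfold XSlot
          rintro (⟨h1 | h1, -⟩ | ⟨-, h2 | h2⟩)
          · exact hiu h1
          · exact hiv h1
          · exact hju h2
          · exact hjv h2
        have hij : ¬ (i = u ∨ i = v ∨ j = u ∨ j = v) := by
          rintro (h1 | h1 | h1 | h1)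
          · exact hiu h1
          · exact hiv h1
          · exact hju h1
          · exact hjv h1
        rw [glueRaw_eq_G' _ _ hX hij]
      · rw [hsymm i u, hsymm i v, G'.symm i u, G'.symm i v]
        exact c1
    by_cases hiz : i = z
    · -- row `z`
      subst hiz
      rw [← G'.row i]
      refine sum_eq_of_pair_glue huv (fun j hju hjv => ?_) ?_
      · have hX : ¬ XSlot u v w i i j := by
          unfold XSlot
          rintro (⟨h1 | h1, -⟩ | ⟨-, h2 | h2⟩)
          · exact hiu h1
          · exact hiv h1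
          · exact hju h2
          · exact hjv h2
        have hij : ¬ (i = u ∨ i = v ∨ j = u ∨ j = v) := by
          rintro (h1 | h1 | h1 | h1)
          · exact hiu h1
          · exact hiv h1
          · exact hju h1
          · exact hjv h1
        rw [glueRaw_eq_G' _ _ hX hij]
      · rw [hsymm i u, hsymm i v, G'.symm i u, G'.symm i v]
        exact c2
    -- a row outside the four vertices
    have hX : ∀ j, ¬ XSlot u v w z i j := by
      intro j
      unfold XSlot
      rintro (⟨h1 | h1, -⟩ | ⟨h1 | h1, -⟩)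
      · exact hiu h1
      · exact hiv h1
      · exact hiw h1
      · exact hiz h1
    rw [← G'.row i]
    refine sum_eq_of_pair_glue huv (fun j hju hjv => ?_) ?_
    · have hij : ¬ (i = u ∨ i = v ∨ j = u ∨ j = v) := by
        rintro (h1 | h1 | h1 | h1)
        · exact hiu h1
        · exact hiv h1
        · exact hju h1
        · exact hjv h1
      rw [glueRaw_eq_G' _ _ (hX j) hij]
    · rw [glueRaw_eq_Y _ _ (hX u) (Or.inr (Or.inr (Or.inl rfl))),
        glueRaw_eq_Y _ _ (hX v) (Or.inr (Or.inr (Or.inr rfl)))]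
      have hcol := RS_pair_col huv hGY.1 hiu hiv
      have hiS : i ∉ ({w, z} : Finset V) := by
        simp only [mem_insert, mem_singleton, not_or]
        exact ⟨hiw, hiz⟩
      have huS : u ∉ ({w, z} : Finset V) := by
        simp only [mem_insert, mem_singleton, not_or]
        exact ⟨huw, huz⟩
      have hvS : v ∉ ({w, z} : Finset V) := by
        simp only [mem_insert, mem_singleton, not_or]
        exact ⟨hvw, hvz⟩
      rw [← hGG' i u hiS huS, ← hGG' i v hiS hvS, Y.symm i u, Y.symm i v, G.symm i u, G.symm i v]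
      exact hcol.symm

end P335
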