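import Vale.Agent.Lib.P335.Gen.Glue2

/-!
# P335 general case: the gluing map lands in the right classes
-/

namespace P335

open Finset

set_option linter.unusedSectionVars false

variable {V : Type*} [Fintype V] [DecidableEq V] {d : V → ℕ}

open Classical in
/-- the glued graph (fallback `G'`) -/
noncomputable def glueG (u v w z : V) (G' Y : SG d) : SG d :=
  if h : IsSG d (glueRaw u v w z G'.1 Y.1) then ⟨glueRaw u v w z G'.1 Y.1, h⟩ else G'

theorem glueG_val {u v w z : V} (h : D4 u v w z) {G G' Y : SG d} (hGG' : RS {w, z} G G')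
    (hGY : RSn u v w z G Y) : (glueG u v w z G' Y).1 = glueRaw u v w z G'.1 Y.1 := by
  unfold glueG
  rw [dif_pos (isSG_glueRaw h hGG' hGY)]

/-- off `{u,v}` the glued graph is `G'`; alternation status and block by `blk_spec` -/
theorem glueG_class {u v w z : V} (h : D4 u v w z) {G G' Y : SG d} (hGG' : RS {w, z} G G')
    (hGY : RSn u v w z G Y) : RSn u v w z G' (glueG u v w z G' Y) := by
  have hval := glueG_val h hGG' hGY
  obtain ⟨hb1, hb2, hb3, hb4⟩ := glueRaw_block h G'.1 Y.1
  obtain ⟨g1, g2, g3, g4, g5, g6⟩ := glue_hyps h hGG' hGY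
  obtain ⟨-, -, ⟨a1, a2⟩, -⟩ := blk_spec _ _ _ _ _ _ _ _ _ _ _ _ g1 g2 g3 g4 g5 g6
  rw [← hb1, ← hb2, ← hb3, ← hb4] at a1
  rw [← hb1] at a2
  refine ⟨?_, ?_, ?_⟩
  · intro i j hi hj
    simp only [mem_insert, mem_singleton, not_or] at hi hj
    rw [hval]
    have hX : ¬ XSlot u v w z i j := by
      unfold XSlot
      rintro (⟨h1 | h1, -⟩ | ⟨-, h2 | h2⟩)
      · exact hi.1 h1
      · exact hi.2 h1
      · exact hj.1 h2
      · exact hj.2 h2
    have hij : ¬ (i = u ∨ i = v ∨ j = u ∨ j = v) := by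
      rintro (h1 | h1 | h1 | h1)
      · exact hi.1 h1
      · exact hi.2 h1
      · exact hj.1 h1
      · exact hj.2 h1
    rw [glueRaw_eq_G' _ _ hX hij]
  · rw [hval]
    exact a1.symm
  · rw [hval]
    exact a2

/-- off `{w,z}` the glued graph is `Y`: on slots touching `{u,v}` by definition, on the other slots
`G' i j = G i j = Y i j` -/
theorem glueG_move {u v w z : V} (h : D4 u v w z) {G G' Y : SG d} (hGG' : RS {w, z} G G')
    (hGY : RSn u v w z G Y) : RS {w, z} Y (glueG u v w z G' Y) := by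
  have hval := glueG_val h hGG' hGY
  intro i j hi hj
  have hi' := hi
  have hj' := hj
  simp only [mem_insert, mem_singleton, not_or] at hi' hj'
  rw [hval]
  have hX : ¬ XSlot u v w z i j := by
    unfold XSlot
    rintro (⟨-, h2 | h2⟩ | ⟨h1 | h1, -⟩)
    · exact hj'.1 h2
    · exact hj'.2 h2
    · exact hi'.1 h1
    · exact hi'.2 h1
  by_cases hij : i = u ∨ i = v ∨ j = u ∨ j = v
  · rw [glueRaw_eq_Y _ _ hX hij]
  · rw [glueRaw_eq_G' _ _ hX hij, ← hGG' i j hi hj]
    have hiS : i ∉ ({u, v} : Finset V) := by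
      simp only [mem_insert, mem_singleton, not_or]
      exact ⟨fun h1 => hij (Or.inl h1), fun h1 => hij (Or.inr (Or.inl h1))⟩
    have hjS : j ∉ ({u, v} : Finset V) := by
      simp only [mem_insert, mem_singleton, not_or]
      exact ⟨fun h1 => hij (Or.inr (Or.inr (Or.inl h1))), fun h1 => hij (Or.inr (Or.inr (Or.inr h1)))⟩
    exact (hGY.1 i j hiS hjS).symm

end P335
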