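import Vale.Agent.Lib.P335.Gen.Glue3

/-!
# P335 general case: the gluing map is a bijection between classes
-/

namespace P335

open Finset

set_option linter.unusedSectionVars false

variable {V : Type*} [Fintype V] [DecidableEq V] {d : V → ℕ}

/-- the raw statement: gluing back gives `Y` -/
theorem glueRaw_glueRaw {u v w z : V} (h : D4 u v w z) {G G' Y : SG d} (hGG' : RS {w, z} G G')
    (hGY : RSn u v w z G Y) (i j : V) :
    glueRaw u v w z G.1 (glueRaw u v w z G'.1 Y.1) i j = Y.1 i j := by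
  obtain ⟨k1, k2, k3, k4, k5, k6⟩ := glue_hyps h hGG' hGY
  have hspec := (blk_spec (Y.1 u w) (Y.1 u z) (Y.1 v w) (Y.1 v z) (G.1 u w) (G.1 u z) (G.1 v w)
    (G.1 v z) (G'.1 u w) (G'.1 u z) (G'.1 v w) (G'.1 v z) k1 k2 k3 k4 k5 k6).2.2.2
  obtain ⟨b1, b2, b3, b4⟩ := glueRaw_block h G'.1 Y.1
  obtain ⟨c1, c2, c3, c4⟩ := glueRaw_block h G.1 (glueRaw u v w z G'.1 Y.1)
  rw [b1, b2, b3, b4, hspec] at c1 c2 c3 c4
  have hsymY' : ∀ i j, glueRaw u v w z G'.1 Y.1 i j = glueRaw u v w z G'.1 Y.1 j i :=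
    glueRaw_symm u v w z G'.symm Y.symm
  have hsym : ∀ i j, glueRaw u v w z G.1 (glueRaw u v w z G'.1 Y.1) i j
      = glueRaw u v w z G.1 (glueRaw u v w z G'.1 Y.1) j i :=
    glueRaw_symm u v w z G.symm hsymY'
  by_cases hs : XSlot u v w z i j
  · rcases hs with ⟨hi | hi, hj | hj⟩ | ⟨hi | hi, hj | hj⟩ <;> subst hi <;> subst hj
    · exact c1
    · exact c2
    · exact c3
    · exact c4
    · exact (hsym _ _).trans (c1.trans (Y.symm _ _))
    · exact (hsym _ _).trans (c3.trans (Y.symm _ _))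
    · exact (hsym _ _).trans (c2.trans (Y.symm _ _))
    · exact (hsym _ _).trans (c4.trans (Y.symm _ _))
  · by_cases hc : i = u ∨ i = v ∨ j = u ∨ j = v
    · unfold glueRaw
      rw [if_neg hs, if_pos hc, if_neg hs, if_pos hc]
    · have e1 : glueRaw u v w z G.1 (glueRaw u v w z G'.1 Y.1) i j = G.1 i j := by
        conv_lhs => unfold glueRaw
        rw [if_neg hs, if_neg hc]
      rw [e1]
      apply hGY.1 i j
      · simp only [Finset.mem_insert, Finset.mem_singleton]
        tauto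
      · simp only [Finset.mem_insert, Finset.mem_singleton]
        tauto

/-- gluing back: on the block by the last part of `blk_spec` (and symmetry for the slots `(w,u)` etc.),
on slots touching `{u,v}` off the block both gluings keep `Y`, elsewhere `G i j = Y i j` -/
theorem glueG_glueG {u v w z : V} (h : D4 u v w z) {G G' Y : SG d} (hGG' : RS {w, z} G G')
    (hGY : RSn u v w z G Y) : glueG u v w z G (glueG u v w z G' Y) = Y := by
  have hs : RS {w, z} G' G := (RS_equiv _).symm hGG'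
  have hcl : RSn u v w z G' (glueG u v w z G' Y) := glueG_class h hGG' hGY
  apply SG.ext'
  intro i j
  rw [glueG_val h hs hcl, glueG_val h hGG' hGY]
  exact glueRaw_glueRaw h hGG' hGY i j

theorem glue_exists {u v w z : V} (h : D4 u v w z) (G G' : SG d) (hGG' : RS {w, z} G G') :
    ∃ Φ Ψ : SG d → SG d,
      (∀ Y, RSn u v w z G Y → RSn u v w z G' (Φ Y)) ∧
      (∀ Y, RSn u v w z G' Y → RSn u v w z G (Ψ Y)) ∧
      (∀ Y, RSn u v w z G Y → Ψ (Φ Y) = Y) ∧
      (∀ Y, RSn u v w z G' Y → Φ (Ψ Y) = Y) ∧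
      (∀ Y, RSn u v w z G Y → RS {w, z} Y (Φ Y)) :=
  have hs : RS {w, z} G' G := (RS_equiv _).symm hGG'
  ⟨glueG u v w z G', glueG u v w z G, fun _ hY => glueG_class h hGG' hY,
    fun _ hY => glueG_class h hs hY, fun _ hY => glueG_glueG h hGG' hY,
    fun _ hY => glueG_glueG h hs hY, fun _ hY => glueG_move h hGG' hY⟩

end P335
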