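import Vale.Agent.Lib.P335.Gen.Defs

/-!
# P335 general case: the gluing map, definitions and the Boolean case check
-/

namespace P335

open Finset

set_option linter.unusedSectionVars false

variable {V : Type*} [Fintype V] [DecidableEq V] {d : V → ℕ}

/-- `X` and `Y` agree off the slots touching `{u, v}`, the 4-cycle `u w v z` is alternating in both
or in neither, and if it is alternating the two graphs agree on it -/
def RSn (u v w z : V) (X Y : SG d) : Prop :=
  RS {u, v} X Y ∧ (Alt u v w z X.1 ↔ Alt u v w z Y.1) ∧ (Alt u v w z X.1 → X.1 u w = Y.1 u w)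

theorem RSn_equiv (u v w z : V) : Equivalence (RSn (d := d) u v w z) where
  refl := fun X => ⟨(RS_equiv _).refl X, Iff.rfl, fun _ => rfl⟩
  symm := fun h => ⟨(RS_equiv _).symm h.1, h.2.1.symm, fun hA => (h.2.2 (h.2.1.2 hA)).symm⟩
  trans := fun h1 h2 => ⟨(RS_equiv _).trans h1.1 h2.1, h1.2.1.trans h2.2.1,
    fun hA => (h1.2.2 hA).trans (h2.2.2 (h1.2.1.1 hA))⟩

/-- the blocks `(· u w, · u z; · v w, · v z)` of `Y` and `G'` have the same row sums -/
def SameRows (u v w z : V) (Y G' : V → V → Bool) : Prop :=
  (Y u w).toNat + (Y u z).toNat = (G' u w).toNat + (G' u z).toNat ∧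
  (Y v w).toNat + (Y v z).toNat = (G' v w).toNat + (G' v z).toNat

instance (u v w z : V) (Y G' : V → V → Bool) : Decidable (SameRows u v w z Y G') := by
  unfold SameRows
  infer_instance

/-- the glued matrix: slots touching `{u,v}` but not `{w,z}` from `Y`; the four slots of the block
from `G'`, with rows `u, v` exchanged if the row sums of the blocks of `Y` and `G'` differ;
everything else from `G'`. -/
def glueRaw (u v w z : V) (G' Y : V → V → Bool) : V → V → Bool := fun i j =>
  if XSlot u v w z i j then
    (if SameRows u v w z Y G' then G' i j else G' (Equiv.swap u v i) (Equiv.swap u v j))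
  else if i = u ∨ i = v ∨ j = u ∨ j = v then Y i j else G' i j

/-- Boolean model of the block of `glueRaw`: `(a, b; c, e)` is the block of `Y`,
`(a', b'; c', e')` that of `G'`. -/
def blk (a b c e a' b' c' e' : Bool) : Bool × Bool × Bool × Bool :=
  if a.toNat + b.toNat = a'.toNat + b'.toNat ∧ c.toNat + e.toNat = c'.toNat + e'.toNat then
    (a', b', c', e') else (c', e', a', b')

/-- alternating block -/
def altB (a b c e : Bool) : Prop := a = e ∧ b = c ∧ a = !b

instance (a b c e : Bool) : Decidable (altB a b c e) := by
  unfold altB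
  infer_instance

/-- The finite case check.  `(a,b;c,e)` block of `Y`, `(a0,..)` block of `G`, `(a',..)` block of `G'`.
Hypotheses: `Y` and `G` have the same column sums, the same alternation status and are equal if
alternating; `G` and `G'` have the same row sums. -/
theorem blk_spec : ∀ (a b c e a0 b0 c0 e0 a' b' c' e' : Bool),
    a.toNat + c.toNat = a0.toNat + c0.toNat → b.toNat + e.toNat = b0.toNat + e0.toNat →
    (altB a b c e ↔ altB a0 b0 c0 e0) → (altB a0 b0 c0 e0 → a0 = a) →
    a0.toNat + b0.toNat = a'.toNat + b'.toNat → c0.toNat + e0.toNat = c'.toNat + e'.toNat →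
    -- row sums of `Y`
    ((blk a b c e a' b' c' e').1.toNat + (blk a b c e a' b' c' e').2.1.toNat = a.toNat + b.toNat ∧
     (blk a b c e a' b' c' e').2.2.1.toNat + (blk a b c e a' b' c' e').2.2.2.toNat
        = c.toNat + e.toNat) ∧
    -- column sums of `G'`
    ((blk a b c e a' b' c' e').1.toNat + (blk a b c e a' b' c' e').2.2.1.toNat
        = a'.toNat + c'.toNat ∧
     (blk a b c e a' b' c' e').2.1.toNat + (blk a b c e a' b' c' e').2.2.2.toNat
        = b'.toNat + e'.toNat) ∧
    -- alternation status of `G'`, equal to `G'` if alternating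
    ((altB (blk a b c e a' b' c' e').1 (blk a b c e a' b' c' e').2.1 (blk a b c e a' b' c' e').2.2.1
        (blk a b c e a' b' c' e').2.2.2 ↔ altB a' b' c' e') ∧
     (altB a' b' c' e' → a' = (blk a b c e a' b' c' e').1)) ∧
    -- gluing back gives `Y`
    blk (blk a b c e a' b' c' e').1 (blk a b c e a' b' c' e').2.1 (blk a b c e a' b' c' e').2.2.1
        (blk a b c e a' b' c' e').2.2.2 a0 b0 c0 e0 = (a, b, c, e) := by
  intro a b c e a0 b0 c0 e0
  cases a <;> cases b <;> cases c <;> cases e <;> cases a0 <;> cases b0 <;> cases c0 <;>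
    cases e0 <;> decide

end P335
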