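import Vale.Agent.Lib.P335.Avg
import Vale.Agent.Lib.P335.JohnsonAbs

/-!
# P335 general case: averaging operators on an abstract two-row fibre, part 1 (the switch blocks)
-/

namespace P335
namespace JAbs

open Finset

set_option linter.unusedSectionVars false

variable {W κ : Type*} [DecidableEq κ] (J : Sys W κ)

namespace Sys

/-- `S` and `S'` agree off the two columns `w z` -/
def rX (w z : κ) (S S' : W) : Prop := ∀ x ∈ J.M, x ≠ w → x ≠ z → J.s S x = J.s S' x

/-- `w z` is switchable in both or in neither -/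
def rA (w z : κ) (S S' : W) : Prop := J.s S w ≠ J.s S z ↔ J.s S' w ≠ J.s S' z

theorem rX_equiv (w z : κ) : Equivalence (J.rX w z) where
  refl := fun _ _ _ _ _ => rfl
  symm := fun h x hx h1 h2 => (h x hx h1 h2).symm
  trans := fun h1 h2 x hx a b => (h1 x hx a b).trans (h2 x hx a b)

theorem rA_equiv (w z : κ) : Equivalence (J.rA w z) where
  refl := fun _ => Iff.rfl
  symm := fun h => h.symm
  trans := fun h1 h2 => h1.trans h2

/-- The class of `S` under `rX w z` is `{S, τ w z S}`: if `rX w z S S'` then, since the number of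
`true` entries is `k` for both (`J.card`), `s S w + s S z = s S' w + s S' z`, so on `{w, z}` the vector
of `S'` is that of `S` or its swap; conclude with `J.inj` and `J.s_τ`. -/
theorem rX_iff {w z : κ} (hw : w ∈ J.M) (hz : z ∈ J.M) (hwz : w ≠ z) (S S' : W) :
    J.rX w z S S' ↔ S' = S ∨ S' = J.τ w z S := by
  constructor
  · intro h
    -- the counting identity
    have hcount : ∀ T : W, (J.s T w).toNat + ((J.s T z).toNat
        + ∑ x ∈ (J.M.erase w).erase z, (J.s T x).toNat) = J.k := by
      intro T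
      have h1 : (J.M.filter (fun x => J.s T x = true)).card = ∑ x ∈ J.M, (J.s T x).toNat := by
        rw [Finset.card_filter]
        refine Finset.sum_congr rfl (fun x _ => ?_)
        cases J.s T x <;> simp
      have hz' : z ∈ J.M.erase w := Finset.mem_erase.2 ⟨hwz.symm, hz⟩
      rw [Finset.add_sum_erase _ (fun x => (J.s T x).toNat) hz',
        Finset.add_sum_erase _ (fun x => (J.s T x).toNat) hw, ← h1, J.card]
    have hrest : ∑ x ∈ (J.M.erase w).erase z, (J.s S x).toNat
        = ∑ x ∈ (J.M.erase w).erase z, (J.s S' x).toNat := by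
      refine Finset.sum_congr rfl (fun x hx => ?_)
      rw [Finset.mem_erase, Finset.mem_erase] at hx
      rw [h x hx.2.2 hx.2.1 hx.1]
    have h2 := hcount S
    have h3 := hcount S'
    rw [hrest] at h2
    have h4 : (J.s S w).toNat + (J.s S z).toNat = (J.s S' w).toNat + (J.s S' z).toNat := by omega
    have h5 : (J.s S' w = J.s S w ∧ J.s S' z = J.s S z) ∨
        (J.s S' w = J.s S z ∧ J.s S' z = J.s S w) := by
      revert h4
      cases J.s S w <;> cases J.s S z <;> cases J.s S' w <;> cases J.s S' z <;> simp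
    rcases h5 with ⟨e1, e2⟩ | ⟨e1, e2⟩
    · left
      apply J.inj
      intro x hx
      by_cases hxw : x = w
      · rw [hxw, e1]
      · by_cases hxz : x = z
        · rw [hxz, e2]
        · exact (h x hx hxw hxz).symm
    · right
      apply J.inj
      intro x hx
      by_cases hxw : x = w
      · rw [hxw, e1, J.s_τ_left hw hz]
      · by_cases hxz : x = z
        · rw [hxz, e2, J.s_τ_right hw hz]
        · rw [J.s_τ_of_ne hw hz hx hxw hxz]
          exact (h x hx hxw hxz).symm
  · rintro (rfl | rfl)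
    · exact (J.rX_equiv w z).refl _
    · intro x hx hxw hxz
      rw [J.s_τ_of_ne hw hz hx hxw hxz]

variable [Fintype W]

/-- from `rX_iff`; distinguish `τ w z S = S` (class of size 1) and `≠` (size 2) -/
theorem avg_rX {w z : κ} (hw : w ∈ J.M) (hz : z ∈ J.M) (hwz : w ≠ z) (φ : W → ℝ) (S : W) :
    avg (J.rX w z) φ S = (φ S + φ (J.τ w z S)) / 2 := by
  classical
  have hcls : cls (J.rX w z) S = {S, J.τ w z S} := by
    ext S'
    rw [mem_cls, J.rX_iff hw hz hwz, Finset.mem_insert, Finset.mem_singleton]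
  unfold avg
  rw [hcls]
  by_cases h : J.τ w z S = S
  · rw [h]
    simp
  · rw [Finset.sum_pair (Ne.symm h), Finset.card_pair (Ne.symm h)]
    norm_num

/-- `Σ φ S (φ S - φ (τ S)) / 2`, symmetrise with `J.sum_comp_τ` and `J.τ_τ` -/
theorem dot_rX {w z : κ} (hw : w ∈ J.M) (hz : z ∈ J.M) (hwz : w ≠ z) (φ : W → ℝ) :
    dot φ (φ - avg (J.rX w z) φ) = J.D φ w z / 4 := by
  have h1 := J.sum_comp_τ hw hz (fun S => φ S ^ 2)
  unfold dot D
  have h2 : ∀ S, φ S * (φ - avg (J.rX w z) φ) S
      = (φ S ^ 2 - φ S * φ (J.τ w z S)) / 2 := by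
    intro S
    rw [Pi.sub_apply, J.avg_rX hw hz hwz]
    ring
  have h3 : ∀ S, (φ S - φ (J.τ w z S)) ^ 2
      = φ S ^ 2 + φ (J.τ w z S) ^ 2 - 2 * (φ S * φ (J.τ w z S)) := by
    intro S
    ring
  rw [Finset.sum_congr rfl (fun S _ => h2 S), Finset.sum_congr rfl (fun S _ => h3 S),
    Finset.sum_sub_distrib, Finset.sum_add_distrib, h1, ← Finset.sum_div, Finset.sum_sub_distrib,
    ← Finset.mul_sum]
  ring

end Sys
end JAbs
end P335
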