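import Vale.Agent.Lib.P335.Gen.JAvg1

/-!
# P335 general case: averaging operators on an abstract two-row fibre, part 2 (the defect term)
-/

namespace P335
namespace JAbs

open Finset

set_option linter.unusedSectionVars false

variable {W κ : Type*} [DecidableEq κ] (J : Sys W κ) [Fintype W]

namespace Sys

/-- For switchable `S` the class of `S` under `rA w z` is the set of all switchable configurations, so
`avg (rA w z) φ S = (Σ chi φ) / N`, and `avg ⊤ φ S = μ` is the mean (`avg_top`).  With
`ψ = φ - μ` this gives `avg (rA) φ S - μ = l ψ w z / N`, and summing the square over the `N` switchable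
configurations gives `(l ψ w z)^2 / N` (if `N = 0` both sides vanish). -/
theorem kap_rA (w z : κ) (φ : W → ℝ) :
    ∑ S, (if J.s S w ≠ J.s S z then
        (avg (J.rA w z) φ S - avg (fun _ _ => True) φ S) ^ 2 else 0)
      = (J.l (φ - avg (fun _ _ => True) φ) w z) ^ 2 / J.N w z := by
  classical
  obtain ⟨μ, hμ⟩ : ∃ μ : ℝ, ∀ S, avg (fun _ _ => True) φ S = μ :=
    ⟨_, fun S => avg_top φ S⟩
  set A : Finset W := univ.filter (fun S => J.s S w ≠ J.s S z) with hA
  have hN : J.N w z = (A.card : ℝ) := by
    unfold N chi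
    rw [← Finset.sum_filter, Finset.sum_const, nsmul_eq_mul, mul_one]
  have hl : J.l (φ - avg (fun _ _ => True) φ) w z = ∑ S ∈ A, φ S - (A.card : ℝ) * μ := by
    unfold l chi
    have : ∀ S, (if J.s S w ≠ J.s S z then (1 : ℝ) else 0) * (φ - avg (fun _ _ => True) φ) S
        = if J.s S w ≠ J.s S z then (φ S - μ) else 0 := by
      intro S
      simp only [Pi.sub_apply, hμ]
      split_ifs <;> simp
    rw [Finset.sum_congr rfl (fun S _ => this S), ← Finset.sum_filter, Finset.sum_sub_distrib,
      Finset.sum_const, nsmul_eq_mul]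
  have hcls : ∀ S ∈ A, cls (J.rA w z) S = A := by
    intro S hS
    have hS' : J.s S w ≠ J.s S z := (Finset.mem_filter.1 hS).2
    ext S'
    rw [mem_cls, hA, Finset.mem_filter]
    unfold rA
    constructor
    · intro h
      exact ⟨mem_univ _, h.1 hS'⟩
    · intro h
      exact ⟨fun _ => h.2, fun _ => hS'⟩
  have hterm : ∀ S ∈ A, (avg (J.rA w z) φ S - avg (fun _ _ => True) φ S) ^ 2
      = ((∑ S ∈ A, φ S) / (A.card : ℝ) - μ) ^ 2 := by
    intro S hS
    rw [hμ]
    unfold avg
    rw [hcls S hS]
  rw [← Finset.sum_filter, Finset.sum_congr rfl hterm, Finset.sum_const, nsmul_eq_mul, hN, hl]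
  by_cases h0 : (A.card : ℝ) = 0
  · rw [h0]
    simp
  · field_simp

/-- `D` does not see constants -/
theorem D_sub_mean (w z : κ) (φ : W → ℝ) :
    J.D (φ - avg (fun _ _ => True) φ) w z = J.D φ w z := by
  unfold D
  refine Finset.sum_congr rfl (fun S _ => ?_)
  simp only [Pi.sub_apply, avg_top]
  ring

theorem sum_sub_mean (φ : W → ℝ) : ∑ S, (φ - avg (fun _ _ => True) φ) S = 0 := by
  simp only [Pi.sub_apply, avg_top]
  rw [Finset.sum_sub_distrib, Finset.sum_const, nsmul_eq_mul, Finset.card_univ]
  by_cases h0 : (Fintype.card W : ℝ) = 0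
  · have : IsEmpty W := by
      have : Fintype.card W = 0 := by exact_mod_cast h0
      exact Fintype.card_eq_zero_iff.1 this
    simp
  · field_simp
    ring

end Sys
end JAbs
end P335
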