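import Vale.Agent.Lib.P335.Gen.FibreB2

/-!
# P335 general case: inequality (II) + sharp two-row gap, summed over the fibres of `RS {u,v}`

`pair_JS`: `2 <f, Q_uv f> ≤ Σ_{w,z : D4 u v w z} (<f, q_{uvwz} f> - kap u v w z f)`.
-/

namespace P335
namespace FB

open Finset

set_option linter.unusedSectionVars false

variable {V : Type*} [Fintype V] [DecidableEq V] {d : V → ℕ}

theorem flipG_ne {u v w z : V} (h : D4 u v w z) {Y : SG d} (hA : Alt u v w z Y.1) :
    flipG u v w z Y ≠ Y := by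
  intro heq
  have h1 : (flipG u v w z Y).1 u w = Y.1 u w := by rw [heq]
  rw [flipG_val h hA, flipRaw_of_slot _ (Or.inl ⟨Or.inl rfl, Or.inl rfl⟩)] at h1
  revert h1
  cases Y.1 u w <;> simp

/-- the heat bath on the 4-cycle -/
theorem avg_RX {u v w z : V} (h : D4 u v w z) (f : SG d → ℝ) (Y : SG d) :
    avg (RX u v w z) f Y = (f Y + f (flipG u v w z Y)) / 2 := by
  by_cases hA : Alt u v w z Y.1
  · have hne := flipG_ne h hA
    have hcls : cls (RX u v w z) Y = {Y, flipG u v w z Y} := by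
      ext a
      rw [mem_cls, mem_insert, mem_singleton]
      constructor
      · intro hr
        rcases RX_cases h hr with h1 | ⟨-, hval⟩
        · exact Or.inl h1.symm
        · exact Or.inr (Subtype.ext (hval.trans (flipG_val h hA).symm))
      · rintro (h1 | h1)
        · rw [h1]; exact (RX_equiv _ _ _ _).refl Y
        · rw [h1]; exact RX_flipG u v w z Y
    unfold avg
    rw [hcls, Finset.sum_pair hne.symm, Finset.card_pair hne.symm]
    norm_num
  · have hcls : cls (RX u v w z) Y = {Y} := by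
      ext a
      rw [mem_cls, mem_singleton]
      constructor
      · intro hr
        rcases RX_cases h hr with h1 | ⟨h2, -⟩
        · exact h1.symm
        · exact absurd h2 hA
      · intro h1
        rw [h1]; exact (RX_equiv _ _ _ _).refl Y
    unfold avg
    rw [hcls, flipG_of_not (fun h' => hA h'.2)]
    simp

/-- centred restriction of `f` to the fibre of `X0` -/
noncomputable def cen (u v : V) (f : SG d → ℝ) (X0 : SG d) : Fib (RS (d := d) {u, v}) X0 → ℝ :=
  fun Y => f Y.1 - avg (RS {u, v}) f X0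

theorem card_fib (u v : V) (X0 : SG d) :
    (Fintype.card (Fib (RS (d := d) {u, v}) X0) : ℝ) = ((cls (RS (d := d) {u, v}) X0).card : ℝ) := by
  have h := sum_cls_eq_sum_fib (RS (d := d) {u, v}) X0 (fun _ => (1 : ℝ))
  simp only [Finset.sum_const, nsmul_eq_mul, mul_one, Finset.card_univ] at h
  exact h.symm

theorem sum_cen (u v : V) (f : SG d → ℝ) (X0 : SG d) : ∑ Y, cen u v f X0 Y = 0 := by
  unfold cen
  rw [Finset.sum_sub_distrib, ← sum_cls_eq_sum_fib (RS (d := d) {u, v}) X0 f, Finset.sum_const,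
    Finset.card_univ, nsmul_eq_mul, card_fib]
  unfold avg
  have hpos : ((cls (RS (d := d) {u, v}) X0).card : ℝ) ≠ 0 := by
    have := (cls_nonempty (RS_equiv (d := d) {u, v}) X0).card_pos
    positivity
  field_simp
  ring

theorem avg_RS_fib (u v : V) (f : SG d → ℝ) (X0 : SG d) (Y : Fib (RS (d := d) {u, v}) X0) :
    avg (RS {u, v}) f Y.1 = avg (RS {u, v}) f X0 :=
  (avg_inv (RS_equiv {u, v}) f X0 Y.1 Y.2).symm

theorem chi_fib {u v : V} (huv : u ≠ v) (X0 : SG d) {w z : V} (hw : w ∈ freeCols u v X0.1)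
    (hz : z ∈ freeCols u v X0.1) (Y : Fib (RS (d := d) {u, v}) X0) :
    (fibSys huv X0).chi w z Y = if Alt u v w z Y.1.1 then 1 else 0 :=
  if_congr (alt_iff_of_free huv Y.2 hw hz).symm rfl rfl

theorem sum_cls_RSs {u v : V} (huv : u ≠ v) (X0 : SG d) {w z : V} (hw : w ∈ freeCols u v X0.1)
    (hz : z ∈ freeCols u v X0.1) (Y : Fib (RS (d := d) {u, v}) X0) (hA : Alt u v w z Y.1.1)
    (F : SG d → ℝ) :
    ∑ a ∈ cls (RSs u v w z) Y.1, F a =
      ∑ a : Fib (RS (d := d) {u, v}) X0, (fibSys huv X0).chi w z a * F a.1 := by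
  classical
  have hcls : cls (RSs u v w z) Y.1 =
      (cls (RS (d := d) {u, v}) X0).filter (fun b => Alt u v w z b.1) := by
    ext b
    rw [mem_cls, mem_filter, mem_cls]
    constructor
    · intro h
      exact ⟨(RS_equiv _).trans Y.2 h.1, h.2.1 hA⟩
    · intro h
      exact ⟨(RS_equiv _).trans ((RS_equiv _).symm Y.2) h.1, iff_of_true hA h.2⟩
  rw [hcls, Finset.sum_filter,
    sum_cls_eq_sum_fib (RS (d := d) {u, v}) X0 (fun b => if Alt u v w z b.1 then F b else 0)]
  refine Finset.sum_congr rfl (fun a _ => ?_)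
  rw [chi_fib huv X0 hw hz]
  split_ifs <;> simp

theorem avg_RSs_sub {u v : V} (huv : u ≠ v) (f : SG d → ℝ) (X0 : SG d) {w z : V}
    (hw : w ∈ freeCols u v X0.1) (hz : z ∈ freeCols u v X0.1) (Y : Fib (RS (d := d) {u, v}) X0)
    (hA : Alt u v w z Y.1.1) :
    avg (RSs u v w z) f Y.1 - avg (RS {u, v}) f Y.1 =
      (fibSys huv X0).l (cen u v f X0) w z / (fibSys huv X0).N w z := by
  set J := fibSys huv X0 with hJ
  have hN : ((cls (RSs u v w z) Y.1).card : ℝ) = J.N w z := by
    have h := sum_cls_RSs huv X0 hw hz Y hA (fun _ => (1 : ℝ))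
    simp only [Finset.sum_const, nsmul_eq_mul, mul_one] at h
    exact h
  have hNpos : 0 < J.N w z := by
    rw [← hN]
    have := (cls_nonempty (RSs_equiv (d := d) u v w z) Y.1).card_pos
    positivity
  have hl : J.l (cen u v f X0) w z =
      ∑ a ∈ cls (RSs u v w z) Y.1, f a - avg (RS {u, v}) f X0 * J.N w z := by
    rw [sum_cls_RSs huv X0 hw hz Y hA f]
    unfold JAbs.Sys.l JAbs.Sys.N cen
    rw [Finset.mul_sum, ← Finset.sum_sub_distrib]
    exact Finset.sum_congr rfl (fun a _ => by ring)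
  rw [avg_RS_fib, hl]
  unfold avg
  rw [hN]
  field_simp

/-- the local term of `<f, q f> - kap` -/
noncomputable def hloc (u v w z : V) (f : SG d → ℝ) (X : SG d) : ℝ :=
  (f X - avg (RX u v w z) f X) ^ 2 -
    (if Alt u v w z X.1 then (avg (RSs u v w z) f X - avg (RS {u, v}) f X) ^ 2 else 0)

theorem sum_hloc (u v w z : V) (f : SG d → ℝ) :
    ∑ X, hloc u v w z f X = dot f (f - avg (RX u v w z) f) - kap u v w z f := by
  unfold hloc kap
  rw [Finset.sum_sub_distrib, ← dot_Q_Q (RX_equiv u v w z) f]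
  congr 1
  unfold dot
  exact Finset.sum_congr rfl (fun X _ => by simp only [Pi.sub_apply]; ring)

theorem fib_term_free {u v : V} (huv : u ≠ v) (f : SG d → ℝ) (X0 : SG d) {w z : V}
    (hD : D4 u v w z) (hw : w ∈ freeCols u v X0.1) (hz : z ∈ freeCols u v X0.1) :
    ∑ Y : Fib (RS (d := d) {u, v}) X0, hloc u v w z f Y.1 =
      (fibSys huv X0).D (cen u v f X0) w z / 4 -
        (fibSys huv X0).l (cen u v f X0) w z ^ 2 / (fibSys huv X0).N w z := by
  set J := fibSys huv X0 with hJ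
  unfold hloc
  rw [Finset.sum_sub_distrib]
  congr 1
  · unfold JAbs.Sys.D
    rw [Finset.sum_div]
    refine Finset.sum_congr rfl (fun Y _ => ?_)
    rw [avg_RX hD]
    have h1 : cen u v f X0 (J.τ w z Y) = f (flipG u v w z Y.1) - avg (RS {u, v}) f X0 := rfl
    have h2 : cen u v f X0 Y = f Y.1 - avg (RS {u, v}) f X0 := rfl
    rw [h1, h2]
    ring
  · have h1 : ∀ Y : Fib (RS (d := d) {u, v}) X0,
        (if Alt u v w z Y.1.1 then (avg (RSs u v w z) f Y.1 - avg (RS {u, v}) f Y.1) ^ 2 else 0) =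
          J.chi w z Y * (J.l (cen u v f X0) w z / J.N w z) ^ 2 := by
      intro Y
      rw [chi_fib huv X0 hw hz]
      split_ifs with hA
      · rw [avg_RSs_sub huv f X0 hw hz Y hA, one_mul]
      · rw [zero_mul]
    rw [Finset.sum_congr rfl (fun Y _ => h1 Y), ← Finset.sum_mul]
    have h2 : ∑ Y, J.chi w z Y = J.N w z := rfl
    rw [h2]
    by_cases hN : J.N w z = 0
    · rw [hN]; simp
    · field_simp

theorem fib_term_frozen {u v : V} (f : SG d → ℝ) (X0 : SG d) {w z : V}
    (hD : D4 u v w z) (hwz : ¬ (w ∈ freeCols u v X0.1 ∧ z ∈ freeCols u v X0.1)) :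
    ∑ Y : Fib (RS (d := d) {u, v}) X0, hloc u v w z f Y.1 = 0 := by
  have hc : ¬ (X0.1 u w = !X0.1 v w ∧ X0.1 u z = !X0.1 v z) := by
    intro hc
    apply hwz
    constructor
    · rw [mem_freeCols]
      refine ⟨hD.2.1.symm, hD.2.2.2.1.symm, ?_⟩
      rw [hc.1]
      cases X0.1 v w <;> simp
    · rw [mem_freeCols]
      refine ⟨hD.2.2.1.symm, hD.2.2.2.2.1.symm, ?_⟩
      rw [hc.2]
      cases X0.1 v z <;> simp
  refine Finset.sum_eq_zero (fun Y _ => ?_)
  have hA : ¬ Alt u v w z Y.1.1 := not_Alt_of_col hD Y.2 hc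
  unfold hloc
  rw [if_neg hA, avg_RX hD, flipG_of_not (fun h => hA h.2)]
  ring

theorem fib_term {u v : V} (huv : u ≠ v) (f : SG d → ℝ) (X0 : SG d) (w z : V) :
    (if D4 u v w z then ∑ Y : Fib (RS (d := d) {u, v}) X0, hloc u v w z f Y.1 else 0) =
      if w ∈ freeCols u v X0.1 ∧ z ∈ freeCols u v X0.1 then
        (fibSys huv X0).D (cen u v f X0) w z / 4 -
          (fibSys huv X0).l (cen u v f X0) w z ^ 2 / (fibSys huv X0).N w z
      else 0 := by
  by_cases hD : D4 u v w z
  · rw [if_pos hD]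
    by_cases hwz : w ∈ freeCols u v X0.1 ∧ z ∈ freeCols u v X0.1
    · rw [if_pos hwz, fib_term_free huv f X0 hD hwz.1 hwz.2]
    · rw [if_neg hwz, fib_term_frozen f X0 hD hwz]
  · rw [if_neg hD]
    by_cases hwz : w ∈ freeCols u v X0.1 ∧ z ∈ freeCols u v X0.1
    · rw [if_pos hwz]
      have heq : w = z := by
        by_contra hne
        exact hD (D4_of_free huv hwz.1 hwz.2 hne)
      subst heq
      rw [(fibSys huv X0).D_self _ (show w ∈ (fibSys huv X0).M from hwz.1), (fibSys huv X0).l_self]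
      norm_num
    · rw [if_neg hwz]

theorem sum_sum_ite_mem (M : Finset V) (T : V → V → ℝ) :
    ∑ w, ∑ z, (if w ∈ M ∧ z ∈ M then T w z else 0) = ∑ w ∈ M, ∑ z ∈ M, T w z := by
  rw [← Finset.sum_filter_add_sum_filter_not univ (fun w => w ∈ M)]
  have h1 : ∑ w ∈ univ.filter (fun w => ¬ w ∈ M), ∑ z, (if w ∈ M ∧ z ∈ M then T w z else 0) = 0 := by
    refine Finset.sum_eq_zero (fun w hw => Finset.sum_eq_zero (fun z _ => ?_))
    rw [mem_filter] at hw
    rw [if_neg (fun h => hw.2 h.1)]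
  rw [h1, add_zero, Finset.filter_mem_eq_inter, Finset.univ_inter]
  refine Finset.sum_congr rfl (fun w hw => ?_)
  rw [← Finset.sum_filter_add_sum_filter_not univ (fun z => z ∈ M)]
  have h2 : ∑ z ∈ univ.filter (fun z => ¬ z ∈ M), (if w ∈ M ∧ z ∈ M then T w z else 0) = 0 := by
    refine Finset.sum_eq_zero (fun z hz => ?_)
    rw [mem_filter] at hz
    rw [if_neg (fun h => hz.2 h.2)]
  rw [h2, add_zero, Finset.filter_mem_eq_inter, Finset.univ_inter]
  exact Finset.sum_congr rfl (fun z hz => by rw [if_pos ⟨hw, hz⟩])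

/-- **(II) + sharp two-row gap, summed over the fibres** -/
theorem pair_JS {u v : V} (huv : u ≠ v) (f : SG d → ℝ) :
    2 * dot f (f - avg (RS {u, v}) f) ≤
      ∑ w, ∑ z, (if D4 u v w z then dot f (f - avg (RX u v w z) f) - kap u v w z f else 0) := by
  have hR := RS_equiv (d := d) {u, v}
  have hL : 2 * dot f (f - avg (RS {u, v}) f) = ∑ X, 2 * (f X - avg (RS {u, v}) f X) ^ 2 := by
    rw [← dot_Q_Q hR f, ← Finset.mul_sum]
    congr 1
    unfold dot
    exact Finset.sum_congr rfl (fun X _ => by simp only [Pi.sub_apply]; ring)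
  have hRr : ∑ w, ∑ z, (if D4 u v w z then dot f (f - avg (RX u v w z) f) - kap u v w z f else 0) =
      ∑ X, ∑ w, ∑ z, (if D4 u v w z then hloc u v w z f X else 0) := by
    symm
    rw [Finset.sum_comm]
    refine Finset.sum_congr rfl (fun w _ => ?_)
    rw [Finset.sum_comm]
    refine Finset.sum_congr rfl (fun z _ => ?_)
    by_cases hD : D4 u v w z
    · simp only [if_pos hD]
      rw [sum_hloc]
    · simp only [if_neg hD]
      simp
  rw [hL, hRr]
  refine sum_le_sum_of_cls hR _ _ (fun X0 => ?_)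
  rw [sum_cls_eq_sum_fib, sum_cls_eq_sum_fib]
  have h1 : ∑ Y : Fib (RS (d := d) {u, v}) X0, 2 * (f Y.1 - avg (RS {u, v}) f Y.1) ^ 2 =
      2 * ∑ Y, cen u v f X0 Y ^ 2 := by
    rw [Finset.mul_sum]
    refine Finset.sum_congr rfl (fun Y _ => ?_)
    rw [avg_RS_fib]
    rfl
  have h2 : ∑ Y : Fib (RS (d := d) {u, v}) X0, ∑ w, ∑ z,
      (if D4 u v w z then hloc u v w z f Y.1 else 0) =
      ∑ w ∈ (fibSys huv X0).M, ∑ z ∈ (fibSys huv X0).M,
        ((fibSys huv X0).D (cen u v f X0) w z / 4 -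
          (fibSys huv X0).l (cen u v f X0) w z ^ 2 / (fibSys huv X0).N w z) := by
    rw [Finset.sum_comm]
    rw [← sum_sum_ite_mem]
    refine Finset.sum_congr rfl (fun w _ => ?_)
    rw [Finset.sum_comm]
    refine Finset.sum_congr rfl (fun z _ => ?_)
    refine Eq.trans ?_ (fib_term huv f X0 w z)
    by_cases hD : D4 u v w z
    · simp only [if_pos hD]
    · simp only [if_neg hD]
      simp
  rw [h1, h2]
  exact (fibSys huv X0).main (cen u v f X0) (sum_cen u v f X0)

theorem kap_nonneg (u v w z : V) (f : SG d → ℝ) : 0 ≤ kap u v w z f := by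
  unfold kap
  refine Finset.sum_nonneg (fun X _ => ?_)
  split_ifs
  · exact sq_nonneg _
  · exact le_refl _

/-- two-row Poincare inequality -/
theorem pair_gap {u v : V} (huv : u ≠ v) (f : SG d → ℝ) :
    2 * dot f (f - avg (RS {u, v}) f) ≤
      ∑ w, ∑ z, (if D4 u v w z then dot f (f - avg (RX u v w z) f) else 0) := by
  refine le_trans (pair_JS huv f) ?_
  refine Finset.sum_le_sum (fun w _ => Finset.sum_le_sum (fun z _ => ?_))
  split_ifs
  · linarith [kap_nonneg u v w z f]
  · exact le_refl _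

end FB
end P335
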