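import Vale.Agent.Lib.P335.Gen.GlueDefs
import Vale.Agent.Lib.P335.Gen.Base

/-!
# P335 general case: `RSs` is the join of `RSn` and `RX`
-/

namespace P335

open Finset

set_option linter.unusedSectionVars false

variable {V : Type*} [Fintype V] [DecidableEq V] {d : V → ℕ}

theorem RSn_le_RSs {u v w z : V} {X Y : SG d} (h : RSn u v w z X Y) : RSs u v w z X Y :=
  ⟨h.1, h.2.1⟩

/-- the switch on the 4-cycle `u w v z`, as a map on `SG d` (identity on non-alternating graphs) -/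
noncomputable def flipSGs1 {u v w z : V} (h : D4 u v w z) (Y : SG d) : SG d :=
  if hA : Alt u v w z Y.1 then ⟨flipRaw u v w z Y.1, isSG_flipRaw h Y.2 hA⟩ else Y

theorem flipSGs1_val_of_alt {u v w z : V} (h : D4 u v w z) {Y : SG d} (hA : Alt u v w z Y.1) :
    (flipSGs1 h Y).1 = flipRaw u v w z Y.1 := by
  unfold flipSGs1
  rw [dif_pos hA]

theorem flipSGs1_of_not_alt {u v w z : V} (h : D4 u v w z) {Y : SG d} (hA : ¬ Alt u v w z Y.1) :
    flipSGs1 h Y = Y := by
  unfold flipSGs1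
  rw [dif_neg hA]

theorem RX_flipSGs1 {u v w z : V} (h : D4 u v w z) (Y : SG d) : RX u v w z Y (flipSGs1 h Y) := by
  by_cases hA : Alt u v w z Y.1
  · intro i j hij
    rw [flipSGs1_val_of_alt h hA]
    unfold flipRaw
    rw [if_neg hij]
  · rw [flipSGs1_of_not_alt h hA]
    exact (RX_equiv u v w z).refl Y

theorem Alt_flipSGs1 {u v w z : V} (h : D4 u v w z) {Y : SG d} (hA : Alt u v w z Y.1) :
    Alt u v w z (flipSGs1 h Y).1 := by
  rw [flipSGs1_val_of_alt h hA]
  exact Alt_flipRaw h hA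

theorem flipSGs1_flipSGs1 {u v w z : V} (h : D4 u v w z) (Y : SG d) : flipSGs1 h (flipSGs1 h Y) = Y := by
  by_cases hA : Alt u v w z Y.1
  · apply Subtype.ext
    rw [flipSGs1_val_of_alt h (Alt_flipSGs1 h hA), flipSGs1_val_of_alt h hA, flipRaw_flipRaw]
  · rw [flipSGs1_of_not_alt h hA, flipSGs1_of_not_alt h hA]

theorem flipRaw_uw_s1 (u v w z : V) (X : V → V → Bool) : flipRaw u v w z X u w = !(X u w) := by
  unfold flipRaw
  rw [if_pos]
  exact Or.inl ⟨Or.inl rfl, Or.inl rfl⟩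

/-- If `RSs X Y`: when the cycle is not alternating, or `X u w = Y u w`, then `RSn X Y`.  Otherwise
let `Y'` be the flip of `Y` (`isSG_flipRaw`); then `RX Y Y'` and `RSn X Y'`. -/
theorem inv_RSs_of_inv {u v w z : V} (h : D4 u v w z) {g : SG d → ℝ} (h1 : Inv (RSn u v w z) g)
    (h2 : Inv (RX u v w z) g) : Inv (RSs u v w z) g := by
  intro X Y hXY
  by_cases hA : Alt u v w z X.1
  · by_cases he : X.1 u w = Y.1 u w
    · exact h1 X Y ⟨hXY.1, hXY.2, fun _ => he⟩
    · have hAY : Alt u v w z Y.1 := hXY.2.1 hA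
      have hRX : RX u v w z Y (flipSGs1 h Y) := RX_flipSGs1 h Y
      have hn : RSn u v w z X (flipSGs1 h Y) := by
        refine ⟨(RS_equiv _).trans hXY.1 (RX_le_RS hRX), ⟨fun _ => Alt_flipSGs1 h hAY, fun _ => hA⟩,
          fun _ => ?_⟩
        rw [flipSGs1_val_of_alt h hAY, flipRaw_uw_s1]
        revert he
        cases X.1 u w <;> cases Y.1 u w <;> simp
      rw [h1 X _ hn]
      exact (h2 Y _ hRX).symm
  · exact h1 X Y ⟨hXY.1, hXY.2, fun hA' => absurd hA' hA⟩

theorem RSn_flipSGs1 {u v w z : V} (h : D4 u v w z) {G G' Y : SG d} (hA : Alt u v w z G.1)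
    (hG : G'.1 = flipRaw u v w z G.1) (hY : RSn u v w z G Y) : RSn u v w z G' (flipSGs1 h Y) := by
  have hAY : Alt u v w z Y.1 := hY.2.1.1 hA
  have hG' : G' = flipSGs1 h G := Subtype.ext (by rw [hG, flipSGs1_val_of_alt h hA])
  have hAG' : Alt u v w z G'.1 := by
    rw [hG]
    exact Alt_flipRaw h hA
  refine ⟨?_, ⟨fun _ => Alt_flipSGs1 h hAY, fun _ => hAG'⟩, fun _ => ?_⟩
  · have e1 : RS {u, v} G' G := by
      rw [hG']
      exact (RS_equiv _).symm (RX_le_RS (RX_flipSGs1 h G))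
    exact (RS_equiv _).trans e1 ((RS_equiv _).trans hY.1 (RX_le_RS (RX_flipSGs1 h Y)))
  · rw [hG, flipSGs1_val_of_alt h hAY, flipRaw_uw_s1, flipRaw_uw_s1, hY.2.2 hA]

/-- `avg_comm_of_preserves` + `avg_eq_avg_of_bij`: let `g` be `RX`-invariant and `RX G G'`.  By
`RX_cases` either `G = G'` (trivial) or both are alternating and `G'` is the flip of `G`; then
`Y ↦ flip Y` (identity on non-alternating `Y`) maps the `RSn`-class of `G` bijectively onto that of
`G'` and `RX Y (flip Y)`. -/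
theorem RSn_RX_comm {u v w z : V} (h : D4 u v w z) (f : SG d → ℝ) :
    avg (RSn u v w z) (avg (RX u v w z) f) = avg (RX u v w z) (avg (RSn u v w z) f) := by
  refine avg_comm_of_preserves (RSn_equiv u v w z) (RX_equiv u v w z) ?_ f
  intro g hg G G' hGG'
  rcases RX_cases h hGG' with rfl | ⟨hA, hG⟩
  · rfl
  · have hAG' : Alt u v w z G'.1 := by
      rw [hG]
      exact Alt_flipRaw h hA
    have hG2 : G.1 = flipRaw u v w z G'.1 := by
      rw [hG, flipRaw_flipRaw]
    exact avg_eq_avg_of_bij (RSn_equiv u v w z) g G G' (flipSGs1 h) (flipSGs1 h)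
      (fun Y hY => RSn_flipSGs1 h hA hG hY) (fun Y hY => RSn_flipSGs1 h hAG' hG2 hY)
      (fun Y _ => flipSGs1_flipSGs1 h Y) (fun Y _ => flipSGs1_flipSGs1 h Y)
      (fun Y _ => hg Y _ (RX_flipSGs1 h Y))

end P335
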