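import Vale.Agent.Lib.P335.Avg

/-!
# P335 general case: two abstract facts about averaging operators
-/

namespace P335

open Finset

variable {Ω : Type*} [Fintype Ω]

/-- If `avg r₁`, `avg r₂` commute, `r₁, r₂ ≤ r₃` and every function invariant under `r₁` and `r₂` is
`r₃`-invariant, then `avg r₁ ∘ avg r₂ = avg r₃`.
Proof: `g = avg r₁ (avg r₂ f)` is `r₁`-invariant and, by commutation, `r₂`-invariant, hence
`r₃`-invariant, so `g = avg r₃ g` (`avg_of_inv`), and `avg r₃ g = avg r₃ f` by the tower property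
(`avg_avg_of_le` twice). -/
theorem avg_join {r₁ r₂ r₃ : Ω → Ω → Prop} (h₁ : Equivalence r₁) (h₂ : Equivalence r₂)
    (h₃ : Equivalence r₃) (l₁ : ∀ a b, r₁ a b → r₃ a b) (l₂ : ∀ a b, r₂ a b → r₃ a b)
    (hc : ∀ f : Ω → ℝ, avg r₁ (avg r₂ f) = avg r₂ (avg r₁ f))
    (hj : ∀ g : Ω → ℝ, Inv r₁ g → Inv r₂ g → Inv r₃ g) (f : Ω → ℝ) :
    avg r₁ (avg r₂ f) = avg r₃ f := by
  have i1 : Inv r₁ (avg r₁ (avg r₂ f)) := avg_inv h₁ _
  have i2 : Inv r₂ (avg r₁ (avg r₂ f)) := by
    rw [hc f]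
    exact avg_inv h₂ _
  have i3 : Inv r₃ (avg r₁ (avg r₂ f)) := hj _ i1 i2
  rw [← avg_of_inv h₃ i3, avg_avg_of_le h₁ h₃ l₁, avg_avg_of_le h₂ h₃ l₂]

/-- auxiliary: `1 - avg s` and `avg t - avg r` (`t ≤ r`) are commuting symmetric idempotents, so
their cross term is nonnegative -/
theorem sharp_aux_QH {s t r : Ω → Ω → Prop} (hs : Equivalence s) (ht : Equivalence t)
    (hr : Equivalence r) (htr : ∀ a b, t a b → r a b)
    (c1 : ∀ f : Ω → ℝ, avg s (avg t f) = avg t (avg s f))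
    (c2 : ∀ f : Ω → ℝ, avg s (avg r f) = avg r (avg s f)) (f : Ω → ℝ) :
    0 ≤ dot (f - avg s f) (avg t f - avg r f) := by
  obtain ⟨w, hw⟩ : ∃ w : Ω → ℝ, w = avg t f - avg r f := ⟨_, rfl⟩
  -- `H w = w`
  have hHw : avg t w - avg r w = w := by
    rw [hw, avg_sub, avg_sub, avg_idem ht, avg_avg_of_ge ht hr htr, avg_avg_of_le ht hr htr,
      avg_idem hr]
    abel
  -- `S w = H (S f)`
  have hSw : avg s w = avg t (avg s f) - avg r (avg s f) := by
    rw [hw, avg_sub, c1, c2]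
  have h1 : dot (f - avg s f) w = dot (w - avg s w) w := by
    have e1 : dot (f - avg s f) w = dot (f - avg s f) (avg t w - avg r w) := by rw [hHw]
    rw [e1, dot_sub_right, ← avg_symm ht, ← avg_symm hr, ← dot_sub_left, avg_sub, avg_sub, hSw, hw]
    congr 1
    abel
  rw [← hw, h1, dot_comm, ← dot_Q_Q hs w]
  exact dot_self_nonneg _

/-- auxiliary: the main term of the sharp decomposition -/
theorem sharp_aux_main {s s' x : Ω → Ω → Prop} (hs : Equivalence s) (hs' : Equivalence s')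
    (hx : Equivalence x) (hxs : ∀ a b, x a b → s a b) (hxs' : ∀ a b, x a b → s' a b)
    (c1 : ∀ f : Ω → ℝ, avg s (avg s' f) = avg s' (avg s f)) (f : Ω → ℝ) :
    dot f (f - avg x f) ≤ dot (f - avg s f) (f - avg s' f) := by
  obtain ⟨k, hk⟩ : ∃ k : Ω → ℝ, k = avg x f := ⟨_, rfl⟩
  obtain ⟨g, hg⟩ : ∃ g : Ω → ℝ, g = f - avg x f := ⟨_, rfl⟩
  have hSk : avg s k = avg s f := by rw [hk, avg_avg_of_le hx hs hxs]
  have hSk' : avg s' k = avg s' f := by rw [hk, avg_avg_of_le hx hs' hxs']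
  have hu : f - avg s f = (k - avg s k) + g := by
    rw [hSk, hg, hk]
    abel
  have hu' : f - avg s' f = (k - avg s' k) + g := by
    rw [hSk', hg, hk]
    abel
  have hxg : avg x g = 0 := by
    rw [hg, avg_sub, avg_idem hx, sub_self]
  have hxa : avg x (k - avg s k) = k - avg s k := by
    rw [avg_sub, avg_avg_of_ge hx hs hxs, hk, avg_idem hx]
  have hxa' : avg x (k - avg s' k) = k - avg s' k := by
    rw [avg_sub, avg_avg_of_ge hx hs' hxs', hk, avg_idem hx]
  have hz : ∀ v : Ω → ℝ, dot v (0 : Ω → ℝ) = 0 := by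
    intro v
    simp [dot]
  have o1 : dot (k - avg s k) g = 0 := by
    rw [← hxa, avg_symm hx, hxg, hz]
  have o2 : dot g (k - avg s' k) = 0 := by
    rw [dot_comm, ← hxa', avg_symm hx, hxg, hz]
  have hgg : dot g g = dot f g := by
    rw [hg]
    exact dot_Q_Q hx f
  have hpos : 0 ≤ dot (k - avg s k) (k - avg s' k) := dot_Q_Q_nonneg_of_comm hs hs' c1 k
  rw [hu, hu', ← hg, dot_add_left, dot_add_right, dot_add_right, o1, o2, hgg]
  linarith

/-- **The sharp decomposition.**  `P = avg r`, `P' = avg r'`, `S = avg s`, `S' = avg s'`, `X = avg x`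
with `x ≤ s ≤ r`, `x ≤ s' ≤ r'`; `S` commutes with `S'` and `P'`, `S'` commutes with `P`.
Write `f - P f = u + h`, `u = f - S f`, `h = S f - P f`, and `f - P' f = u' + h'`.  Then
* `dot u u' ≥ dot f (f - X f)`: with `g = f - X f`, `k = X f` one has `u = (k - S k) + g`,
  `u' = (k - S' k) + g` (because `S g = 0 = S' g` by the tower property), `k - S k`, `k - S' k` are
  `x`-invariant and `g` is orthogonal to `x`-invariant functions, `dot g g = dot f g` (`dot_Q_Q`), and
  `dot (k - S k) (k - S' k) ≥ 0` by `dot_Q_Q_nonneg_of_comm`;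
* `dot u h' ≥ 0`: `H' = S' - P'` is a symmetric idempotent commuting with `1 - S`, so with `w = H' f`:
  `dot u h' = dot (f - S f) (H' w) = dot (H' (f - S f)) w = dot (w - S w) w ≥ 0`; same for `dot h u'`;
* `dot h h' = Σ_a h a * h' a ≥ - (1/2) Σ_{σ a} (h a ^ 2 + h' a ^ 2)` by `c5` and `2 x y ≥ - x^2 - y^2`. -/
theorem sharp_ineq {r r' s s' x : Ω → Ω → Prop}
    (hr : Equivalence r) (hr' : Equivalence r') (hs : Equivalence s) (hs' : Equivalence s')
    (hx : Equivalence x)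
    (hsr : ∀ a b, s a b → r a b) (hsr' : ∀ a b, s' a b → r' a b)
    (hxs : ∀ a b, x a b → s a b) (hxs' : ∀ a b, x a b → s' a b)
    (c1 : ∀ f : Ω → ℝ, avg s (avg s' f) = avg s' (avg s f))
    (c2 : ∀ f : Ω → ℝ, avg s (avg r' f) = avg r' (avg s f))
    (c3 : ∀ f : Ω → ℝ, avg r (avg s' f) = avg s' (avg r f))
    (σ : Ω → Prop) [DecidablePred σ]
    (c5 : ∀ (f : Ω → ℝ) (a : Ω), ¬ σ a → (avg s f a - avg r f a) * (avg s' f a - avg r' f a) = 0)
    (f : Ω → ℝ) :
    dot f (f - avg x f) - (1 / 2) * ∑ a, (if σ a then (avg s f a - avg r f a) ^ 2 else 0)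
        - (1 / 2) * ∑ a, (if σ a then (avg s' f a - avg r' f a) ^ 2 else 0)
      ≤ dot (f - avg r f) (f - avg r' f) := by
  have hA := sharp_aux_main hs hs' hx hxs hxs' c1 f
  have hB := sharp_aux_QH hs hs' hr' hsr' c1 c2 f
  have hC := sharp_aux_QH hs' hs hr hsr (fun g => (c1 g).symm) (fun g => (c3 g).symm) f
  have hD : - ((1 / 2) * ∑ a, (if σ a then (avg s f a - avg r f a) ^ 2 else 0))
        - (1 / 2) * ∑ a, (if σ a then (avg s' f a - avg r' f a) ^ 2 else 0)
      ≤ dot (avg s f - avg r f) (avg s' f - avg r' f) := by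
    unfold dot
    rw [Finset.mul_sum, Finset.mul_sum, ← Finset.sum_neg_distrib, ← Finset.sum_sub_distrib]
    refine Finset.sum_le_sum (fun a _ => ?_)
    simp only [Pi.sub_apply]
    by_cases ha : σ a
    · rw [if_pos ha, if_pos ha]
      nlinarith [sq_nonneg ((avg s f a - avg r f a) + (avg s' f a - avg r' f a))]
    · rw [if_neg ha, if_neg ha, c5 f a ha]
      simp
  have e1 : f - avg r f = (f - avg s f) + (avg s f - avg r f) := by abel
  have e2 : f - avg r' f = (f - avg s' f) + (avg s' f - avg r' f) := by abel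
  rw [e1, e2, dot_add_left, dot_add_right, dot_add_right]
  rw [dot_comm (f - avg s' f) (avg s f - avg r f)] at hC
  linarith

end P335
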