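import Vale.Agent.Lib.P335.Gen.Sharp1
import Vale.Agent.Lib.P335.Gen.Sharp2
import Vale.Agent.Lib.P335.Gen.Glue4

/-!
# P335 general case: the commutation relations of the sharp averages
-/

namespace P335

open Finset

set_option linter.unusedSectionVars false

variable {V : Type*} [Fintype V] [DecidableEq V] {d : V → ℕ}

/-- `avg_comm_of_preserves` + `avg_eq_avg_of_bij` with `glue_exists` -/
theorem RSn_RS_comm {u v w z : V} (h : D4 u v w z) (f : SG d → ℝ) :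
    avg (RSn u v w z) (avg (RS {w, z}) f) = avg (RS {w, z}) (avg (RSn u v w z) f) := by
  refine avg_comm_of_preserves (RSn_equiv u v w z) (RS_equiv {w, z}) ?_ f
  intro g hg G G' hGG'
  obtain ⟨Φ, Ψ, h1, h2, h3, h4, h5⟩ := glue_exists h G G' hGG'
  exact avg_eq_avg_of_bij (RSn_equiv u v w z) g G G' Φ Ψ h1 h2 h3 h4
    (fun Y hY => hg Y (Φ Y) (h5 Y hY))

/-- same bijection: if `RSs w z u v G G'` and `RSn u v w z G Y` then `RSs w z u v Y (Φ Y)`, because
`RS {w,z} Y (Φ Y)` and the alternation statuses of `Y, G, G', Φ Y` all coincide (`Alt_swap`) -/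
theorem RSn_RSs_comm {u v w z : V} (h : D4 u v w z) (f : SG d → ℝ) :
    avg (RSn u v w z) (avg (RSs w z u v) f) = avg (RSs w z u v) (avg (RSn u v w z) f) := by
  refine avg_comm_of_preserves (RSn_equiv u v w z) (RSs_equiv w z u v) ?_ f
  intro g hg G G' hGG'
  obtain ⟨Φ, Ψ, h1, h2, h3, h4, h5⟩ := glue_exists h G G' hGG'.1
  refine avg_eq_avg_of_bij (RSn_equiv u v w z) g G G' Φ Ψ h1 h2 h3 h4
    (fun Y hY => hg Y (Φ Y) ⟨h5 Y hY, ?_⟩)
  have e1 : Alt u v w z G.1 ↔ Alt u v w z Y.1 := hY.2.1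
  have e2 : Alt u v w z G'.1 ↔ Alt u v w z (Φ Y).1 := (h1 Y hY).2.1
  have e3 : Alt w z u v G.1 ↔ Alt w z u v G'.1 := hGG'.2
  rw [Alt_swap u v w z Y, Alt_swap u v w z (Φ Y), ← e1, ← e2, ← Alt_swap u v w z G,
    ← Alt_swap u v w z G']
  exact e3

/-- `avg_join` with `RSn_RX_comm`, `inv_RSs_of_inv`, `RSn_le_RSs`, `RX_le_RSs` -/
theorem avg_RSs_eq {u v w z : V} (h : D4 u v w z) (f : SG d → ℝ) :
    avg (RSn u v w z) (avg (RX u v w z) f) = avg (RSs u v w z) f :=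
  avg_join (RSn_equiv u v w z) (RX_equiv u v w z) (RSs_equiv u v w z)
    (fun _ _ hab => RSn_le_RSs hab) (fun _ _ hab => RX_le_RSs h hab) (RSn_RX_comm h)
    (fun _ h1 h2 => inv_RSs_of_inv h h1 h2) f

theorem RX_le_RS_wz {u v w z : V} {X Y : SG d} (hXY : RX u v w z X Y) : RS {w, z} X Y :=
  RX_le_RS ((RX_swap u v w z X Y).2 hXY)

theorem RX_le_RSs_wz {u v w z : V} (h : D4 u v w z) {X Y : SG d} (hXY : RX u v w z X Y) :
    RSs w z u v X Y :=
  RX_le_RSs h.swap ((RX_swap u v w z X Y).2 hXY)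

/-- `S = A B` (`avg_RSs_eq`, `A = avg RSn`, `B = avg RX`), `B P' = P' = P' B` (tower; `RX ≤ RS {w,z}` by
`RX_swap`, `RX_le_RS`), `A P' = P' A`: `S P' f = A B P' f = A P' f` and
`P' S f = P' A B f = A P' B f = A P' f`. -/
theorem RSs_RS_comm {u v w z : V} (h : D4 u v w z) (f : SG d → ℝ) :
    avg (RSs u v w z) (avg (RS {w, z}) f) = avg (RS {w, z}) (avg (RSs u v w z) f) := by
  rw [← avg_RSs_eq h, ← avg_RSs_eq h, ← RSn_RS_comm h,
    avg_avg_of_ge (RX_equiv u v w z) (RS_equiv {w, z}) (fun _ _ hab => RX_le_RS_wz hab),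
    avg_avg_of_le (RX_equiv u v w z) (RS_equiv {w, z}) (fun _ _ hab => RX_le_RS_wz hab)]

/-- same computation with `S' = avg (RSs w z u v)` instead of `P'` (`RX u v w z ≤ RSs w z u v` by
`RX_swap` and `RX_le_RSs` for the tuple `w z u v`, `D4.swap`) -/
theorem RSs_RSs_comm {u v w z : V} (h : D4 u v w z) (f : SG d → ℝ) :
    avg (RSs u v w z) (avg (RSs w z u v) f) = avg (RSs w z u v) (avg (RSs u v w z) f) := by
  rw [← avg_RSs_eq h, ← avg_RSs_eq h, ← RSn_RSs_comm h,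
    avg_avg_of_ge (RX_equiv u v w z) (RSs_equiv w z u v) (fun _ _ hab => RX_le_RSs_wz h hab),
    avg_avg_of_le (RX_equiv u v w z) (RSs_equiv w z u v) (fun _ _ hab => RX_le_RSs_wz h hab)]

end P335
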