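import Vale.Agent.Lib.P335.Gen.Sharp3

/-!
# P335 general case: inequality (I) for two disjoint pairs
-/

namespace P335

open Finset

set_option linter.unusedSectionVars false

variable {V : Type*} [Fintype V] [DecidableEq V] {d : V → ℕ}

/-- if two relations have the same class at `a` the averages agree at `a` -/
theorem avg_congr_at {Ω : Type*} [Fintype Ω] {r₁ r₂ : Ω → Ω → Prop} {a : Ω}
    (h : ∀ b, r₁ a b ↔ r₂ a b) (f : Ω → ℝ) : avg r₁ f a = avg r₂ f a := by
  have hc : cls r₁ a = cls r₂ a := by
    ext b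
    rw [mem_cls, mem_cls]
    exact h b
  unfold avg
  rw [hc]

/-- if the column sums of the block of `X` are not `(1,1)`, the sharp average and the plain average
over the `{u,v}`-fibre agree at `X` -/
theorem avg_RSs_eq_of_col {u v w z : V} (h : D4 u v w z) (f : SG d → ℝ) (X : SG d)
    (hc : ¬ (X.1 u w = !X.1 v w ∧ X.1 u z = !X.1 v z)) :
    avg (RSs u v w z) f X = avg (RS {u, v}) f X := by
  refine avg_congr_at (fun Y => ⟨fun hY => hY.1, fun hY => ⟨hY, ?_⟩⟩) f
  have h1 : ¬ Alt u v w z X.1 := not_Alt_of_col h ((RS_equiv _).refl X) hc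
  have h2 : ¬ Alt u v w z Y.1 := not_Alt_of_col h hY hc
  exact ⟨fun h' => absurd h' h1, fun h' => absurd h' h2⟩

/-- If the block of `X` does not have column sums `(1,1)`, no graph of the `{u,v}`-fibre of `X` is
alternating (`not_Alt_of_col`), so the classes of `RSs u v w z` and `RS {u,v}` at `X` coincide and the
first factor vanishes (`avg_congr_at`).  If it does not have row sums `(1,1)` the second factor
vanishes (same lemma for the tuple `w z u v`, symmetry of `X`).  If both are `(1,1)` the block is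
alternating. -/
theorem H_support {u v w z : V} (h : D4 u v w z) (f : SG d → ℝ) (X : SG d)
    (hX : ¬ Alt u v w z X.1) :
    (avg (RSs u v w z) f X - avg (RS {u, v}) f X)
      * (avg (RSs w z u v) f X - avg (RS {w, z}) f X) = 0 := by
  by_cases hc : X.1 u w = !X.1 v w ∧ X.1 u z = !X.1 v z
  · by_cases hr : X.1 w u = !X.1 z u ∧ X.1 w v = !X.1 z v
    · exfalso
      apply hX
      obtain ⟨c1, c2⟩ := hc
      obtain ⟨r1, r2⟩ := hr
      rw [X.symm w u, X.symm z u] at r1
      rw [X.symm w v, X.symm z v] at r2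
      unfold Alt
      revert c1 c2 r1 r2
      cases X.1 u w <;> cases X.1 v w <;> cases X.1 u z <;> cases X.1 v z <;> simp
    · rw [avg_RSs_eq_of_col h.swap f X hr, sub_self, mul_zero]
  · rw [avg_RSs_eq_of_col h f X hc, sub_self, zero_mul]

/-- **Inequality (I)**: `sharp_ineq` with `r = RS {u,v}`, `r' = RS {w,z}`, `s = RSs u v w z`,
`s' = RSs w z u v`, `x = RX u v w z`, `σ X = Alt u v w z X.1`; `c3` is `RSs_RS_comm` for the tuple
`w z u v`; rewrite the second `if` with `Alt_swap`. -/
theorem sg_disj {u v w z : V} (h : D4 u v w z) (f : SG d → ℝ) :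
    dot f (f - avg (RX u v w z) f) - (1 / 2) * kap u v w z f - (1 / 2) * kap w z u v f
      ≤ dot (f - avg (RS {u, v}) f) (f - avg (RS {w, z}) f) := by
  have key := sharp_ineq (RS_equiv (d := d) {u, v}) (RS_equiv (d := d) {w, z})
    (RSs_equiv (d := d) u v w z) (RSs_equiv (d := d) w z u v) (RX_equiv (d := d) u v w z)
    (fun _ _ hab => hab.1) (fun _ _ hab => hab.1)
    (fun _ _ hab => RX_le_RSs h hab)
    (fun a b hab => RX_le_RSs h.swap ((RX_swap u v w z a b).2 hab))
    (fun g => RSs_RSs_comm h g) (fun g => RSs_RS_comm h g)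
    (fun g => (RSs_RS_comm h.swap g).symm)
    (fun X : SG d => Alt u v w z X.1)
    (fun g a ha => H_support h g a ha) f
  have e2 : kap w z u v f = ∑ a : SG d, (if Alt u v w z a.1 then
      (avg (RSs w z u v) f a - avg (RS {w, z}) f a) ^ 2 else 0) := by
    unfold kap
    refine Finset.sum_congr rfl fun a _ => ?_
    by_cases hA : Alt u v w z a.1
    · rw [if_pos hA, if_pos ((Alt_swap u v w z a).2 hA)]
    · rw [if_neg hA, if_neg (fun h' => hA ((Alt_swap u v w z a).1 h'))]
  rw [e2]
  exact key

end P335
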